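import Vale.Agent.P254.Defs

/-!
# P254, module AFF: affine invariance
-/

set_option autoImplicit false

namespace Vale.Agent.P254

open MeasureTheory Set
open scoped Matrix

namespace AFF

section body
variable {ι κ : Type} [Fintype ι] [Fintype κ]

lemma cont (T : (ι → ℝ) ≃ᵃ[ℝ] (κ → ℝ)) : Continuous T :=
  T.toAffineMap.continuous_of_finiteDimensional

/-- the affine equivalence as a homeomorphism -/
noncomputable def homeo (T : (ι → ℝ) ≃ᵃ[ℝ] (κ → ℝ)) : (ι → ℝ) ≃ₜ (κ → ℝ) where
  toEquiv := T.toEquiv
  continuous_toFun := cont T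
  continuous_invFun := cont T.symm

lemma body {K : Set (ι → ℝ)} (T : (ι → ℝ) ≃ᵃ[ℝ] (κ → ℝ)) (hK : Body K) : Body (T '' K) := by
  refine ⟨?_, hK.compact.image (cont T), ?_⟩
  · exact hK.convex.affine_image T.toAffineMap
  · have h := (homeo T).image_interior K
    have h2 : (homeo T '' K) = T '' K := rfl
    rw [h2] at h
    rw [← h]
    exact hK.interior.image _

lemma vol_pos {K : Set (ι → ℝ)} (hK : Body K) : 0 < vol K := by
  unfold vol
  refine ENNReal.toReal_pos ?_ hK.compact.measure_lt_top.ne
  have h1 : 0 < volume (interior K) := isOpen_interior.measure_pos _ hK.interior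
  exact (h1.trans_le (measure_mono interior_subset)).ne'

lemma integ {K : Set (ι → ℝ)} (hK : Body K) {f : (ι → ℝ) → ℝ} (hf : Continuous f) :
    IntegrableOn f K :=
  hf.continuousOn.integrableOn_compact hK.compact

end body

section sq
variable {ι : Type} [Fintype ι] [DecidableEq ι]

lemma apply_eq (T : (ι → ℝ) ≃ᵃ[ℝ] (ι → ℝ)) (x : ι → ℝ) :
    T x = T.linear x + T 0 := by
  have := T.map_vadd 0 x
  simpa using this

lemma integral_image (T : (ι → ℝ) ≃ᵃ[ℝ] (ι → ℝ)) {K : Set (ι → ℝ)} (hK : MeasurableSet K)
    (f : (ι → ℝ) → ℝ) : ∫ y in T '' K, f y =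
      |LinearMap.det (T.linear : (ι → ℝ) →ₗ[ℝ] (ι → ℝ))| * ∫ x in K, f (T x) := by
  let B : (ι → ℝ) →L[ℝ] (ι → ℝ) :=
    LinearMap.toContinuousLinearMap (T.linear : (ι → ℝ) →ₗ[ℝ] (ι → ℝ))
  have hT : (T : (ι → ℝ) → (ι → ℝ)) = fun x => B x + T 0 := by
    funext x
    exact apply_eq T x
  have hd : ∀ x ∈ K, HasFDerivWithinAt (T : (ι → ℝ) → (ι → ℝ)) B K x := by
    intro x _
    rw [hT]
    exact (B.hasFDerivAt.add_const _).hasFDerivWithinAt
  rw [integral_image_eq_integral_abs_det_fderiv_smul volume hK hd T.injective.injOn f]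
  simp only [smul_eq_mul]
  rw [integral_const_mul]
  congr 2

lemma sq {K : Set (ι → ℝ)} (T : (ι → ℝ) ≃ᵃ[ℝ] (ι → ℝ)) (hK : Body K) : A (T '' K) = A K := by
  set d : ℝ := LinearMap.det (T.linear : (ι → ℝ) →ₗ[ℝ] (ι → ℝ)) with hd
  have hd0 : d ≠ 0 := by
    rw [hd]
    exact (LinearEquiv.isUnit_det' T.linear).ne_zero
  have hv := vol_pos hK
  have hm : MeasurableSet K := hK.compact.measurableSet
  have hvol : vol (T '' K) = |d| * vol K := by
    have h1 := integral_image T hm (fun _ => (1 : ℝ))
    simp only [integral_const, smul_eq_mul, mul_one, MeasurableSet.univ,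
      measureReal_restrict_apply, univ_inter] at h1
    exact h1
  set M : Matrix ι ι ℝ := LinearMap.toMatrix' (T.linear : (ι → ℝ) →ₗ[ℝ] (ι → ℝ)) with hM
  have hMd : M.det = d := by
    rw [hM, hd]
    exact LinearMap.det_toMatrix' _
  have hMx : ∀ x : ι → ℝ, ∀ i, T.linear x i = ∑ k, M i k * x k := by
    intro x i
    have : M *ᵥ x = T.linear x := by
      rw [hM]
      exact LinearMap.toMatrix'_mulVec _ _
    rw [← this]
    rfl
  have hint : ∀ k, IntegrableOn (fun x : ι → ℝ => x k) K :=
    fun k => integ hK (continuous_apply k)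
  have hmean : ∀ i, mean (T '' K) i = ∑ k, M i k * mean K k + T 0 i := by
    intro i
    have h0 : mean (T '' K) i = (|d| * ∫ x in K, T x i) / (|d| * vol K) := by
      unfold mean
      rw [integral_image T hm, hvol]
    have h1 : (∫ x in K, T x i) = ∫ x in K, (∑ k, M i k * x k + T 0 i) := by
      congr 1
      funext x
      rw [apply_eq T x, Pi.add_apply, hMx]
    have h2 : ∫ _x in K, T 0 i = vol K * T 0 i := by
      rw [integral_const]
      simp [vol, Measure.real]
    have h3 : (∫ x in K, T x i) = ∑ k, M i k * (∫ x in K, x k) + vol K * T 0 i := by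
      rw [h1, integral_add, integral_finsetSum, h2]
      · simp only [integral_const_mul]
      · intro k _
        exact (hint k).const_mul _
      · exact integrable_finsetSum _ fun k _ => (hint k).const_mul _
      · exact integ hK continuous_const
    rw [h0, h3, mul_div_mul_left _ _ (abs_ne_zero.2 hd0), add_div, Finset.sum_div,
      mul_div_cancel_left₀ _ hv.ne']
    congr 1
    refine Finset.sum_congr rfl fun k _ => ?_
    unfold mean
    rw [mul_div_assoc]
  have hcov : cov (T '' K) = M * cov K * Mᵀ := by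
    ext i j
    have h0 : cov (T '' K) i j = (|d| * ∫ x in K, (T x i - mean (T '' K) i) *
        (T x j - mean (T '' K) j)) / (|d| * vol K) := by
      unfold cov
      rw [integral_image T hm, hvol]
    have h1 : ∀ x : ι → ℝ, ∀ i, T x i - mean (T '' K) i = ∑ k, M i k * (x k - mean K k) := by
      intro x i
      rw [hmean, apply_eq T x, Pi.add_apply, hMx]
      rw [add_sub_add_right_eq_sub, ← Finset.sum_sub_distrib]
      refine Finset.sum_congr rfl fun k _ => by ring
    have h2 : (∫ x in K, (T x i - mean (T '' K) i) * (T x j - mean (T '' K) j))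
        = ∫ x in K, ∑ k, ∑ l, M i k * M j l * ((x k - mean K k) * (x l - mean K l)) := by
      congr 1
      funext x
      rw [h1 x i, h1 x j, Finset.sum_mul_sum]
      refine Finset.sum_congr rfl fun k _ => Finset.sum_congr rfl fun l _ => by ring
    have hc : ∀ k l, Continuous fun x : ι → ℝ => (x k - mean K k) * (x l - mean K l) :=
      fun k l => ((continuous_apply k).sub continuous_const).mul
        ((continuous_apply l).sub continuous_const)
    have h3 : (∫ x in K, ∑ k, ∑ l, M i k * M j l * ((x k - mean K k) * (x l - mean K l)))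
        = ∑ k, ∑ l, M i k * M j l * ∫ x in K, (x k - mean K k) * (x l - mean K l) := by
      rw [integral_finsetSum]
      · refine Finset.sum_congr rfl fun k _ => ?_
        rw [integral_finsetSum]
        · refine Finset.sum_congr rfl fun l _ => ?_
          rw [integral_const_mul]
        · intro l _
          exact (integ hK (hc k l)).const_mul _
      · intro k _
        exact integrable_finsetSum _ fun l _ => (integ hK (hc k l)).const_mul _
    rw [h0, h2, h3, mul_div_mul_left _ _ (abs_ne_zero.2 hd0), Finset.sum_div]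
    simp only [Matrix.mul_apply, Matrix.transpose_apply]
    simp only [Finset.sum_div, Finset.sum_mul]
    rw [Finset.sum_comm]
    refine Finset.sum_congr rfl fun k _ => Finset.sum_congr rfl fun l _ => ?_
    unfold cov
    ring
  unfold A
  rw [hcov, hvol, Matrix.det_mul, Matrix.det_mul, Matrix.det_transpose, hMd]
  have : (|d| * vol K) ^ 2 = d * d * vol K ^ 2 := by
    rw [mul_pow, sq_abs]; ring
  rw [this]
  field_simp

end sq

section re
variable {ι κ : Type} [Fintype ι] [DecidableEq ι] [Fintype κ] [DecidableEq κ]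

lemma mp (e : ι ≃ κ) : MeasurePreserving (fun x : ι → ℝ => (fun k => x (e.symm k) : κ → ℝ))
    volume volume :=
  volume_preserving_arrowCongr' e (MeasurableEquiv.refl ℝ) (MeasurePreserving.id _)

lemma emb (e : ι ≃ κ) : MeasurableEmbedding (fun x : ι → ℝ => (fun k => x (e.symm k) : κ → ℝ)) :=
  (MeasurableEquiv.arrowCongr' e (MeasurableEquiv.refl ℝ)).measurableEmbedding

lemma reindex (e : ι ≃ κ) (K : Set (ι → ℝ)) :
    A ((fun x : ι → ℝ => (fun k => x (e.symm k) : κ → ℝ)) '' K) = A K := by
  set R : (ι → ℝ) → (κ → ℝ) := fun x k => x (e.symm k) with hR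
  have hi : ∀ f : (κ → ℝ) → ℝ, ∫ y in R '' K, f y = ∫ x in K, f (R x) := fun f =>
    (mp e).setIntegral_image_emb (emb e) f K
  have hvol : vol (R '' K) = vol K := by
    have h1 := hi (fun _ => (1 : ℝ))
    simp only [integral_const, smul_eq_mul, mul_one, MeasurableSet.univ,
      measureReal_restrict_apply, univ_inter] at h1
    exact h1
  have hmean : ∀ k, mean (R '' K) k = mean K (e.symm k) := by
    intro k
    unfold mean
    rw [hi, hvol]
  have hcov : cov (R '' K) = (cov K).submatrix e.symm e.symm := by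
    ext i j
    rw [Matrix.submatrix_apply]
    unfold cov
    rw [hi, hvol, hmean, hmean]
  unfold A
  rw [hcov, hvol, Matrix.det_submatrix_equiv_self]

end re

end AFF

open AFF in
theorem aff : S_AFF := by
  intro ι κ _ _ _ _ K T hK
  refine ⟨AFF.body T hK, ?_⟩
  have hcard : Fintype.card ι = Fintype.card κ := by
    have := T.linear.finrank_eq
    simpa using this
  let e : ι ≃ κ := Fintype.equivOfCardEq hcard
  let R : (ι → ℝ) ≃ᵃ[ℝ] (κ → ℝ) := (LinearEquiv.funCongrLeft ℝ ℝ e.symm).toAffineEquiv
  have hR : (R : (ι → ℝ) → (κ → ℝ)) = fun x k => x (e.symm k) := rfl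
  have h1 : T '' K = (R.symm.trans T) '' (R '' K) := by
    rw [image_image]
    refine image_congr fun x _ => ?_
    simp
  rw [h1, AFF.sq (R.symm.trans T) (AFF.body R hK), hR]
  exact AFF.reindex e K

end Vale.Agent.P254
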