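import Vale.Agent.P254.Defs

/-!
# P254 module BODY: products and free sums of bodies are bodies.
-/

set_option autoImplicit false

namespace Vale.Agent.P254.BodyX

open MeasureTheory Set Vale.Agent.P254

variable {ι κ : Type} [Fintype ι] [Fintype κ]

omit [Fintype ι] [Fintype κ] in
theorem prd_eq (K : Set (ι → ℝ)) (L : Set (κ → ℝ)) :
    prd K L = (Homeomorph.sumArrowHomeomorphProdArrow (X := ℝ) (ι := ι) (ι' := κ)) ⁻¹' (K ×ˢ L) := by
  ext z
  rfl

theorem body_prd (K : Set (ι → ℝ)) (L : Set (κ → ℝ)) (hK : Body K) (hL : Body L) :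
    Body (prd K L) := by
  refine ⟨?_, ?_, ?_⟩
  · intro z hz w hw a b ha hb hab
    exact ⟨hK.convex hz.1 hw.1 ha hb hab, hL.convex hz.2 hw.2 ha hb hab⟩
  · rw [prd_eq]
    exact (Homeomorph.isCompact_preimage _).2 (hK.compact.prod hL.compact)
  · rw [prd_eq, ← Homeomorph.preimage_interior, interior_prod_eq]
    obtain ⟨x, hx⟩ := hK.interior
    obtain ⟨y, hy⟩ := hL.interior
    exact ⟨Sum.elim x y, hx, hy⟩

theorem body_fsum (K : Set (ι → ℝ)) (L : Set (κ → ℝ)) (hK : Body K) (hL : Body L) :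
    Body (fsum K L) := by
  have c1 : Continuous (fun x : ι → ℝ => (Sum.elim x 0 : ι ⊕ κ → ℝ)) := by
    refine continuous_pi fun i => ?_
    cases i with
    | inl i => exact continuous_apply i
    | inr j => exact continuous_const
  have c2 : Continuous (fun y : κ → ℝ => (Sum.elim 0 y : ι ⊕ κ → ℝ)) := by
    refine continuous_pi fun i => ?_
    cases i with
    | inl i => exact continuous_const
    | inr j => exact continuous_apply j
  refine ⟨convex_convexHull ℝ _, ?_, ?_⟩
  · have l1 : IsLinearMap ℝ (fun x : ι → ℝ => (Sum.elim x 0 : ι ⊕ κ → ℝ)) := by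
      constructor
      · intro x y
        funext i
        cases i <;> simp
      · intro c x
        funext i
        cases i <;> simp
    have l2 : IsLinearMap ℝ (fun y : κ → ℝ => (Sum.elim 0 y : ι ⊕ κ → ℝ)) := by
      constructor
      · intro x y
        funext i
        cases i <;> simp
      · intro c x
        funext i
        cases i <;> simp
    have n1 : K.Nonempty := hK.interior.mono interior_subset
    have n2 : L.Nonempty := hL.interior.mono interior_subset
    have e : fsum K L = (fun p : ℝ × (ι ⊕ κ → ℝ) × (ι ⊕ κ → ℝ) =>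
        (1 - p.1) • p.2.1 + p.1 • p.2.2) '' (Icc (0 : ℝ) 1 ×ˢ
          ((fun x : ι → ℝ => (Sum.elim x 0 : ι ⊕ κ → ℝ)) '' K) ×ˢ
          ((fun y : κ → ℝ => (Sum.elim 0 y : ι ⊕ κ → ℝ)) '' L)) := by
      rw [fsum, Convex.convexHull_union (hK.convex.is_linear_image l1)
        (hL.convex.is_linear_image l2) (n1.image _) (n2.image _)]
      ext z
      rw [mem_convexJoin]
      constructor
      · rintro ⟨a, ha, b, hb, hz⟩
        rw [segment_eq_image] at hz
        obtain ⟨t, ht, rfl⟩ := hz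
        exact ⟨(t, a, b), ⟨ht, ha, hb⟩, rfl⟩
      · rintro ⟨⟨t, a, b⟩, ⟨ht, ha, hb⟩, rfl⟩
        refine ⟨a, ha, b, hb, ?_⟩
        rw [segment_eq_image]
        exact ⟨t, ht, rfl⟩
    rw [e]
    refine (isCompact_Icc.prod ((hK.compact.image c1).prod (hL.compact.image c2))).image ?_
    fun_prop
  · obtain ⟨z, hz⟩ := (body_prd K L hK hL).interior
    refine ⟨(1 / 2 : ℝ) • z, ?_⟩
    rw [mem_interior]
    refine ⟨(fun w : ι ⊕ κ → ℝ => (2 : ℝ) • w) ⁻¹' interior (prd K L), ?_, ?_, ?_⟩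
    · intro w hw
      have hw' : (2 : ℝ) • w ∈ prd K L := interior_subset hw
      obtain ⟨h1, h2⟩ := hw'
      have e : w = (1 / 2 : ℝ) • (Sum.elim (fun i => ((2 : ℝ) • w) (Sum.inl i)) 0 : ι ⊕ κ → ℝ) +
          (1 / 2 : ℝ) • (Sum.elim 0 (fun j => ((2 : ℝ) • w) (Sum.inr j)) : ι ⊕ κ → ℝ) := by
        funext i
        cases i with
        | inl i => simp
        | inr j => simp
      have hc := convex_convexHull ℝ
        ((fun x : ι → ℝ => (Sum.elim x 0 : ι ⊕ κ → ℝ)) '' K ∪
          (fun y : κ → ℝ => (Sum.elim 0 y : ι ⊕ κ → ℝ)) '' L)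
      have hh : (1 / 2 : ℝ) • (Sum.elim (fun i => ((2 : ℝ) • w) (Sum.inl i)) 0 : ι ⊕ κ → ℝ) +
          (1 / 2 : ℝ) • (Sum.elim 0 (fun j => ((2 : ℝ) • w) (Sum.inr j)) : ι ⊕ κ → ℝ) ∈
          fsum K L :=
        hc (subset_convexHull ℝ _ (Or.inl ⟨_, h1, rfl⟩))
          (subset_convexHull ℝ _ (Or.inr ⟨_, h2, rfl⟩)) (by norm_num) (by norm_num) (by norm_num)
      rw [← e] at hh
      exact hh
    · exact isOpen_interior.preimage (continuous_const_smul (2 : ℝ))
    · show (2 : ℝ) • ((1 / 2 : ℝ) • z) ∈ interior (prd K L)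
      rw [smul_smul]
      norm_num
      exact hz

end Vale.Agent.P254.BodyX

namespace Vale.Agent.P254

theorem body : S_BODY := fun _ _ _ _ K L hK hL =>
  ⟨BodyX.body_prd K L hK hL, fun _ _ => BodyX.body_fsum K L hK hL⟩

end Vale.Agent.P254
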