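import Vale.Agent.P254.CornInt

/-!
# P254, CORN: the corner simplex
-/

set_option autoImplicit false

namespace Vale.Agent.P254

open MeasureTheory Set
open scoped Matrix

namespace Corn

variable {ι : Type} [Fintype ι]

theorem corner_eq : corner ι = {x | ∀ i, 0 ≤ x i} ∩ {x | ∑ i, x i ≤ 1} := by
  ext x; simp [corner]

theorem body : Body (corner ι) := by
  refine ⟨?_, ?_, ?_⟩
  · intro x hx y hy a b ha hb hab
    refine ⟨fun i => ?_, ?_⟩
    · simp only [Pi.add_apply, Pi.smul_apply, smul_eq_mul]
      have h1 := hx.1 i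
      have h2 := hy.1 i
      positivity
    · simp only [Pi.add_apply, Pi.smul_apply, smul_eq_mul, Finset.sum_add_distrib,
        ← Finset.mul_sum]
      have h1 := mul_le_mul_of_nonneg_left hx.2 ha
      have h2 := mul_le_mul_of_nonneg_left hy.2 hb
      linarith
  · refine (isCompact_Icc (a := (0 : ι → ℝ)) (b := 1)).of_isClosed_subset ?_ ?_
    · rw [corner_eq]
      refine IsClosed.inter ?_ ?_
      · rw [Set.ofPred_forall]
        exact isClosed_iInter fun i => isClosed_le continuous_const (continuous_apply i)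
      · exact isClosed_le (continuous_finsetSum _ fun i _ => continuous_apply i)
          continuous_const
    · intro x hx
      refine ⟨fun i => hx.1 i, fun i => ?_⟩
      exact (Finset.single_le_sum (fun j _ => hx.1 j) (Finset.mem_univ i)).trans hx.2
  · have hn : (0 : ℝ) < (Fintype.card ι : ℝ) + 1 := by positivity
    refine ⟨fun _ => 1 / ((Fintype.card ι : ℝ) + 1), ?_⟩
    rw [mem_interior]
    refine ⟨{x | ∀ i, 0 < x i} ∩ {x | ∑ i, x i < 1}, ?_, ?_, ?_⟩
    · rintro x ⟨h1, h2⟩
      exact ⟨fun i => (h1 i).le, le_of_lt h2⟩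
    · refine IsOpen.inter ?_ ?_
      · rw [Set.ofPred_forall]
        exact isOpen_iInter_of_finite fun i => isOpen_lt continuous_const (continuous_apply i)
      · exact isOpen_lt (continuous_finsetSum _ fun i _ => continuous_apply i)
          continuous_const
    · refine ⟨fun i => by positivity, ?_⟩
      show ∑ i : ι, 1 / ((Fintype.card ι : ℝ) + 1) < 1
      rw [Finset.sum_const, Finset.card_univ, nsmul_eq_mul, mul_one_div, div_lt_one hn]
      linarith

theorem vol_corner : vol (corner ι) = 1 / ((Fintype.card ι).factorial : ℝ) := by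
  have h := dirichlet (ι := ι) (fun _ => 0)
  simp only [pow_zero, Finset.prod_const_one, Nat.factorial_zero, Nat.cast_one,
    Finset.sum_const_zero, add_zero, setIntegral_const, smul_eq_mul, mul_one] at h
  exact h

variable [DecidableEq ι]

theorem prod_single (x : ι → ℝ) (i : ι) : ∏ j, x j ^ (Pi.single i 1 : ι → ℕ) j = x i := by
  rw [Finset.prod_eq_single i]
  · simp
  · intro j _ hj
    rw [Pi.single_eq_of_ne hj, pow_zero]
  · intro h
    exact absurd (Finset.mem_univ i) h

theorem int_one (i : ι) : ∫ x in corner ι, x i = 1 / ((Fintype.card ι + 1).factorial : ℝ) := by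
  have h := dirichlet (ι := ι) (Pi.single i 1)
  simp only [prod_single] at h
  rw [h]
  congr 2
  · refine Finset.prod_eq_one fun j _ => ?_
    by_cases hj : j = i
    · subst hj; simp
    · rw [Pi.single_eq_of_ne hj]; simp
  · rw [Finset.sum_pi_single']
    simp

theorem int_two (i j : ι) : ∫ x in corner ι, x i * x j =
    (1 + if i = j then 1 else 0) / ((Fintype.card ι + 2).factorial : ℝ) := by
  have h := dirichlet (ι := ι) (Pi.single i 1 + Pi.single j 1)
  simp only [Pi.add_apply, pow_add, Finset.prod_mul_distrib, prod_single,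
    Finset.sum_add_distrib] at h
  rw [h]
  congr 2
  · by_cases hij : i = j
    · subst hij
      rw [if_pos rfl, Finset.prod_eq_single i]
      · simp only [Pi.single_eq_same]
        norm_num [Nat.factorial]
      · intro l _ hl
        rw [Pi.single_eq_of_ne hl]
        simp
      · intro h
        exact absurd (Finset.mem_univ i) h
    · rw [if_neg hij, add_zero]
      refine Finset.prod_eq_one fun l _ => ?_
      by_cases hl : l = i
      · subst hl
        rw [Pi.single_eq_same, Pi.single_eq_of_ne hij]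
        simp
      · rw [Pi.single_eq_of_ne hl, zero_add]
        by_cases hl' : l = j
        · subst hl'; simp
        · rw [Pi.single_eq_of_ne hl']; simp
  · rw [Finset.sum_pi_single', Finset.sum_pi_single']
    simp

omit [DecidableEq ι] in
theorem fact_ne (m : ℕ) : ((m.factorial : ℕ) : ℝ) ≠ 0 := by
  exact_mod_cast (Nat.factorial_pos m).ne'

theorem mean_corner (i : ι) : mean (corner ι) i = 1 / ((Fintype.card ι : ℝ) + 1) := by
  rw [mean, int_one, vol_corner, Nat.factorial_succ]
  have h1 := fact_ne (Fintype.card ι)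
  have h2 : (Fintype.card ι : ℝ) + 1 ≠ 0 := by positivity
  push_cast
  field_simp

/-- the common factor of the covariance matrix -/
noncomputable def cc (n : ℕ) : ℝ := 1 / (((n : ℝ) + 1) * ((n : ℝ) + 2))

theorem cov_corner (hPOS : S_POS) : cov (corner ι) = cc (Fintype.card ι) •
    (1 - Matrix.vecMulVec (fun _ => 1 / ((Fintype.card ι : ℝ) + 1)) (fun _ => 1)) := by
  obtain ⟨-, -, h⟩ := hPOS ι (corner ι) body
  ext i j
  rw [h, int_two, mean_corner, mean_corner, vol_corner, Matrix.smul_apply, Matrix.sub_apply,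
    Matrix.vecMulVec_apply, Matrix.one_apply, Nat.factorial_succ, Nat.factorial_succ, cc]
  have h1 := fact_ne (Fintype.card ι)
  have h2 : (Fintype.card ι : ℝ) + 1 ≠ 0 := by positivity
  have h3 : (Fintype.card ι : ℝ) + 2 ≠ 0 := by positivity
  have h4 : (Fintype.card ι : ℝ) + 1 + 1 = (Fintype.card ι : ℝ) + 2 := by ring
  push_cast
  rw [h4]
  by_cases hij : i = j
  · rw [if_pos hij, smul_eq_mul]
    field_simp
    ring
  · rw [if_neg hij, smul_eq_mul]
    field_simp
    ring

theorem det_corner (hPOS : S_POS) : (cov (corner ι)).det =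
    cc (Fintype.card ι) ^ Fintype.card ι / ((Fintype.card ι : ℝ) + 1) := by
  rw [cov_corner hPOS, Matrix.det_smul, sub_eq_add_neg, ← Matrix.neg_vecMulVec,
    Matrix.vecMulVec_eq Unit, Matrix.det_one_add_replicateCol_mul_replicateRow]
  have h2 : (Fintype.card ι : ℝ) + 1 ≠ 0 := by positivity
  have h3 : (fun _ : ι => (1 : ℝ)) ⬝ᵥ (-fun _ : ι => 1 / ((Fintype.card ι : ℝ) + 1)) =
      - ((Fintype.card ι : ℝ) / ((Fintype.card ι : ℝ) + 1)) := by
    rw [dotProduct_neg, dotProduct]
    simp only [one_mul, Finset.sum_const, Finset.card_univ, nsmul_eq_mul]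
    ring
  rw [h3]
  field_simp
  ring

theorem inv_corner (hPOS : S_POS) (v : ι → ℝ) : (cov (corner ι))⁻¹ *ᵥ v =
    fun i => ((Fintype.card ι : ℝ) + 1) * ((Fintype.card ι : ℝ) + 2) * (v i + ∑ j, v j) := by
  have hc : cc (Fintype.card ι) ≠ 0 := by rw [cc]; positivity
  have h2 : (Fintype.card ι : ℝ) + 1 ≠ 0 := by positivity
  have hdet : IsUnit (cov (corner ι)).det := by
    rw [det_corner hPOS]
    exact (div_ne_zero (pow_ne_zero _ hc) h2).isUnit
  have h3 : cov (corner ι) *ᵥ (fun i => ((Fintype.card ι : ℝ) + 1) *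
      ((Fintype.card ι : ℝ) + 2) * (v i + ∑ j, v j)) = v := by
    rw [cov_corner hPOS, Matrix.smul_mulVec, Matrix.sub_mulVec, Matrix.one_mulVec,
      Matrix.vecMulVec_mulVec]
    funext i
    simp only [Pi.smul_apply, Pi.sub_apply, smul_eq_mul, dotProduct, one_mul, cc,
      MulOpposite.smul_eq_mul_unop, MulOpposite.unop_op]
    rw [← Finset.mul_sum, Finset.sum_add_distrib, Finset.sum_const, Finset.card_univ,
      nsmul_eq_mul]
    have h3 : (Fintype.card ι : ℝ) + 2 ≠ 0 := by positivity
    field_simp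
    ring
  calc (cov (corner ι))⁻¹ *ᵥ v = (cov (corner ι))⁻¹ *ᵥ (cov (corner ι) *ᵥ
        (fun i => ((Fintype.card ι : ℝ) + 1) * ((Fintype.card ι : ℝ) + 2) *
          (v i + ∑ j, v j))) := by rw [h3]
    _ = _ := by rw [Matrix.mulVec_mulVec, Matrix.nonsing_inv_mul _ hdet, Matrix.one_mulVec]

omit [Fintype ι] [DecidableEq ι] in
theorem emb (z : ι → ℝ) : MeasurableEmbedding (fun x : ι → ℝ => x - z) :=
  (MeasurableEquiv.subRight z).measurableEmbedding

omit [DecidableEq ι] in
theorem vol_sub (K : Set (ι → ℝ)) (z : ι → ℝ) : vol ((fun x => x - z) '' K) = vol K := by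
  have h : (fun x => x - z) '' K = (fun x => x + z) ⁻¹' K := by
    ext x
    constructor
    · rintro ⟨y, hy, rfl⟩
      simpa using hy
    · intro h
      exact ⟨x + z, h, by simp⟩
  rw [vol, vol, h, measure_preimage_add_right]

omit [DecidableEq ι] in
theorem int_sub (K : Set (ι → ℝ)) (z : ι → ℝ) (f : (ι → ℝ) → ℝ) :
    ∫ x in (fun x => x - z) '' K, f x = ∫ x in K, f (x - z) :=
  (measurePreserving_sub_right volume z).setIntegral_image_emb (emb z) f K

omit [DecidableEq ι] in
theorem mean_sub (K : Set (ι → ℝ)) (hK : Body K) (hv : 0 < vol K) (z : ι → ℝ) :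
    mean ((fun x => x - z) '' K) = mean K - z := by
  funext i
  have h1 : IntegrableOn (fun x : ι → ℝ => x i) K :=
    ((continuous_apply i).continuousOn).integrableOn_compact hK.compact
  have h2 : IntegrableOn (fun _ : ι → ℝ => z i) K :=
    continuousOn_const.integrableOn_compact hK.compact
  have h3 : ∫ x in K, (x - z) i = (∫ x in K, x i) - z i * vol K := by
    simp only [Pi.sub_apply]
    rw [integral_sub h1 h2, setIntegral_const, smul_eq_mul, mul_comm]
    rfl
  rw [mean, int_sub, vol_sub, h3, Pi.sub_apply, mean]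
  field_simp

omit [DecidableEq ι] in
theorem cov_sub (K : Set (ι → ℝ)) (hK : Body K) (hv : 0 < vol K) (z : ι → ℝ) :
    cov ((fun x => x - z) '' K) = cov K := by
  funext i j
  rw [cov, int_sub, vol_sub, mean_sub K hK hv, cov]
  simp only [Pi.sub_apply, sub_sub_sub_cancel_right]

end Corn

open Corn in
theorem corn (hPOS : S_POS) : S_CORN := by
  intro ι _ _
  refine ⟨body, ?_, fun z hz => ?_⟩
  · rw [A, det_corner hPOS, vol_corner, D, cc]
    have h1 := fact_ne (Fintype.card ι)
    have h2 : (Fintype.card ι : ℝ) + 1 ≠ 0 := by positivity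
    have h3 : (Fintype.card ι : ℝ) + 2 ≠ 0 := by positivity
    rw [div_pow, one_pow, mul_pow, pow_succ]
    field_simp
    ring
  · obtain ⟨hv, -, -⟩ := hPOS ι (corner ι) body
    have h2 : (Fintype.card ι : ℝ) + 1 ≠ 0 := by positivity
    rw [u, mean_sub _ body hv, cov_sub _ body hv, inv_corner hPOS]
    have hm : ∀ i, (mean (corner ι) - z) i = 1 / ((Fintype.card ι : ℝ) + 1) - z i := by
      intro i
      rw [Pi.sub_apply, mean_corner]
    simp only [dotProduct, hm]
    set n : ℝ := (Fintype.card ι : ℝ) with hn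
    set s : ℝ := ∑ i, z i with hs
    set q : ℝ := ∑ i, z i ^ 2 with hq
    have e1 : ∑ j, (1 / (n + 1) - z j) = n / (n + 1) - s := by
      rw [Finset.sum_sub_distrib, Finset.sum_const, Finset.card_univ, nsmul_eq_mul, ← hn]
      ring
    have e2 : ∑ j, (1 / (n + 1) - z j) ^ 2 = n / (n + 1) ^ 2 - 2 / (n + 1) * s + q := by
      have : ∀ j, (1 / (n + 1) - z j) ^ 2 = 1 / (n + 1) ^ 2 - 2 / (n + 1) * z j + z j ^ 2 := by
        intro j
        field_simp
        ring
      simp only [this]
      rw [Finset.sum_add_distrib, Finset.sum_sub_distrib, Finset.sum_const, Finset.card_univ,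
        nsmul_eq_mul, ← Finset.mul_sum, ← hn]
      ring
    rw [e1]
    have e3 : ∀ j, (1 / (n + 1) - z j) * ((n + 1) * (n + 2) *
        (1 / (n + 1) - z j + (n / (n + 1) - s))) = (n + 1) * (n + 2) *
        ((1 / (n + 1) - z j) ^ 2 + (n / (n + 1) - s) * (1 / (n + 1) - z j)) := by
      intro j; ring
    simp only [e3]
    rw [← Finset.mul_sum, Finset.sum_add_distrib, ← Finset.mul_sum, e1, e2]
    field_simp
    ring

end Vale.Agent.P254
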