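import Vale.Agent.P254.Defs

/-! # P254, DET: the determinant of the covariance matrix of a free sum -/

set_option autoImplicit false

namespace Vale.Agent.P254

open scoped Matrix

namespace DetX

variable {ι κ : Type} [Fintype ι] [DecidableEq ι] [Fintype κ] [DecidableEq κ]

/-- the two columns -/
def U (m : ι → ℝ) (w : κ → ℝ) : Matrix (ι ⊕ κ) (Fin 2) ℝ :=
  fun k a => Sum.elim (fun i => if a = 0 then m i else 0) (fun j => if a = 1 then w j else 0) k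

/-- the two rows -/
def W (m : ι → ℝ) (w : κ → ℝ) (c₃ c₄ c₅ : ℝ) : Matrix (Fin 2) (ι ⊕ κ) ℝ :=
  fun a k => Sum.elim (fun i => (if a = 0 then c₃ else -c₅) * m i)
    (fun j => (if a = 0 then -c₅ else c₄) * w j) k

omit [Fintype ι] [DecidableEq ι] [Fintype κ] [DecidableEq κ] in
lemma UW (P : Matrix ι ι ℝ) (Q : Matrix κ κ ℝ) (m : ι → ℝ) (w : κ → ℝ) (c₁ c₂ c₃ c₄ c₅ : ℝ) :
    Matrix.fromBlocks (c₁ • P + c₃ • Matrix.vecMulVec m m) (-c₅ • Matrix.vecMulVec m w)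
      (-c₅ • Matrix.vecMulVec w m) (c₂ • Q + c₄ • Matrix.vecMulVec w w) =
    Matrix.fromBlocks (c₁ • P) 0 0 (c₂ • Q) + U m w * W m w c₃ c₄ c₅ := by
  ext k l
  rw [Matrix.add_apply, Matrix.mul_apply, Fin.sum_univ_two]
  rcases k with i | j <;> rcases l with i' | j' <;>
  simp [U, W, Matrix.vecMulVec_apply] <;> ring

omit [DecidableEq ι] [DecidableEq κ] in
lemma XU (P : Matrix ι ι ℝ) (Q : Matrix κ κ ℝ) (m : ι → ℝ) (w : κ → ℝ) :
    Matrix.fromBlocks P 0 0 Q * U m w = U (P *ᵥ m) (Q *ᵥ w) := by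
  ext k a
  rw [Matrix.mul_apply, Fintype.sum_sum_type]
  rcases k with i | j
  · simp only [Matrix.fromBlocks_apply₁₁, Matrix.fromBlocks_apply₁₂, U, Sum.elim_inl, Sum.elim_inr,
      Matrix.zero_apply, zero_mul, Finset.sum_const_zero, add_zero]
    split_ifs with h
    · rfl
    · simp
  · simp only [Matrix.fromBlocks_apply₂₁, Matrix.fromBlocks_apply₂₂, U, Sum.elim_inl, Sum.elim_inr,
      Matrix.zero_apply, zero_mul, Finset.sum_const_zero, zero_add]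
    split_ifs with h
    · rfl
    · simp

omit [DecidableEq ι] [DecidableEq κ] in
lemma WU (m p : ι → ℝ) (w q : κ → ℝ) (c₃ c₄ c₅ : ℝ) :
    (W m w c₃ c₄ c₅ * U p q) 0 0 = c₃ * (m ⬝ᵥ p) ∧
    (W m w c₃ c₄ c₅ * U p q) 0 1 = -c₅ * (w ⬝ᵥ q) ∧
    (W m w c₃ c₄ c₅ * U p q) 1 0 = -c₅ * (m ⬝ᵥ p) ∧
    (W m w c₃ c₄ c₅ * U p q) 1 1 = c₄ * (w ⬝ᵥ q) := by
  refine ⟨?_, ?_, ?_, ?_⟩ <;>
  · rw [Matrix.mul_apply, Fintype.sum_sum_type]
    simp [W, U, dotProduct, Finset.mul_sum, mul_assoc]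

end DetX

open DetX in
theorem det : S_DET := by
  intro ι κ _ _ _ _ P Q m w c₁ c₂ c₃ c₄ c₅ hP hQ h1 h2
  have hPd : P.det ≠ 0 := hP.det_pos.ne'
  have hQd : Q.det ≠ 0 := hQ.det_pos.ne'
  have hPu : IsUnit P.det := isUnit_iff_ne_zero.2 hPd
  have hQu : IsUnit Q.det := isUnit_iff_ne_zero.2 hQd
  set D0 : Matrix (ι ⊕ κ) (ι ⊕ κ) ℝ := Matrix.fromBlocks (c₁ • P) 0 0 (c₂ • Q) with hD0
  have hdet : D0.det = c₁ ^ Fintype.card ι * P.det * (c₂ ^ Fintype.card κ * Q.det) := by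
    rw [hD0, Matrix.det_fromBlocks_zero₂₁, Matrix.det_smul, Matrix.det_smul]
  have hdu : IsUnit D0.det := by
    rw [hdet]
    exact isUnit_iff_ne_zero.2 (by positivity)
  have hinv : D0⁻¹ = Matrix.fromBlocks (c₁⁻¹ • P⁻¹) 0 0 (c₂⁻¹ • Q⁻¹) := by
    apply Matrix.inv_eq_right_inv
    rw [hD0, Matrix.fromBlocks_multiply]
    simp only [Matrix.mul_zero, Matrix.zero_mul, add_zero, zero_add, Matrix.smul_mul,
      Matrix.mul_smul, smul_smul, Matrix.mul_nonsing_inv _ hPu, Matrix.mul_nonsing_inv _ hQu]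
    rw [inv_mul_cancel₀ h1.ne', inv_mul_cancel₀ h2.ne', one_smul, one_smul, smul_zero, smul_zero,
      Matrix.fromBlocks_one]
  obtain ⟨e00, e01, e10, e11⟩ := WU m ((c₁⁻¹ • P⁻¹) *ᵥ m) w ((c₂⁻¹ • Q⁻¹) *ᵥ w) c₃ c₄ c₅
  rw [UW, Matrix.det_add_mul _ _ hdu, hdet, Matrix.mul_assoc, hinv, XU, Matrix.det_fin_two]
  rw [Matrix.add_apply, Matrix.add_apply, Matrix.add_apply, Matrix.add_apply, e00, e01, e10, e11]
  simp only [Matrix.smul_mulVec, dotProduct_smul, smul_eq_mul, Matrix.one_apply_eq,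
    Matrix.one_apply_ne (show (0 : Fin 2) ≠ 1 by decide),
    Matrix.one_apply_ne (show (1 : Fin 2) ≠ 0 by decide)]
  field_simp
  ring

end Vale.Agent.P254
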