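import Mathlib

/-!
# P254 (partial): the strong isotropic constant conjecture for free sums, products and polytopes
with `n + 2` vertices.  Definitions and module statements.
-/

set_option autoImplicit false

namespace Vale.Agent.P254

open MeasureTheory Set
open scoped Matrix

variable {ι κ : Type} [Fintype ι] [DecidableEq ι] [Fintype κ] [DecidableEq κ]

/-- convex body: compact convex set with nonempty interior -/
structure Body (K : Set (ι → ℝ)) : Prop where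
  convex : Convex ℝ K
  compact : IsCompact K
  interior : (interior K).Nonempty

/-- Lebesgue volume -/
noncomputable def vol (K : Set (ι → ℝ)) : ℝ := (volume K).toReal

/-- centroid -/
noncomputable def mean (K : Set (ι → ℝ)) : ι → ℝ := fun i => (∫ x in K, x i) / vol K

/-- covariance matrix -/
noncomputable def cov (K : Set (ι → ℝ)) : Matrix ι ι ℝ :=
  fun i j => (∫ x in K, (x i - mean K i) * (x j - mean K j)) / vol K

/-- `L_K ^ (2n) = det Σ_K / |K|²` -/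
noncomputable def A (K : Set (ι → ℝ)) : ℝ := (cov K).det / vol K ^ 2

/-- the isotropic constant `L_K` of `K ⊆ ℝⁿ` -/
noncomputable def iso {n : ℕ} (K : Set (Fin n → ℝ)) : ℝ := A K ^ ((1 : ℝ) / (2 * n))

/-- `n`-simplices -/
def IsSimplex {n : ℕ} (S : Set (Fin n → ℝ)) : Prop :=
  ∃ v : Fin (n + 1) → Fin n → ℝ, AffineIndependent ℝ v ∧ S = convexHull ℝ (range v)

/-- the free sum `K ⊕ L`: convex hull of `K × {0} ∪ {0} × L` -/
def fsum (K : Set (ι → ℝ)) (L : Set (κ → ℝ)) : Set (ι ⊕ κ → ℝ) :=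
  convexHull ℝ ((fun x : ι → ℝ => (Sum.elim x 0 : ι ⊕ κ → ℝ)) '' K ∪
    (fun y : κ → ℝ => (Sum.elim 0 y : ι ⊕ κ → ℝ)) '' L)

/-- the product `K × L` -/
def prd (K : Set (ι → ℝ)) (L : Set (κ → ℝ)) : Set (ι ⊕ κ → ℝ) :=
  {z | (fun i => z (Sum.inl i)) ∈ K ∧ (fun j => z (Sum.inr j)) ∈ L}

/-- the value `L_Δ ^ (2n)` of the `n`-simplex -/
noncomputable def D (n : ℕ) : ℝ := (n.factorial : ℝ) ^ 2 / (((n : ℝ) + 1) ^ (n + 1) * ((n : ℝ) + 2) ^ n)

/-- `⟨m, Σ⁻¹ m⟩`, `m` the centroid -/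
noncomputable def u (K : Set (ι → ℝ)) : ℝ := mean K ⬝ᵥ ((cov K)⁻¹ *ᵥ mean K)

/-- standard corner simplex -/
def corner (ι : Type) [Fintype ι] : Set (ι → ℝ) := {x | (∀ i, 0 ≤ x i) ∧ ∑ i, x i ≤ 1}

/-! ## Modules -/

/-- POS -/
def S_POS : Prop := ∀ (ι : Type) [Fintype ι] [DecidableEq ι] (K : Set (ι → ℝ)), Body K →
  0 < vol K ∧ (cov K).PosDef ∧
  (∀ i j, cov K i j = (∫ x in K, x i * x j) / vol K - mean K i * mean K j)

/-- BODY -/
def S_BODY : Prop := ∀ (ι κ : Type) [Fintype ι] [Fintype κ] (K : Set (ι → ℝ)) (L : Set (κ → ℝ)),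
  Body K → Body L → Body (prd K L) ∧ (0 ∈ K → 0 ∈ L → Body (fsum K L))

/-- AFF: affine invariance. -/
def S_AFF : Prop := ∀ (ι κ : Type) [Fintype ι] [DecidableEq ι] [Fintype κ] [DecidableEq κ]
  (K : Set (ι → ℝ)) (T : (ι → ℝ) ≃ᵃ[ℝ] (κ → ℝ)), Body K → Body (T '' K) ∧ A (T '' K) = A K

/-- STAR: `z = 0` lies in the ellipsoid `a(a+2)` of `K`. -/
def S_STAR : Prop := ∀ (ι : Type) [Fintype ι] [DecidableEq ι] (K : Set (ι → ℝ)), Body K → 0 ∈ K →
  0 ≤ u K ∧ u K ≤ (Fintype.card ι : ℝ) * (Fintype.card ι + 2)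

/-- INT: integrals over the free sum. `φ`, `ψ` homogeneous of degrees `p`, `q`. -/
def S_INT : Prop := ∀ (ι κ : Type) [Fintype ι] [Fintype κ] [Nonempty ι] [Nonempty κ] (K : Set (ι → ℝ)) (L : Set (κ → ℝ))
  (p q : ℕ) (φ : (ι → ℝ) → ℝ) (ψ : (κ → ℝ) → ℝ), Body K → Body L → 0 ∈ K → 0 ∈ L →
  Continuous φ → Continuous ψ → (∀ t : ℝ, 0 < t → ∀ x, φ (t • x) = t ^ p * φ x) →
  (∀ t : ℝ, 0 < t → ∀ y, ψ (t • y) = t ^ q * ψ y) →
  ∫ z in fsum K L, φ (fun i => z (Sum.inl i)) * ψ (fun j => z (Sum.inr j)) =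
    (((Fintype.card ι + p).factorial * (Fintype.card κ + q).factorial : ℕ) : ℝ) /
      ((Fintype.card ι + Fintype.card κ + p + q).factorial : ℝ) *
      ((∫ x in K, φ x) * ∫ y in L, ψ y)

/-- MOM: moments of the free sum (from INT). `a = card ι`, `b = card κ`, `n = a + b`. -/
def S_MOM : Prop := ∀ (ι κ : Type) [Fintype ι] [DecidableEq ι] [Fintype κ] [DecidableEq κ]
  [Nonempty ι] [Nonempty κ]
  (K : Set (ι → ℝ)) (L : Set (κ → ℝ)), Body K → Body L → 0 ∈ K → 0 ∈ L →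
  let a : ℝ := Fintype.card ι
  let b : ℝ := Fintype.card κ
  vol (fsum K L) = ((Fintype.card ι).factorial * (Fintype.card κ).factorial : ℝ) /
      ((Fintype.card ι + Fintype.card κ).factorial : ℝ) * (vol K * vol L) ∧
  cov (fsum K L) = Matrix.fromBlocks
    (((a + 1) * (a + 2) / ((a + b + 1) * (a + b + 2))) • cov K +
      ((a + 1) * b / ((a + b + 1) ^ 2 * (a + b + 2))) • Matrix.vecMulVec (mean K) (mean K))
    (-((a + 1) * (b + 1) / ((a + b + 1) ^ 2 * (a + b + 2))) • Matrix.vecMulVec (mean K) (mean L))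
    (-((a + 1) * (b + 1) / ((a + b + 1) ^ 2 * (a + b + 2))) • Matrix.vecMulVec (mean L) (mean K))
    (((b + 1) * (b + 2) / ((a + b + 1) * (a + b + 2))) • cov L +
      ((b + 1) * a / ((a + b + 1) ^ 2 * (a + b + 2))) • Matrix.vecMulVec (mean L) (mean L))

/-- DET: pure linear algebra: the determinant of the block matrix. -/
def S_DET : Prop := ∀ (ι κ : Type) [Fintype ι] [DecidableEq ι] [Fintype κ] [DecidableEq κ]
  (P : Matrix ι ι ℝ) (Q : Matrix κ κ ℝ) (m : ι → ℝ) (w : κ → ℝ) (c₁ c₂ c₃ c₄ c₅ : ℝ),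
  P.PosDef → Q.PosDef → 0 < c₁ → 0 < c₂ →
  (Matrix.fromBlocks (c₁ • P + c₃ • Matrix.vecMulVec m m) (-c₅ • Matrix.vecMulVec m w)
    (-c₅ • Matrix.vecMulVec w m) (c₂ • Q + c₄ • Matrix.vecMulVec w w)).det =
  c₁ ^ Fintype.card ι * c₂ ^ Fintype.card κ * P.det * Q.det *
    ((1 + c₃ / c₁ * (m ⬝ᵥ (P⁻¹ *ᵥ m))) * (1 + c₄ / c₂ * (w ⬝ᵥ (Q⁻¹ *ᵥ w))) -
      c₅ ^ 2 / (c₁ * c₂) * (m ⬝ᵥ (P⁻¹ *ᵥ m)) * (w ⬝ᵥ (Q⁻¹ *ᵥ w)))

/-- FS: the exact formula for free sums (from MOM, DET, POS). -/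
def S_FS : Prop := ∀ (ι κ : Type) [Fintype ι] [DecidableEq ι] [Fintype κ] [DecidableEq κ]
  [Nonempty ι] [Nonempty κ]
  (K : Set (ι → ℝ)) (L : Set (κ → ℝ)), Body K → Body L → 0 ∈ K → 0 ∈ L →
  let a : ℝ := Fintype.card ι
  let b : ℝ := Fintype.card κ
  A (fsum K L) / D (Fintype.card ι + Fintype.card κ) =
    (A K / D (Fintype.card ι)) * (A L / D (Fintype.card κ)) *
      (1 - ((a - u K / (a + 2)) / (a + 1)) * ((b - u L / (b + 2)) / (b + 1)))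

/-- PRD: products. -/
def S_PRD : Prop := ∀ (ι κ : Type) [Fintype ι] [DecidableEq ι] [Fintype κ] [DecidableEq κ]
  (K : Set (ι → ℝ)) (L : Set (κ → ℝ)), Body K → Body L → A (prd K L) = A K * A L

/-- NUM -/
def S_NUM : Prop := (∀ n, 0 < D n) ∧ (∀ a b : ℕ, 1 ≤ a → 1 ≤ b → D a * D b < D (a + b))

/-- CORN: the corner simplex. -/
def S_CORN : Prop := ∀ (ι : Type) [Fintype ι] [DecidableEq ι],
  Body (corner ι) ∧ A (corner ι) = D (Fintype.card ι) ∧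
  ∀ z : ι → ℝ, z ∈ corner ι → u ((fun x => x - z) '' corner ι) =
    ((Fintype.card ι : ℝ) + 2) * (((Fintype.card ι : ℝ) + 1) * (∑ i, z i ^ 2 + (1 - ∑ i, z i) ^ 2) - 1)

/-- SEG: one-dimensional bodies. -/
def S_SEG : Prop := ∀ K : Set (Unit → ℝ), Body K → A K = D 1

/-- SIMP: simplices are the affine images of the corner simplex. -/
def S_SIMP : Prop := ∀ (n : ℕ) (S : Set (Fin n → ℝ)), IsSimplex S ↔
  ∃ T : (Fin n → ℝ) ≃ᵃ[ℝ] (Fin n → ℝ), S = T '' corner (Fin n)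

/-- RAD: a convex hull of `n + 2` points with nonempty interior is a simplex, or a linear image of
a free sum of two translated corner simplices. -/
def S_RAD : Prop := ∀ (n : ℕ), 1 ≤ n → ∀ (v : Fin (n + 2) → Fin n → ℝ),
  (interior (convexHull ℝ (range v))).Nonempty →
  IsSimplex (convexHull ℝ (range v)) ∨
  ∃ (a b : ℕ) (x : Fin a → ℝ) (y : Fin b → ℝ)
    (T : (Fin a ⊕ Fin b → ℝ) ≃ᵃ[ℝ] (Fin n → ℝ)), a + b = n ∧ 1 ≤ a ∧ 1 ≤ b ∧
    x ∈ corner (Fin a) ∧ y ∈ corner (Fin b) ∧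
    ∑ i, x i ^ 2 + (1 - ∑ i, x i) ^ 2 < 1 ∧ ∑ i, y i ^ 2 + (1 - ∑ i, y i) ^ 2 < 1 ∧
    convexHull ℝ (range v) = T '' fsum ((fun w => w - x) '' corner (Fin a))
      ((fun w => w - y) '' corner (Fin b))

/-! ## The theorem -/

/-- bodies generated from intervals by affine maps, products and free sums (about any common
point of the two bodies) -/
inductive Gen : (ι : Type) → [Fintype ι] → Set (ι → ℝ) → Prop
  | seg (K : Set (Unit → ℝ)) : Body K → Gen Unit K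
  | aff (ι κ : Type) [Fintype ι] [Fintype κ] (K : Set (ι → ℝ)) (T : (ι → ℝ) ≃ᵃ[ℝ] (κ → ℝ)) :
      Gen ι K → Gen κ (T '' K)
  | prd (ι κ : Type) [Fintype ι] [Fintype κ] (K : Set (ι → ℝ)) (L : Set (κ → ℝ)) :
      Gen ι K → Gen κ L → Gen (ι ⊕ κ) (prd K L)
  | fsum (ι κ : Type) [Fintype ι] [Fintype κ] (K : Set (ι → ℝ)) (L : Set (κ → ℝ)) :
      Gen ι K → Gen κ L → 0 ∈ K → 0 ∈ L → Gen (ι ⊕ κ) (fsum K L)

/-- FINAL.
(1) closure: if `L_K ≤ L_Δ`, `L_L ≤ L_Δ` then the same holds for `K × L` and for every free sum;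
(2) all generated bodies; (3) polytopes with at most `n + 2` vertices, with the equality case. -/
def S_FINAL : Prop :=
  (∀ (a b : ℕ), 1 ≤ a → 1 ≤ b → ∀ (K : Set (Fin a → ℝ)) (L : Set (Fin b → ℝ)), Body K → Body L →
    A K ≤ D a → A L ≤ D b → A (prd K L) < D (a + b) ∧
      (0 ∈ K → 0 ∈ L → A (fsum K L) ≤ D (a + b))) ∧
  (∀ (n : ℕ) (S : Set (Fin n → ℝ)), IsSimplex S → A S = D n) ∧
  (∀ (n : ℕ) (K : Set (Fin n → ℝ)), Gen (Fin n) K → Body K ∧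
    ∀ S : Set (Fin n → ℝ), IsSimplex S → iso K ≤ iso S) ∧
  (∀ (n : ℕ), 1 ≤ n → ∀ (v : Fin (n + 2) → Fin n → ℝ),
    (interior (convexHull ℝ (range v))).Nonempty → ∀ S : Set (Fin n → ℝ), IsSimplex S →
    iso (convexHull ℝ (range v)) ≤ iso S ∧
      (iso (convexHull ℝ (range v)) = iso S → IsSimplex (convexHull ℝ (range v))))

end Vale.Agent.P254
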