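import Mathlib
import Vale.Agent.P254.Defs

/-!
# P254, module FS: the exact formula for free sums
-/

set_option autoImplicit false

namespace Vale.Agent.P254

namespace FSAux

theorem alg (a b : ℕ) (A1 A2 dP dQ VK VL u1 u2 fa fb fn : ℝ)
    (hVK : 0 < VK) (hVL : 0 < VL) (hfa : 0 < fa) (hfb : 0 < fb) (hfn : 0 < fn)
    (h1 : A1 = dP / VK ^ 2) (h2 : A2 = dQ / VL ^ 2) :
    (((((a : ℝ) + 1) * ((a : ℝ) + 2) / (((a : ℝ) + b + 1) * ((a : ℝ) + b + 2))) ^ a *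
        (((b : ℝ) + 1) * ((b : ℝ) + 2) / (((a : ℝ) + b + 1) * ((a : ℝ) + b + 2))) ^ b * dP * dQ *
        ((1 + (((a : ℝ) + 1) * b / (((a : ℝ) + b + 1) ^ 2 * ((a : ℝ) + b + 2))) /
              (((a : ℝ) + 1) * ((a : ℝ) + 2) / (((a : ℝ) + b + 1) * ((a : ℝ) + b + 2))) * u1) *
          (1 + (((b : ℝ) + 1) * a / (((a : ℝ) + b + 1) ^ 2 * ((a : ℝ) + b + 2))) /
              (((b : ℝ) + 1) * ((b : ℝ) + 2) / (((a : ℝ) + b + 1) * ((a : ℝ) + b + 2))) * u2) -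
          (((a : ℝ) + 1) * (b + 1) / (((a : ℝ) + b + 1) ^ 2 * ((a : ℝ) + b + 2))) ^ 2 /
            ((((a : ℝ) + 1) * ((a : ℝ) + 2) / (((a : ℝ) + b + 1) * ((a : ℝ) + b + 2))) *
              (((b : ℝ) + 1) * ((b : ℝ) + 2) / (((a : ℝ) + b + 1) * ((a : ℝ) + b + 2)))) *
            u1 * u2)) / (fa * fb / fn * (VK * VL)) ^ 2) /
        (fn ^ 2 / (((a : ℝ) + b + 1) ^ (a + b + 1) * ((a : ℝ) + b + 2) ^ (a + b))) =
      (A1 / (fa ^ 2 / (((a : ℝ) + 1) ^ (a + 1) * ((a : ℝ) + 2) ^ a))) *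
        (A2 / (fb ^ 2 / (((b : ℝ) + 1) ^ (b + 1) * ((b : ℝ) + 2) ^ b))) *
        (1 - (((a : ℝ) - u1 / (a + 2)) / (a + 1)) * (((b : ℝ) - u2 / (b + 2)) / (b + 1))) := by
  have ha : (0 : ℝ) < (a : ℝ) + 1 := by positivity
  have ha2 : (0 : ℝ) < (a : ℝ) + 2 := by positivity
  have hb : (0 : ℝ) < (b : ℝ) + 1 := by positivity
  have hb2 : (0 : ℝ) < (b : ℝ) + 2 := by positivity
  have hn : (0 : ℝ) < (a : ℝ) + b + 1 := by positivity
  have hn2 : (0 : ℝ) < (a : ℝ) + b + 2 := by positivity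
  have hB : ((1 + (((a : ℝ) + 1) * b / (((a : ℝ) + b + 1) ^ 2 * ((a : ℝ) + b + 2))) /
              (((a : ℝ) + 1) * ((a : ℝ) + 2) / (((a : ℝ) + b + 1) * ((a : ℝ) + b + 2))) * u1) *
          (1 + (((b : ℝ) + 1) * a / (((a : ℝ) + b + 1) ^ 2 * ((a : ℝ) + b + 2))) /
              (((b : ℝ) + 1) * ((b : ℝ) + 2) / (((a : ℝ) + b + 1) * ((a : ℝ) + b + 2))) * u2) -
          (((a : ℝ) + 1) * (b + 1) / (((a : ℝ) + b + 1) ^ 2 * ((a : ℝ) + b + 2))) ^ 2 /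
            ((((a : ℝ) + 1) * ((a : ℝ) + 2) / (((a : ℝ) + b + 1) * ((a : ℝ) + b + 2))) *
              (((b : ℝ) + 1) * ((b : ℝ) + 2) / (((a : ℝ) + b + 1) * ((a : ℝ) + b + 2)))) *
            u1 * u2) =
      ((a : ℝ) + 1) * ((b : ℝ) + 1) / ((a : ℝ) + b + 1) *
        (1 - (((a : ℝ) - u1 / (a + 2)) / (a + 1)) * (((b : ℝ) - u2 / (b + 2)) / (b + 1))) := by
    field_simp
    ring
  rw [hB, h1, h2]
  have e1 : ((a : ℝ) + b + 1) ^ (a + b + 1) =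
      ((a : ℝ) + b + 1) ^ a * ((a : ℝ) + b + 1) ^ b * ((a : ℝ) + b + 1) := by
    rw [pow_succ, pow_add]
  have e2 : ((a : ℝ) + b + 2) ^ (a + b) = ((a : ℝ) + b + 2) ^ a * ((a : ℝ) + b + 2) ^ b := by
    rw [pow_add]
  have e3 : ((a : ℝ) + 1) ^ (a + 1) = ((a : ℝ) + 1) ^ a * ((a : ℝ) + 1) := pow_succ _ _
  have e4 : ((b : ℝ) + 1) ^ (b + 1) = ((b : ℝ) + 1) ^ b * ((b : ℝ) + 1) := pow_succ _ _
  rw [e1, e2, e3, e4, div_pow, div_pow, mul_pow, mul_pow, mul_pow, mul_pow]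
  generalize (1 - (((a : ℝ) - u1 / (a + 2)) / (a + 1)) * (((b : ℝ) - u2 / (b + 2)) / (b + 1))) = W
  have p1 : (0 : ℝ) < ((a : ℝ) + 1) ^ a := by positivity
  have p2 : (0 : ℝ) < ((a : ℝ) + 2) ^ a := by positivity
  have p3 : (0 : ℝ) < ((b : ℝ) + 1) ^ b := by positivity
  have p4 : (0 : ℝ) < ((b : ℝ) + 2) ^ b := by positivity
  have p5 : (0 : ℝ) < ((a : ℝ) + b + 1) ^ a := by positivity
  have p6 : (0 : ℝ) < ((a : ℝ) + b + 1) ^ b := by positivity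
  have p7 : (0 : ℝ) < ((a : ℝ) + b + 2) ^ a := by positivity
  have p8 : (0 : ℝ) < ((a : ℝ) + b + 2) ^ b := by positivity
  generalize ((a : ℝ) + 1) ^ a = q1 at p1 ⊢
  generalize ((a : ℝ) + 2) ^ a = q2 at p2 ⊢
  generalize ((b : ℝ) + 1) ^ b = q3 at p3 ⊢
  generalize ((b : ℝ) + 2) ^ b = q4 at p4 ⊢
  generalize ((a : ℝ) + b + 1) ^ a = q5 at p5 ⊢
  generalize ((a : ℝ) + b + 1) ^ b = q6 at p6 ⊢
  generalize ((a : ℝ) + b + 2) ^ a = q7 at p7 ⊢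
  generalize ((a : ℝ) + b + 2) ^ b = q8 at p8 ⊢
  field_simp

end FSAux

theorem fs : S_POS → S_MOM → S_DET → S_FS := by
  intro hPOS hMOM hDET ι κ _ _ _ _ _ _ K L hK hL h0K h0L a b
  obtain ⟨hVK, hPK, -⟩ := hPOS ι K hK
  obtain ⟨hVL, hPL, -⟩ := hPOS κ L hL
  obtain ⟨hvol, hcov⟩ := hMOM ι κ K L hK hL h0K h0L
  have hdet := hDET ι κ (cov K) (cov L) (mean K) (mean L)
    ((a + 1) * (a + 2) / ((a + b + 1) * (a + b + 2)))
    ((b + 1) * (b + 2) / ((a + b + 1) * (a + b + 2)))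
    ((a + 1) * b / ((a + b + 1) ^ 2 * (a + b + 2)))
    ((b + 1) * a / ((a + b + 1) ^ 2 * (a + b + 2)))
    ((a + 1) * (b + 1) / ((a + b + 1) ^ 2 * (a + b + 2))) hPK hPL
    (by positivity) (by positivity)
  have hA : A (fsum K L) = (cov (fsum K L)).det / vol (fsum K L) ^ 2 := rfl
  rw [hA, hcov, hvol]
  rw [hdet]
  have hcast : ((Fintype.card ι + Fintype.card κ : ℕ) : ℝ) = a + b := by
    push_cast; rfl
  unfold D
  rw [hcast]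
  exact FSAux.alg (Fintype.card ι) (Fintype.card κ) (A K) (A L) (cov K).det (cov L).det
    (vol K) (vol L) (u K) (u L) (Fintype.card ι).factorial (Fintype.card κ).factorial
    (Fintype.card ι + Fintype.card κ).factorial hVK hVL (by positivity) (by positivity)
    (by positivity) rfl rfl

end Vale.Agent.P254
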