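import Vale.Agent.P254.Defs

/-!
# P254, module FINAL
-/

set_option autoImplicit false

namespace Vale.Agent.P254

open MeasureTheory Set
open scoped Matrix

namespace FinX

theorem A_pos (hPOS : S_POS) {ι : Type} [Fintype ι] [DecidableEq ι] {K : Set (ι → ℝ)}
    (hK : Body K) : 0 < A K := by
  obtain ⟨h1, h2, _⟩ := hPOS ι K hK
  exact div_pos h2.det_pos (by positivity)

theorem fac {a u : ℝ} (ha : 0 ≤ a) (h0 : 0 ≤ u) (h1 : u ≤ a * (a + 2)) :
    0 ≤ (a - u / (a + 2)) / (a + 1) ∧ (a - u / (a + 2)) / (a + 1) < 1 := by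
  have h2 : 0 ≤ u / (a + 2) := by positivity
  have h3 : u / (a + 2) ≤ a := by
    rw [div_le_iff₀ (by linarith)]; exact h1
  constructor
  · apply div_nonneg <;> linarith
  · rw [div_lt_one (by linarith)]; linarith

theorem clos (hPOS : S_POS) (hSTAR : S_STAR) (hFS : S_FS) (hNUM : S_NUM) {ι κ : Type} [Fintype ι]
    [DecidableEq ι] [Fintype κ] [DecidableEq κ] [Nonempty ι] [Nonempty κ] {K : Set (ι → ℝ)}
    {L : Set (κ → ℝ)} (hK : Body K) (hL : Body L) (h0 : 0 ∈ K) (h0' : 0 ∈ L)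
    (hA : A K ≤ D (Fintype.card ι)) (hB : A L ≤ D (Fintype.card κ)) :
    A (fsum K L) ≤ D (Fintype.card ι + Fintype.card κ) := by
  have h1 := hFS ι κ K L hK hL h0 h0'
  simp only at h1
  have hu := hSTAR ι K hK h0
  have hw := hSTAR κ L hL h0'
  obtain ⟨f0, f1⟩ := fac (Nat.cast_nonneg _) hu.1 hu.2
  obtain ⟨g0, g1⟩ := fac (Nat.cast_nonneg _) hw.1 hw.2
  have hD := hNUM.1
  have q1 : A K / D (Fintype.card ι) ≤ 1 := by rw [div_le_one (hD _)]; exact hA
  have q2 : A L / D (Fintype.card κ) ≤ 1 := by rw [div_le_one (hD _)]; exact hB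
  have q1' : 0 ≤ A K / D (Fintype.card ι) := div_nonneg (A_pos hPOS hK).le (hD _).le
  have q2' : 0 ≤ A L / D (Fintype.card κ) := div_nonneg (A_pos hPOS hL).le (hD _).le
  rw [← div_le_one (hD _), h1]
  set f := ((Fintype.card ι : ℝ) - u K / (Fintype.card ι + 2)) / (Fintype.card ι + 1)
  set g := ((Fintype.card κ : ℝ) - u L / (Fintype.card κ + 2)) / (Fintype.card κ + 1)
  have h2 : 1 - f * g ≤ 1 := by nlinarith [mul_nonneg f0 g0]
  have h3 : 0 ≤ 1 - f * g := by nlinarith [mul_nonneg f0 g0]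
  calc A K / D (Fintype.card ι) * (A L / D (Fintype.card κ)) * (1 - f * g)
      ≤ 1 * 1 * 1 := by gcongr
    _ = 1 := by norm_num

theorem closp (hPOS : S_POS) (hPRD : S_PRD) (hNUM : S_NUM) {ι κ : Type} [Fintype ι]
    [DecidableEq ι] [Fintype κ] [DecidableEq κ] [Nonempty ι] [Nonempty κ] {K : Set (ι → ℝ)}
    {L : Set (κ → ℝ)} (hK : Body K) (hL : Body L)
    (hA : A K ≤ D (Fintype.card ι)) (hB : A L ≤ D (Fintype.card κ)) :
    A (prd K L) < D (Fintype.card ι + Fintype.card κ) := by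
  rw [hPRD ι κ K L hK hL]
  calc A K * A L ≤ D (Fintype.card ι) * D (Fintype.card κ) :=
        mul_le_mul hA hB (A_pos hPOS hL).le (hNUM.1 _).le
    _ < _ := hNUM.2 _ _ Fintype.card_pos Fintype.card_pos

theorem card_eq {ι κ : Type} [Fintype ι] [Fintype κ] (T : (ι → ℝ) ≃ᵃ[ℝ] (κ → ℝ)) :
    Fintype.card ι = Fintype.card κ := by
  have := T.linear.finrank_eq
  simpa using this

theorem gen (hPOS : S_POS) (hBODY : S_BODY) (hAFF : S_AFF) (hSTAR : S_STAR) (hFS : S_FS)
    (hPRD : S_PRD) (hNUM : S_NUM) (hSEG : S_SEG) {ι : Type} [Fintype ι] {K : Set (ι → ℝ)}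
    (h : Gen ι K) : Nonempty ι ∧ Body K ∧ ∀ [DecidableEq ι], A K ≤ D (Fintype.card ι) := by
  induction h with
  | seg K hK =>
      refine ⟨inferInstance, hK, ?_⟩
      intro inst
      have e : inst = instDecidableEqPUnit := Subsingleton.elim _ _
      subst e
      rw [hSEG K hK]
      simp
  | aff ι κ K T hK ih =>
      classical
      obtain ⟨h1, h2, h3⟩ := ih
      have hc := card_eq T
      have hne : Nonempty κ := by
        rw [← Fintype.card_pos_iff, ← hc]
        exact Fintype.card_pos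
      refine ⟨hne, (hAFF ι κ K T h2).1, ?_⟩
      intro inst
      have h4 := (hAFF ι κ K T h2).2
      rw [h4, ← hc]
      exact h3
  | prd ι κ K L hK hL ih1 ih2 =>
      classical
      obtain ⟨h1, h2, h3⟩ := ih1
      obtain ⟨k1, k2, k3⟩ := ih2
      refine ⟨inferInstance, (hBODY ι κ K L h2 k2).1, ?_⟩
      intro inst
      have h4 := closp hPOS hPRD hNUM h2 k2 h3 k3
      rw [Fintype.card_sum]
      have h5 := le_of_lt h4
      have e : inst = instDecidableEqSum := Subsingleton.elim _ _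
      subst e
      exact h5
  | fsum ι κ K L hK hL h0 h0' ih1 ih2 =>
      classical
      obtain ⟨h1, h2, h3⟩ := ih1
      obtain ⟨k1, k2, k3⟩ := ih2
      refine ⟨inferInstance, (hBODY ι κ K L h2 k2).2 h0 h0', ?_⟩
      intro inst
      have h4 := clos hPOS hSTAR hFS hNUM h2 k2 h0 h0' h3 k3
      rw [Fintype.card_sum]
      have e : inst = instDecidableEqSum := Subsingleton.elim _ _
      subst e
      exact h4

/-- translates of the corner simplex -/
theorem trans (hAFF : S_AFF) (hCORN : S_CORN) {ι : Type} [Fintype ι] [DecidableEq ι] (x : ι → ℝ)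
    (hx : x ∈ corner ι) :
    Body ((fun w => w - x) '' corner ι) ∧ (0 : ι → ℝ) ∈ (fun w => w - x) '' corner ι ∧
      A ((fun w => w - x) '' corner ι) = D (Fintype.card ι) := by
  obtain ⟨h1, h2, h3⟩ := hCORN ι
  have e : (fun w => w - x) '' corner ι =
      (AffineEquiv.constVAdd ℝ (ι → ℝ) (-x)) '' corner ι := by
    refine image_congr fun w _ => ?_
    simp [sub_eq_neg_add]
  have h4 := hAFF ι ι (corner ι) (AffineEquiv.constVAdd ℝ (ι → ℝ) (-x)) h1
  refine ⟨e ▸ h4.1, ⟨x, hx, by simp⟩, ?_⟩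
  rw [e, h4.2, h2]

end FinX

open FinX

theorem final (hPOS : S_POS) (hBODY : S_BODY) (hAFF : S_AFF) (hSTAR : S_STAR) (hFS : S_FS)
    (hPRD : S_PRD) (hNUM : S_NUM) (hCORN : S_CORN) (hSEG : S_SEG) (hSIMP : S_SIMP)
    (hRAD : S_RAD) : S_FINAL := by
  have hS : ∀ (n : ℕ) (S : Set (Fin n → ℝ)), IsSimplex S → A S = D n := by
    intro n S h
    obtain ⟨T, rfl⟩ := (hSIMP n S).1 h
    obtain ⟨h1, h2, h3⟩ := hCORN (Fin n)
    rw [(hAFF _ _ _ T h1).2, h2, Fintype.card_fin]
  refine ⟨?_, hS, ?_, ?_⟩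
  · intro a b ha hb K L hK hL hA hB
    have : Nonempty (Fin a) := ⟨⟨0, ha⟩⟩
    have : Nonempty (Fin b) := ⟨⟨0, hb⟩⟩
    have hA' : A K ≤ D (Fintype.card (Fin a)) := by rwa [Fintype.card_fin]
    have hB' : A L ≤ D (Fintype.card (Fin b)) := by rwa [Fintype.card_fin]
    constructor
    · have := closp hPOS hPRD hNUM hK hL hA' hB'
      simpa using this
    · intro h0 h0'
      have := clos hPOS hSTAR hFS hNUM hK hL h0 h0' hA' hB'
      simpa using this
  · intro n K hK
    obtain ⟨h1, h2, h3⟩ := gen hPOS hBODY hAFF hSTAR hFS hPRD hNUM hSEG hK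
    refine ⟨h2, ?_⟩
    intro S hS'
    have h4 : A K ≤ A S := by
      rw [hS n S hS']
      have := h3
      simpa using this
    exact Real.rpow_le_rpow (A_pos hPOS h2).le h4 (by positivity)
  · intro n hn v hv S hS'
    rcases hRAD n hn v hv with h | ⟨a, b, x, y, T, hab, ha, hb, hx, hy, hx1, hy1, hT⟩
    · refine ⟨?_, fun _ => h⟩
      unfold iso
      rw [hS n _ h, hS n S hS']
    · have : Nonempty (Fin a) := ⟨⟨0, ha⟩⟩
      have : Nonempty (Fin b) := ⟨⟨0, hb⟩⟩
      obtain ⟨p1, p2, p3⟩ := trans hAFF hCORN x hx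
      obtain ⟨q1, q2, q3⟩ := trans hAFF hCORN y hy
      have hBd := (hBODY _ _ _ _ p1 q1).2 p2 q2
      obtain ⟨t1, t2⟩ := hAFF _ _ _ T hBd
      have h1 := hFS _ _ _ _ p1 q1 p2 q2
      simp only at h1
      rw [p3, q3, (hCORN (Fin a)).2.2 x hx, (hCORN (Fin b)).2.2 y hy, div_self (hNUM.1 _).ne',
        div_self (hNUM.1 _).ne', Fintype.card_fin, Fintype.card_fin, hab] at h1
      set s : ℝ := ∑ i, x i ^ 2 + (1 - ∑ i, x i) ^ 2 with hs
      set t : ℝ := ∑ i, y i ^ 2 + (1 - ∑ i, y i) ^ 2 with ht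
      have f1 : ((a : ℝ) - ((a : ℝ) + 2) * (((a : ℝ) + 1) * s - 1) / (a + 2)) / (a + 1) = 1 - s := by
        have : (a : ℝ) + 2 ≠ 0 := by positivity
        have : (a : ℝ) + 1 ≠ 0 := by positivity
        field_simp
        ring
      have f2 : ((b : ℝ) - ((b : ℝ) + 2) * (((b : ℝ) + 1) * t - 1) / (b + 2)) / (b + 1) = 1 - t := by
        have : (b : ℝ) + 2 ≠ 0 := by positivity
        have : (b : ℝ) + 1 ≠ 0 := by positivity
        field_simp
        ring
      rw [f1, f2] at h1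
      have h2 : 0 < (1 - s) * (1 - t) := mul_pos (by linarith) (by linarith)
      have h3 : A (convexHull ℝ (range v)) < D n := by
        rw [hT, t2, ← div_lt_one (hNUM.1 n), h1]
        linarith
      have h4 : iso (convexHull ℝ (range v)) < iso S := by
        unfold iso
        rw [hS n S hS']
        apply Real.rpow_lt_rpow _ h3
        · have : (0 : ℝ) < n := by exact_mod_cast hn
          positivity
        · rw [hT]
          exact (A_pos hPOS t1).le
      exact ⟨h4.le, fun e => absurd e h4.ne⟩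

end Vale.Agent.P254
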