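import Vale.Agent.P254.Defs

/-! # P254, module INT (helper20): integrals over the free sum -/

set_option autoImplicit false

namespace Vale.Agent.P254

open MeasureTheory Set
open scoped Pointwise

namespace IntX

variable {ι κ : Type} [Fintype ι] [Fintype κ]

theorem smul_mono {K : Set (ι → ℝ)} (hK : Convex ℝ K) (h0 : (0 : ι → ℝ) ∈ K) {s t : ℝ}
    (hs : 0 ≤ s) (hst : s ≤ t) : s • K ⊆ t • K := by
  rintro _ ⟨x, hx, rfl⟩
  rcases eq_or_lt_of_le (hs.trans hst) with h | h
  · have hs0 : s = 0 := le_antisymm (hst.trans h.symm.le) hs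
    refine ⟨x, hx, ?_⟩
    simp only [hs0, ← h]
  · refine ⟨(s / t) • x, hK.smul_mem_of_zero_mem h0 hx ⟨by positivity, (div_le_one h).2 hst⟩, ?_⟩
    simp only [smul_smul]
    rw [mul_div_cancel₀ _ h.ne']

/-- the gauge on `L` -/
noncomputable def gg (L : Set (κ → ℝ)) (y : κ → ℝ) : ℝ :=
  sInf {s : ℝ | 0 ≤ s ∧ s ≤ 1 ∧ y ∈ s • L}

theorem gg_spec {L : Set (κ → ℝ)} (hL : Body L) (h0 : (0 : κ → ℝ) ∈ L) {y : κ → ℝ} (hy : y ∈ L) :
    0 ≤ gg L y ∧ gg L y ≤ 1 ∧ ∀ s, 0 ≤ s → s ≤ 1 → (y ∈ s • L ↔ gg L y ≤ s) := by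
  set C : Set ℝ := {s : ℝ | 0 ≤ s ∧ s ≤ 1 ∧ y ∈ s • L} with hC
  have hCc : IsCompact C := by
    have h1 : IsCompact ((Icc (0 : ℝ) 1 ×ˢ L) ∩ {q : ℝ × (κ → ℝ) | q.1 • q.2 = y}) := by
      refine (isCompact_Icc.prod hL.compact).inter_right ?_
      exact isClosed_eq (by fun_prop) continuous_const
    have h2 : C = Prod.fst '' ((Icc (0 : ℝ) 1 ×ˢ L) ∩ {q : ℝ × (κ → ℝ) | q.1 • q.2 = y}) := by
      ext s
      constructor
      · rintro ⟨a, b, l, hl, e⟩
        exact ⟨(s, l), ⟨⟨⟨a, b⟩, hl⟩, e⟩, rfl⟩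
      · rintro ⟨⟨s', l⟩, ⟨⟨⟨a, b⟩, hl⟩, e⟩, rfl⟩
        exact ⟨a, b, l, hl, e⟩
    rw [h2]
    exact h1.image continuous_fst
  have hCn : C.Nonempty := ⟨1, zero_le_one, le_rfl, by rwa [one_smul]⟩
  have hmem : gg L y ∈ C := hCc.sInf_mem hCn
  refine ⟨hmem.1, hmem.2.1, fun s hs hs1 => ⟨fun h => ?_, fun h => ?_⟩⟩
  · exact csInf_le ⟨0, fun t ht => ht.1⟩ ⟨hs, hs1, h⟩
  · exact smul_mono hL.convex h0 hmem.1 h hmem.2.2

theorem smul_sub_self {L : Set (κ → ℝ)} (hL : Body L) (h0 : (0 : κ → ℝ) ∈ L) {s : ℝ} (hs : 0 ≤ s)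
    (hs1 : s ≤ 1) : s • L ⊆ L := by
  have := smul_mono hL.convex h0 hs hs1
  rwa [one_smul] at this

/-- integrals of homogeneous functions over dilates -/
theorem scale [Nonempty ι] (K : Set (ι → ℝ)) {p : ℕ} {φ : (ι → ℝ) → ℝ}
    (hφ : ∀ t : ℝ, 0 < t → ∀ x, φ (t • x) = t ^ p * φ x) {r : ℝ} (hr : 0 ≤ r) :
    ∫ x in r • K, φ x = r ^ (Fintype.card ι + p) * ∫ x in K, φ x := by
  rcases eq_or_lt_of_le hr with h | h
  · subst h
    have h1 : volume ((0 : ℝ) • K) = 0 := by
      refine measure_mono_null (t := {0}) ?_ (measure_singleton _)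
      rintro _ ⟨x, -, rfl⟩
      simp
    rw [Measure.restrict_eq_zero.2 h1]
    have : 0 < Fintype.card ι := Fintype.card_pos
    simp [zero_pow (show Fintype.card ι + p ≠ 0 by omega)]
  · have h1 := Measure.setIntegral_comp_smul_of_pos (volume : Measure (ι → ℝ)) φ K h
    simp only [hφ r h] at h1
    rw [integral_const_mul, Module.finrank_fintype_fun_eq_card, smul_eq_mul] at h1
    rw [pow_add, mul_assoc, h1, ← mul_assoc, mul_inv_cancel₀ (pow_ne_zero _ h.ne'), one_mul]

theorem beta (β : ℕ) : ∀ α : ℕ, 1 ≤ α →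
    ∫ u in (0 : ℝ)..1, (α : ℝ) * u ^ (α - 1) * (1 - u) ^ β =
      (α.factorial * β.factorial : ℝ) / ((α + β).factorial : ℝ) := by
  induction β with
  | zero =>
      intro α hα
      simp only [pow_zero, mul_one, Nat.factorial_zero, Nat.cast_one, add_zero]
      rw [intervalIntegral.integral_const_mul, integral_pow]
      have h1 : ((α - 1 : ℕ) : ℝ) + 1 = α := by
        have : α - 1 + 1 = α := by omega
        exact_mod_cast this
      have h2 : α - 1 + 1 = α := by omega
      rw [h2, h1]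
      have h3 : (α : ℝ) ≠ 0 := by positivity
      have h4 : (α.factorial : ℝ) ≠ 0 := by positivity
      simp [zero_pow (show α ≠ 0 by omega), h3, h4]
  | succ β ih =>
      intro α hα
      have hu : ∀ x ∈ uIcc (0 : ℝ) 1, HasDerivAt (fun u : ℝ => u ^ α) ((α : ℝ) * x ^ (α - 1)) x :=
        fun x _ => hasDerivAt_pow α x
      have hv : ∀ x ∈ uIcc (0 : ℝ) 1, HasDerivAt (fun u : ℝ => (1 - u) ^ (β + 1))
          (-((β + 1 : ℕ) * (1 - x) ^ β)) x := by
        intro x _
        have h1 : HasDerivAt (fun u : ℝ => 1 - u) (-1) x := by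
          simpa using (hasDerivAt_id x).const_sub 1
        have h2 := h1.pow (β + 1)
        refine h2.congr_deriv ?_
        simp
      have hi1 : IntervalIntegrable (fun x : ℝ => (α : ℝ) * x ^ (α - 1)) volume 0 1 :=
        (by fun_prop : Continuous _).intervalIntegrable _ _
      have hi2 : IntervalIntegrable (fun x : ℝ => -((β + 1 : ℕ) * (1 - x) ^ β : ℝ)) volume 0 1 :=
        (by fun_prop : Continuous _).intervalIntegrable _ _
      have hp := intervalIntegral.integral_deriv_mul_eq_sub hu hv hi1 hi2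
      have hz : (1 : ℝ) ^ α * (1 - 1) ^ (β + 1) - 0 ^ α * (1 - 0) ^ (β + 1) = 0 := by
        rw [zero_pow (show α ≠ 0 by omega)]; simp
      rw [hz] at hp
      have hs : ∫ x in (0 : ℝ)..1, ((α : ℝ) * x ^ (α - 1) * (1 - x) ^ (β + 1) +
          x ^ α * (-((β + 1 : ℕ) * (1 - x) ^ β))) =
          (∫ x in (0 : ℝ)..1, (α : ℝ) * x ^ (α - 1) * (1 - x) ^ (β + 1)) -
          ((β + 1 : ℕ) : ℝ) / ((α + 1 : ℕ) : ℝ) *
            ∫ x in (0 : ℝ)..1, ((α + 1 : ℕ) : ℝ) * x ^ (α + 1 - 1) * (1 - x) ^ β := by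
        rw [← intervalIntegral.integral_const_mul, ← intervalIntegral.integral_sub
          ((by fun_prop : Continuous _).intervalIntegrable _ _)
          ((by fun_prop : Continuous _).intervalIntegrable _ _)]
        refine intervalIntegral.integral_congr fun x _ => ?_
        simp only [Nat.add_sub_cancel]
        have h3 : ((α + 1 : ℕ) : ℝ) ≠ 0 := by positivity
        field_simp
        ring
      rw [hs, ih (α + 1) (by omega)] at hp
      have h5 : ∫ x in (0 : ℝ)..1, (α : ℝ) * x ^ (α - 1) * (1 - x) ^ (β + 1) =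
          ((β + 1 : ℕ) : ℝ) / ((α + 1 : ℕ) : ℝ) * (((α + 1).factorial * β.factorial : ℝ) /
            ((α + 1 + β).factorial : ℝ)) := by linarith
      rw [h5]
      have e1 : α + 1 + β = α + (β + 1) := by ring
      rw [e1, Nat.factorial_succ α, Nat.factorial_succ β]
      have h3 : ((α + 1 : ℕ) : ℝ) ≠ 0 := by positivity
      have h4 : ((α + (β + 1)).factorial : ℝ) ≠ 0 := by positivity
      push_cast at h3 ⊢
      field_simp

/-- the integral of `ψ (1 - g) ^ α` over `L` -/
theorem layer [Nonempty κ] {L : Set (κ → ℝ)} (hL : Body L) (h0 : (0 : κ → ℝ) ∈ L) {q : ℕ}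
    {ψ : (κ → ℝ) → ℝ} (hc : Continuous ψ)
    (hψ : ∀ t : ℝ, 0 < t → ∀ x, ψ (t • x) = t ^ q * ψ x) (α : ℕ) (hα : 1 ≤ α) :
    ∫ y in L, ψ y * (1 - gg L y) ^ α =
      (α.factorial * (Fintype.card κ + q).factorial : ℝ) /
        ((α + (Fintype.card κ + q)).factorial : ℝ) * ∫ y in L, ψ y := by
  set β : ℕ := Fintype.card κ + q with hβ
  set W : Set ((κ → ℝ) × ℝ) :=
    (fun w : ℝ × (κ → ℝ) => ((1 - w.1) • w.2, w.1)) '' (Icc (0 : ℝ) 1 ×ˢ L) with hW
  have hWc : IsCompact W := (isCompact_Icc.prod hL.compact).image (by fun_prop)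
  have hWm : ∀ y u, (y, u) ∈ W ↔ (0 ≤ u ∧ u ≤ 1) ∧ y ∈ (1 - u) • L := by
    intro y u
    constructor
    · rintro ⟨⟨u', l⟩, ⟨hu, hl⟩, e⟩
      obtain ⟨e1, e2⟩ := Prod.mk.inj e
      simp only at e1 e2 hu hl
      subst e2
      exact ⟨hu, l, hl, e1⟩
    · rintro ⟨hu, l, hl, e⟩
      exact ⟨(u, l), ⟨hu, hl⟩, by simp only; rw [← e]⟩
  set h : (κ → ℝ) × ℝ → ℝ := fun w => ψ w.1 * ((α : ℝ) * w.2 ^ (α - 1)) with hh
  have hhc : Continuous h := by rw [hh]; fun_prop
  have hint : Integrable (W.indicator h) (volume.prod volume) := by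
    rw [integrable_indicator_iff hWc.measurableSet]
    exact hhc.continuousOn.integrableOn_compact hWc
  have hsw := integral_integral_swap (f := fun y u => W.indicator h (y, u)) hint
  have hL1 : ∀ y, ∫ u, W.indicator h (y, u) = L.indicator (fun y => ψ y * (1 - gg L y) ^ α) y := by
    intro y
    by_cases hy : y ∈ L
    · obtain ⟨g0, g1, gs⟩ := gg_spec hL h0 hy
      rw [indicator_of_mem hy]
      have e1 : ∀ u, W.indicator h (y, u) =
          (Icc (0 : ℝ) (1 - gg L y)).indicator (fun u => ψ y * ((α : ℝ) * u ^ (α - 1))) u := by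
        intro u
        by_cases hu : u ∈ Icc (0 : ℝ) (1 - gg L y)
        · have : (y, u) ∈ W := by
            rw [hWm]
            refine ⟨⟨hu.1, by linarith [hu.2]⟩, ?_⟩
            rw [gs (1 - u) (by linarith [hu.2]) (by linarith [hu.1])]
            linarith [hu.2]
          rw [indicator_of_mem this, indicator_of_mem hu]
        · have : (y, u) ∉ W := by
            rw [hWm]
            rintro ⟨hu1, hu2⟩
            apply hu
            rw [gs (1 - u) (by linarith [hu1.2]) (by linarith [hu1.1])] at hu2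
            exact ⟨hu1.1, by linarith⟩
          rw [indicator_of_notMem this, indicator_of_notMem hu]
      simp only [e1]
      rw [integral_indicator measurableSet_Icc, integral_Icc_eq_integral_Ioc,
        ← intervalIntegral.integral_of_le (by linarith), intervalIntegral.integral_const_mul,
        intervalIntegral.integral_const_mul, integral_pow]
      have h1 : ((α - 1 : ℕ) : ℝ) + 1 = α := by
        have : α - 1 + 1 = α := by omega
        exact_mod_cast this
      have h2 : α - 1 + 1 = α := by omega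
      rw [h2, h1]
      have h3 : (α : ℝ) ≠ 0 := by positivity
      rw [zero_pow (show α ≠ 0 by omega)]
      field_simp
      ring
    · rw [indicator_of_notMem hy]
      have e1 : ∀ u, W.indicator h (y, u) = 0 := by
        intro u
        apply indicator_of_notMem
        rw [hWm]
        rintro ⟨hu1, hu2⟩
        exact hy (smul_sub_self hL h0 (by linarith [hu1.2]) (by linarith [hu1.1]) hu2)
      simp [e1]
  have hL2 : ∀ u, ∫ y, W.indicator h (y, u) =
      (Icc (0 : ℝ) 1).indicator (fun u => (α : ℝ) * u ^ (α - 1) * (1 - u) ^ β * ∫ y in L, ψ y) u := by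
    intro u
    by_cases hu : u ∈ Icc (0 : ℝ) 1
    · rw [indicator_of_mem hu]
      have hcl : MeasurableSet ((1 - u) • L) := (hL.compact.smul (1 - u)).measurableSet
      have e1 : ∀ y, W.indicator h (y, u) =
          ((1 - u) • L).indicator (fun y => (α : ℝ) * u ^ (α - 1) * ψ y) y := by
        intro y
        by_cases hy : y ∈ (1 - u) • L
        · have : (y, u) ∈ W := (hWm y u).2 ⟨hu, hy⟩
          rw [indicator_of_mem this, indicator_of_mem hy, hh]
          ring
        · have : (y, u) ∉ W := fun hw => hy ((hWm y u).1 hw).2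
          rw [indicator_of_notMem this, indicator_of_notMem hy]
      simp only [e1]
      rw [integral_indicator hcl, integral_const_mul, scale L hψ (by linarith [hu.2])]
      ring
    · rw [indicator_of_notMem hu]
      have e1 : ∀ y, W.indicator h (y, u) = 0 := by
        intro y
        apply indicator_of_notMem
        rw [hWm]
        rintro ⟨hu1, -⟩
        exact hu hu1
      simp [e1]
  simp only [hL1, hL2] at hsw
  rw [integral_indicator hL.compact.measurableSet, integral_indicator measurableSet_Icc,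
    integral_Icc_eq_integral_Ioc, ← intervalIntegral.integral_of_le zero_le_one,
    intervalIntegral.integral_mul_const, beta β α hα] at hsw
  exact hsw

/-- the free sum as a union of products -/
theorem mem_fsum {K : Set (ι → ℝ)} {L : Set (κ → ℝ)} (hK : Convex ℝ K) (hL : Convex ℝ L)
    (h0 : (0 : ι → ℝ) ∈ K) (h0' : (0 : κ → ℝ) ∈ L) (z : ι ⊕ κ → ℝ) : z ∈ fsum K L ↔
    ∃ s : ℝ, 0 ≤ s ∧ s ≤ 1 ∧ (fun i => z (Sum.inl i)) ∈ (1 - s) • K ∧
      (fun j => z (Sum.inr j)) ∈ s • L := by
  unfold fsum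
  have hl1 : IsLinearMap ℝ (fun x : ι → ℝ => (Sum.elim x 0 : ι ⊕ κ → ℝ)) := by
    constructor
    · intro x y; funext i; cases i <;> simp
    · intro c x; funext i; cases i <;> simp
  have hl2 : IsLinearMap ℝ (fun y : κ → ℝ => (Sum.elim 0 y : ι ⊕ κ → ℝ)) := by
    constructor
    · intro x y; funext i; cases i <;> simp
    · intro c x; funext i; cases i <;> simp
  rw [Convex.convexHull_union (hK.is_linear_image hl1) (hL.is_linear_image hl2)
    ⟨_, mem_image_of_mem _ h0⟩ ⟨_, mem_image_of_mem _ h0'⟩, mem_convexJoin]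
  constructor
  · rintro ⟨_, ⟨x, hx, rfl⟩, _, ⟨y, hy, rfl⟩, a, b, ha, hb, hab, rfl⟩
    refine ⟨b, hb, by linarith, ⟨x, hx, ?_⟩, ⟨y, hy, ?_⟩⟩
    · funext i
      have : 1 - b = a := by linarith
      simp [this]
    · funext j
      simp
  · rintro ⟨s, hs0, hs1, ⟨x, hx, hx'⟩, ⟨y, hy, hy'⟩⟩
    refine ⟨_, ⟨x, hx, rfl⟩, _, ⟨y, hy, rfl⟩, 1 - s, s, by linarith, hs0, by ring, ?_⟩
    funext i
    cases i with
    | inl i =>
        have := congrFun hx' i
        simp only [Pi.smul_apply, smul_eq_mul] at this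
        simp [this]
    | inr j =>
        have := congrFun hy' j
        simp only [Pi.smul_apply, smul_eq_mul] at this
        simp [this]

end IntX

open IntX in
theorem int_ : S_INT := by
  intro ι κ _ _ _ _ K L p q φ ψ hK hL h0 h0' hφc hψc hφ hψ
  set e := MeasurableEquiv.sumPiEquivProdPi (fun _ : ι ⊕ κ => ℝ) with he
  have hmp : MeasurePreserving e volume volume :=
    volume_measurePreserving_sumPiEquivProdPi (fun _ : ι ⊕ κ => ℝ)
  set S : Set ((ι → ℝ) × (κ → ℝ)) :=
    (fun w : ℝ × ((ι → ℝ) × (κ → ℝ)) => ((1 - w.1) • w.2.1, w.1 • w.2.2)) ''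
      (Icc (0 : ℝ) 1 ×ˢ (K ×ˢ L)) with hS
  have hSc : IsCompact S := (isCompact_Icc.prod (hK.compact.prod hL.compact)).image (by fun_prop)
  have hSm : ∀ x y, (x, y) ∈ S ↔ ∃ s : ℝ, 0 ≤ s ∧ s ≤ 1 ∧ x ∈ (1 - s) • K ∧ y ∈ s • L := by
    intro x y
    constructor
    · rintro ⟨⟨s, k, l⟩, ⟨hs, hk, hl⟩, e⟩
      obtain ⟨e1, e2⟩ := Prod.mk.inj e
      exact ⟨s, hs.1, hs.2, ⟨k, hk, e1⟩, ⟨l, hl, e2⟩⟩
    · rintro ⟨s, hs0, hs1, ⟨k, hk, e1⟩, ⟨l, hl, e2⟩⟩
      exact ⟨(s, k, l), ⟨⟨hs0, hs1⟩, hk, hl⟩, by simp only at e1 e2 ⊢; rw [e1, e2]⟩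
  have hpre : fsum K L = e ⁻¹' S := by
    ext z
    rw [mem_fsum hK.convex hL.convex h0 h0', mem_preimage]
    exact (hSm _ _).symm
  set Φ : (ι → ℝ) × (κ → ℝ) → ℝ := fun w => φ w.1 * ψ w.2 with hΦ
  have hΦc : Continuous Φ := by rw [hΦ]; fun_prop
  have e1 : ∫ z in fsum K L, φ (fun i => z (Sum.inl i)) * ψ (fun j => z (Sum.inr j)) =
      ∫ w in S, Φ w := by
    rw [hpre]
    exact hmp.setIntegral_preimage_emb e.measurableEmbedding Φ S
  rw [e1, ← integral_indicator hSc.measurableSet]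
  have hint : Integrable (S.indicator Φ) (volume.prod volume) := by
    rw [integrable_indicator_iff hSc.measurableSet]
    exact hΦc.continuousOn.integrableOn_compact hSc
  have e2 : ∫ w, S.indicator Φ w = ∫ y, ∫ x, S.indicator Φ (x, y) := by
    have h1 := integral_prod_symm (μ := (volume : Measure (ι → ℝ)))
      (ν := (volume : Measure (κ → ℝ))) (S.indicator Φ) hint
    exact h1
  rw [e2]
  have hin : ∀ y, ∫ x, S.indicator Φ (x, y) =
      L.indicator (fun y => ψ y * (1 - gg L y) ^ (Fintype.card ι + p) * ∫ x in K, φ x) y := by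
    intro y
    by_cases hy : y ∈ L
    · obtain ⟨g0, g1, gs⟩ := gg_spec hL h0' hy
      rw [indicator_of_mem hy]
      have hcl : MeasurableSet ((1 - gg L y) • K) := (hK.compact.smul (1 - gg L y)).measurableSet
      have e3 : ∀ x, S.indicator Φ (x, y) =
          ((1 - gg L y) • K).indicator (fun x => ψ y * φ x) x := by
        intro x
        by_cases hx : x ∈ (1 - gg L y) • K
        · have : (x, y) ∈ S := (hSm x y).2 ⟨gg L y, g0, g1, hx, (gs _ g0 g1).2 le_rfl⟩
          rw [indicator_of_mem this, indicator_of_mem hx, hΦ]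
          ring
        · have : (x, y) ∉ S := by
            intro hw
            obtain ⟨s, hs0, hs1, hxs, hys⟩ := (hSm x y).1 hw
            apply hx
            have h1 := (gs s hs0 hs1).1 hys
            exact smul_mono hK.convex h0 (by linarith) (by linarith) hxs
          rw [indicator_of_notMem this, indicator_of_notMem hx]
      simp only [e3]
      rw [integral_indicator hcl, integral_const_mul, scale K hφ (by linarith)]
      ring
    · rw [indicator_of_notMem hy]
      have e3 : ∀ x, S.indicator Φ (x, y) = 0 := by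
        intro x
        apply indicator_of_notMem
        intro hw
        obtain ⟨s, hs0, hs1, hxs, hys⟩ := (hSm x y).1 hw
        exact hy (smul_sub_self hL h0' hs0 hs1 hys)
      simp [e3]
  simp only [hin]
  have hcard : 0 < Fintype.card ι := Fintype.card_pos
  rw [integral_indicator hL.compact.measurableSet, integral_mul_const,
    layer hL h0' hψc hψ (Fintype.card ι + p) (by omega)]
  have e4 : Fintype.card ι + p + (Fintype.card κ + q) = Fintype.card ι + Fintype.card κ + p + q := by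
    ring
  rw [e4]
  push_cast
  ring

end Vale.Agent.P254
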