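import Vale.Agent.P254.Defs

/-!
# P254, module MOM (helper21): moments of the free sum
-/

set_option autoImplicit false

namespace Vale.Agent.P254.MomH

open MeasureTheory Set
open scoped Matrix

lemma r10 (a b : ℕ) (X V W : ℝ) (hV : V ≠ 0) (hW : W ≠ 0) :
    (((a + 1).factorial * (b + 0).factorial : ℕ) : ℝ) / ((a + b + 1 + 0).factorial : ℝ) *
      (X * W) / ((a.factorial * b.factorial : ℝ) / ((a + b).factorial : ℝ) * (V * W)) =
      ((a : ℝ) + 1) / ((a : ℝ) + b + 1) * (X / V) := by
  have ha : (a.factorial : ℝ) ≠ 0 := by exact_mod_cast a.factorial_ne_zero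
  have hb : (b.factorial : ℝ) ≠ 0 := by exact_mod_cast b.factorial_ne_zero
  have hn : ((a + b).factorial : ℝ) ≠ 0 := by exact_mod_cast (a + b).factorial_ne_zero
  have h1 : (a : ℝ) + b + 1 ≠ 0 := by positivity
  rw [add_zero, add_zero, Nat.factorial_succ a, Nat.factorial_succ (a + b)]
  push_cast
  field_simp

lemma r01 (a b : ℕ) (X V W : ℝ) (hV : V ≠ 0) (hW : W ≠ 0) :
    (((a + 0).factorial * (b + 1).factorial : ℕ) : ℝ) / ((a + b + 0 + 1).factorial : ℝ) *
      (V * X) / ((a.factorial * b.factorial : ℝ) / ((a + b).factorial : ℝ) * (V * W)) =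
      ((b : ℝ) + 1) / ((a : ℝ) + b + 1) * (X / W) := by
  have ha : (a.factorial : ℝ) ≠ 0 := by exact_mod_cast a.factorial_ne_zero
  have hb : (b.factorial : ℝ) ≠ 0 := by exact_mod_cast b.factorial_ne_zero
  have hn : ((a + b).factorial : ℝ) ≠ 0 := by exact_mod_cast (a + b).factorial_ne_zero
  have h1 : (a : ℝ) + b + 1 ≠ 0 := by positivity
  rw [add_zero, add_zero, Nat.factorial_succ b, Nat.factorial_succ (a + b)]
  push_cast
  field_simp

lemma r20 (a b : ℕ) (X V W : ℝ) (hV : V ≠ 0) (hW : W ≠ 0) :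
    (((a + 2).factorial * (b + 0).factorial : ℕ) : ℝ) / ((a + b + 2 + 0).factorial : ℝ) *
      (X * W) / ((a.factorial * b.factorial : ℝ) / ((a + b).factorial : ℝ) * (V * W)) =
      ((a : ℝ) + 1) * (a + 2) / (((a : ℝ) + b + 1) * (a + b + 2)) * (X / V) := by
  have ha : (a.factorial : ℝ) ≠ 0 := by exact_mod_cast a.factorial_ne_zero
  have hb : (b.factorial : ℝ) ≠ 0 := by exact_mod_cast b.factorial_ne_zero
  have hn : ((a + b).factorial : ℝ) ≠ 0 := by exact_mod_cast (a + b).factorial_ne_zero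
  have h1 : (a : ℝ) + b + 1 ≠ 0 := by positivity
  have h2 : (a : ℝ) + b + 2 ≠ 0 := by positivity
  have e1 : (a + 2).factorial = (a + 2) * ((a + 1) * a.factorial) := by
    rw [Nat.factorial_succ (a + 1), Nat.factorial_succ a]
  have e2 : (a + b + 2).factorial = (a + b + 2) * ((a + b + 1) * (a + b).factorial) := by
    rw [Nat.factorial_succ (a + b + 1), Nat.factorial_succ (a + b)]
  rw [add_zero, add_zero, e1, e2]
  push_cast
  field_simp

lemma r02 (a b : ℕ) (X V W : ℝ) (hV : V ≠ 0) (hW : W ≠ 0) :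
    (((a + 0).factorial * (b + 2).factorial : ℕ) : ℝ) / ((a + b + 0 + 2).factorial : ℝ) *
      (V * X) / ((a.factorial * b.factorial : ℝ) / ((a + b).factorial : ℝ) * (V * W)) =
      ((b : ℝ) + 1) * (b + 2) / (((a : ℝ) + b + 1) * (a + b + 2)) * (X / W) := by
  have ha : (a.factorial : ℝ) ≠ 0 := by exact_mod_cast a.factorial_ne_zero
  have hb : (b.factorial : ℝ) ≠ 0 := by exact_mod_cast b.factorial_ne_zero
  have hn : ((a + b).factorial : ℝ) ≠ 0 := by exact_mod_cast (a + b).factorial_ne_zero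
  have h1 : (a : ℝ) + b + 1 ≠ 0 := by positivity
  have h2 : (a : ℝ) + b + 2 ≠ 0 := by positivity
  have e1 : (b + 2).factorial = (b + 2) * ((b + 1) * b.factorial) := by
    rw [Nat.factorial_succ (b + 1), Nat.factorial_succ b]
  have e2 : (a + b + 2).factorial = (a + b + 2) * ((a + b + 1) * (a + b).factorial) := by
    rw [Nat.factorial_succ (a + b + 1), Nat.factorial_succ (a + b)]
  rw [add_zero, add_zero, e1, e2]
  push_cast
  field_simp

lemma r11 (a b : ℕ) (X Y V W : ℝ) (hV : V ≠ 0) (hW : W ≠ 0) :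
    (((a + 1).factorial * (b + 1).factorial : ℕ) : ℝ) / ((a + b + 1 + 1).factorial : ℝ) *
      (X * Y) / ((a.factorial * b.factorial : ℝ) / ((a + b).factorial : ℝ) * (V * W)) =
      ((a : ℝ) + 1) * (b + 1) / (((a : ℝ) + b + 1) * (a + b + 2)) * ((X / V) * (Y / W)) := by
  have ha : (a.factorial : ℝ) ≠ 0 := by exact_mod_cast a.factorial_ne_zero
  have hb : (b.factorial : ℝ) ≠ 0 := by exact_mod_cast b.factorial_ne_zero
  have hn : ((a + b).factorial : ℝ) ≠ 0 := by exact_mod_cast (a + b).factorial_ne_zero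
  have h1 : (a : ℝ) + b + 1 ≠ 0 := by positivity
  have h2 : (a : ℝ) + b + 2 ≠ 0 := by positivity
  have e2 : (a + b + 1 + 1).factorial = (a + b + 2) * ((a + b + 1) * (a + b).factorial) := by
    rw [Nat.factorial_succ (a + b + 1), Nat.factorial_succ (a + b)]
  rw [e2, Nat.factorial_succ a, Nat.factorial_succ b]
  push_cast
  field_simp

end Vale.Agent.P254.MomH

namespace Vale.Agent.P254

open MeasureTheory Set
open scoped Matrix

theorem mom (POS : S_POS) (BODY : S_BODY) (INT : S_INT) : S_MOM := by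
  intro ι κ _ _ _ _ _ _ K L hK hL h0K h0L a b
  have hF : Body (fsum K L) := (BODY ι κ K L hK hL).2 h0K h0L
  obtain ⟨hvK, -, hcK⟩ := POS ι K hK
  obtain ⟨hvL, -, hcL⟩ := POS κ L hL
  obtain ⟨hvF, -, hcF⟩ := POS (ι ⊕ κ) (fsum K L) hF
  have hK1 : ∫ _x in K, (1 : ℝ) = vol K := by
    simp [vol, Measure.real]
  have hL1 : ∫ _x in L, (1 : ℝ) = vol L := by
    simp [vol, Measure.real]
  have hF1 : ∫ _x in fsum K L, (1 : ℝ) = vol (fsum K L) := by
    simp [vol, Measure.real]
  have hV : vol (fsum K L) = ((Fintype.card ι).factorial * (Fintype.card κ).factorial : ℝ) /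
      ((Fintype.card ι + Fintype.card κ).factorial : ℝ) * (vol K * vol L) := by
    have h := INT ι κ K L 0 0 (fun _ => 1) (fun _ => 1) hK hL h0K h0L continuous_const
      continuous_const (by intro t _ x; simp) (by intro t _ y; simp)
    rw [hK1, hL1] at h
    simp only [mul_one, hF1, add_zero, Nat.cast_mul] at h
    exact h
  have hm1 : ∀ i, (∫ z in fsum K L, z (Sum.inl i)) / vol (fsum K L) =
      (a + 1) / (a + b + 1) * mean K i := by
    intro i
    have h := INT ι κ K L 1 0 (fun x => x i) (fun _ => 1) hK hL h0K h0L (continuous_apply i)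
      continuous_const (by intro t _ x; simp) (by intro t _ y; simp)
    rw [hL1] at h
    simp only [mul_one] at h
    rw [h, hV, MomH.r10 _ _ _ _ _ hvK.ne' hvL.ne']
    rfl
  have hm2 : ∀ j, (∫ z in fsum K L, z (Sum.inr j)) / vol (fsum K L) =
      (b + 1) / (a + b + 1) * mean L j := by
    intro j
    have h := INT ι κ K L 0 1 (fun _ => 1) (fun y => y j) hK hL h0K h0L continuous_const
      (continuous_apply j) (by intro t _ x; simp) (by intro t _ y; simp)
    rw [hK1] at h
    simp only [one_mul] at h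
    rw [h, hV, MomH.r01 _ _ _ _ _ hvK.ne' hvL.ne']
    rfl
  have hmean1 : ∀ i, mean (fsum K L) (Sum.inl i) = (a + 1) / (a + b + 1) * mean K i := hm1
  have hmean2 : ∀ j, mean (fsum K L) (Sum.inr j) = (b + 1) / (a + b + 1) * mean L j := hm2
  have ha1 : a + b + 1 ≠ 0 := by positivity
  have ha2 : a + b + 2 ≠ 0 := by positivity
  have hEK : ∀ i i', (∫ x in K, x i * x i') / vol K = cov K i i' + mean K i * mean K i' := by
    intro i i'
    rw [hcK]
    ring
  have hEL : ∀ i i', (∫ x in L, x i * x i') / vol L = cov L i i' + mean L i * mean L i' := by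
    intro i i'
    rw [hcL]
    ring
  have h11 : ∀ i i', cov (fsum K L) (Sum.inl i) (Sum.inl i') =
      ((a + 1) * (a + 2) / ((a + b + 1) * (a + b + 2))) * cov K i i' +
      ((a + 1) * b / ((a + b + 1) ^ 2 * (a + b + 2))) * (mean K i * mean K i') := by
    intro i i'
    have h := INT ι κ K L 2 0 (fun x => x i * x i') (fun _ => 1) hK hL h0K h0L
      ((continuous_apply i).mul (continuous_apply i')) continuous_const
      (by intro t _ x; simp; ring) (by intro t _ y; simp)
    rw [hL1] at h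
    simp only [mul_one] at h
    rw [hcF, h, hV, MomH.r20 _ _ _ _ _ hvK.ne' hvL.ne', hmean1, hmean1, hEK]
    change (a + 1) * (a + 2) / ((a + b + 1) * (a + b + 2)) * (cov K i i' + mean K i * mean K i') -
      _ = _
    field_simp
    ring
  have h22 : ∀ i i', cov (fsum K L) (Sum.inr i) (Sum.inr i') =
      ((b + 1) * (b + 2) / ((a + b + 1) * (a + b + 2))) * cov L i i' +
      ((b + 1) * a / ((a + b + 1) ^ 2 * (a + b + 2))) * (mean L i * mean L i') := by
    intro i i'
    have h := INT ι κ K L 0 2 (fun _ => 1) (fun x => x i * x i') hK hL h0K h0L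
      continuous_const ((continuous_apply i).mul (continuous_apply i'))
      (by intro t _ x; simp) (by intro t _ y; simp; ring)
    rw [hK1] at h
    simp only [one_mul] at h
    rw [hcF, h, hV, MomH.r02 _ _ _ _ _ hvK.ne' hvL.ne', hmean2, hmean2, hEL]
    change (b + 1) * (b + 2) / ((a + b + 1) * (a + b + 2)) * (cov L i i' + mean L i * mean L i') -
      _ = _
    field_simp
    ring
  have h12 : ∀ i j, cov (fsum K L) (Sum.inl i) (Sum.inr j) =
      -((a + 1) * (b + 1) / ((a + b + 1) ^ 2 * (a + b + 2))) * (mean K i * mean L j) := by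
    intro i j
    have h := INT ι κ K L 1 1 (fun x => x i) (fun y => y j) hK hL h0K h0L
      (continuous_apply i) (continuous_apply j)
      (by intro t _ x; simp) (by intro t _ y; simp)
    rw [hcF, h, hV, MomH.r11 _ _ _ _ _ _ hvK.ne' hvL.ne', hmean1, hmean2]
    change (a + 1) * (b + 1) / ((a + b + 1) * (a + b + 2)) * (mean K i * mean L j) -
      _ = _
    field_simp
    ring
  have hsymm : ∀ p q, cov (fsum K L) p q = cov (fsum K L) q p := by
    intro p q
    unfold cov
    simp_rw [mul_comm]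
  refine ⟨hV, ?_⟩
  ext p q
  rcases p with i | i <;> rcases q with j | j
  · rw [h11]
    simp [Matrix.fromBlocks, Matrix.vecMulVec_apply]
  · rw [h12]
    simp [Matrix.fromBlocks, Matrix.vecMulVec_apply]
  · rw [hsymm, h12, mul_comm (mean K _)]
    simp [Matrix.fromBlocks, Matrix.vecMulVec_apply]
  · rw [h22]
    simp [Matrix.fromBlocks, Matrix.vecMulVec_apply]

end Vale.Agent.P254
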