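import Vale.Agent.P254.Defs

/-! # P254, NUM: strict superadditivity of `log D` -/

set_option autoImplicit false

namespace Vale.Agent.P254

namespace NumX

open Real

/-- logarithm of the ratio `D (n + 1) / D n` at `x = n + 1` -/
noncomputable def f (x : ℝ) : ℝ := x * (log x - log (x + 2)) + 2 * (log x - log (x + 1))

lemma log_le {x : ℝ} (hx : 0 < x) : log (x + 2) - log x ≤ 2 * (x + 1) / (x * (x + 2)) := by
  have h2 : 0 < x + 2 := by linarith
  have ht : 0 < (x + 2) / x := by positivity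
  have h3 : 0 ≤ log ((x + 2) / x) := by
    apply log_nonneg
    rw [le_div_iff₀ hx]
    linarith
  have h4 := self_le_sinh_iff.2 h3
  rw [sinh_log ht, log_div h2.ne' hx.ne'] at h4
  refine h4.trans (le_of_eq ?_)
  field_simp
  ring

lemma hasDeriv {x : ℝ} (hx : 0 < x) : HasDerivAt f
    ((log x - log (x + 2)) + x * (x⁻¹ - (x + 2)⁻¹) + 2 * (x⁻¹ - (x + 1)⁻¹)) x := by
  have h2 : x + 2 ≠ 0 := by positivity
  have h1 : x + 1 ≠ 0 := by positivity
  have e0 : HasDerivAt (fun y : ℝ => log y) x⁻¹ x := hasDerivAt_log hx.ne'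
  have e2 : HasDerivAt (fun y : ℝ => log (y + 2)) (x + 2)⁻¹ x := by
    have := ((hasDerivAt_id x).add_const 2).log h2
    simpa using this
  have e1 : HasDerivAt (fun y : ℝ => log (y + 1)) (x + 1)⁻¹ x := by
    have := ((hasDerivAt_id x).add_const 1).log h1
    simpa using this
  have := ((hasDerivAt_id x).mul (e0.sub e2)).add ((e0.sub e1).const_mul 2)
  have h4 : (log x - log (x + 2)) + x * (x⁻¹ - (x + 2)⁻¹) + 2 * (x⁻¹ - (x + 1)⁻¹)
      = 1 * (log x - log (x + 2)) + x * (x⁻¹ - (x + 2)⁻¹) + 2 * (x⁻¹ - (x + 1)⁻¹) := by ring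
  rw [h4]
  exact this

lemma deriv_pos {x : ℝ} (hx : 0 < x) :
    0 < (log x - log (x + 2)) + x * (x⁻¹ - (x + 2)⁻¹) + 2 * (x⁻¹ - (x + 1)⁻¹) := by
  have h := log_le hx
  have h1 : x * (x⁻¹ - (x + 2)⁻¹) + 2 * (x⁻¹ - (x + 1)⁻¹) - 2 * (x + 1) / (x * (x + 2))
      = 2 / (x * (x + 1) * (x + 2)) := by
    field_simp
    ring
  have h2 : 0 < 2 / (x * (x + 1) * (x + 2)) := by positivity
  linarith

lemma f_mono : StrictMonoOn f (Set.Ioi 0) := by
  apply strictMonoOn_of_deriv_pos (convex_Ioi 0)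
  · intro x hx
    exact (hasDeriv hx).continuousAt.continuousWithinAt
  · intro x hx
    rw [interior_Ioi] at hx
    rw [(hasDeriv hx).deriv]
    exact deriv_pos hx

/-- the ratio -/
noncomputable def r (n : ℕ) : ℝ :=
  (((n : ℝ) + 1) / ((n : ℝ) + 3)) ^ (n + 1) * (((n : ℝ) + 1) / ((n : ℝ) + 2)) ^ 2

lemma r_pos (n : ℕ) : 0 < r n := by unfold r; positivity

lemma log_r (n : ℕ) : log (r n) = f ((n : ℝ) + 1) := by
  have h1 : ((n : ℝ) + 1) ≠ 0 := by positivity
  have h2 : ((n : ℝ) + 2) ≠ 0 := by positivity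
  have h3 : ((n : ℝ) + 3) ≠ 0 := by positivity
  unfold r f
  rw [log_mul (pow_ne_zero _ (div_ne_zero h1 h3)) (pow_ne_zero _ (div_ne_zero h1 h2)), log_pow,
    log_pow, log_div h1 h3, log_div h1 h2]
  push_cast
  rw [show (n : ℝ) + 1 + 2 = n + 3 by ring, show (n : ℝ) + 1 + 1 = n + 2 by ring]

lemma r_lt {m n : ℕ} (h : m < n) : r m < r n := by
  rw [← log_lt_log_iff (r_pos m) (r_pos n), log_r, log_r]
  refine f_mono ?_ ?_ ?_
  · exact Set.mem_Ioi.2 (by positivity)
  · exact Set.mem_Ioi.2 (by positivity)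
  · have : (m : ℝ) < n := by exact_mod_cast h
    linarith

lemma D_pos (n : ℕ) : 0 < D n := by
  unfold D
  have := Nat.factorial_pos n
  positivity

lemma D_succ (n : ℕ) : D (n + 1) = r n * D n := by
  have h1 : ((n : ℝ) + 1) ≠ 0 := by positivity
  have h2 : ((n : ℝ) + 2) ≠ 0 := by positivity
  have h3 : ((n : ℝ) + 3) ≠ 0 := by positivity
  unfold D r
  rw [Nat.factorial_succ, div_pow, div_pow]
  push_cast
  rw [show (n : ℝ) + 1 + 1 = n + 2 by ring, show (n : ℝ) + 1 + 2 = n + 3 by ring]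
  field_simp
  ring

lemma D_zero : D 0 = 1 := by
  unfold D
  simp

end NumX

open NumX in
theorem num : S_NUM := by
  refine ⟨D_pos, fun a b ha hb => ?_⟩
  have hle : ∀ b, D a * D b ≤ D (a + b) ∧ D a * D (b + 1) < D (a + (b + 1)) := by
    intro b
    induction b with
    | zero =>
      have h0 : D a * D 0 ≤ D (a + 0) := by rw [D_zero, mul_one, add_zero]
      refine ⟨h0, ?_⟩
      rw [← add_assoc, D_succ (a + 0), D_succ 0]
      have h1 := r_lt (show 0 < a + 0 by omega)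
      have h2 := D_pos (a + 0)
      have h3 := r_pos 0
      nlinarith
    | succ b ih =>
      refine ⟨ih.2.le, ?_⟩
      rw [← add_assoc, D_succ (a + (b + 1)), D_succ (b + 1)]
      have h1 := r_lt (show b + 1 < a + (b + 1) by omega)
      have h2 := D_pos (a + (b + 1))
      have h3 := r_pos (b + 1)
      have h4 := ih.2
      nlinarith
  obtain ⟨c, rfl⟩ : ∃ c, b = c + 1 := ⟨b - 1, by omega⟩
  exact (hle c).2

end Vale.Agent.P254
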