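import Vale.Agent.P254.Defs

set_option autoImplicit false

namespace Vale.Agent.P254

open MeasureTheory Set
open scoped Matrix

namespace PrdX

variable {ι κ : Type} [Fintype ι] [Fintype κ]

theorem preim (K : Set (ι → ℝ)) (L : Set (κ → ℝ)) :
    prd K L = (MeasurableEquiv.sumPiEquivProdPi (fun _ : ι ⊕ κ => ℝ)) ⁻¹' (K ×ˢ L) := by
  ext z
  rfl

theorem integral (K : Set (ι → ℝ)) (L : Set (κ → ℝ)) (f : (ι → ℝ) → ℝ) (g : (κ → ℝ) → ℝ) :
    ∫ z in prd K L, f (fun i => z (Sum.inl i)) * g (fun j => z (Sum.inr j)) =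
      (∫ x in K, f x) * ∫ y in L, g y := by
  rw [preim]
  have h := (volume_measurePreserving_sumPiEquivProdPi
    (fun _ : ι ⊕ κ => ℝ)).setIntegral_preimage_emb
    (MeasurableEquiv.sumPiEquivProdPi (fun _ : ι ⊕ κ => ℝ)).measurableEmbedding
    (fun p : (ι → ℝ) × (κ → ℝ) => f p.1 * g p.2) (K ×ˢ L)
  have h2 : ∫ z in (MeasurableEquiv.sumPiEquivProdPi (fun _ : ι ⊕ κ => ℝ)) ⁻¹' (K ×ˢ L),
      f (fun i => z (Sum.inl i)) * g (fun j => z (Sum.inr j)) =
      ∫ p in K ×ˢ L, f p.1 * g p.2 := h
  rw [h2]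
  exact setIntegral_prod_mul f g K L

theorem vol_eq (K : Set (ι → ℝ)) : vol K = ∫ _x in K, (1 : ℝ) := by
  unfold vol
  simp [Measure.real]

theorem vol_prd (K : Set (ι → ℝ)) (L : Set (κ → ℝ)) : vol (prd K L) = vol K * vol L := by
  have h := integral K L (fun _ => 1) (fun _ => 1)
  simp only [one_mul] at h
  rw [vol_eq, vol_eq, vol_eq]
  exact h

theorem int_inl (K : Set (ι → ℝ)) (L : Set (κ → ℝ)) (f : (ι → ℝ) → ℝ) :
    ∫ z in prd K L, f (fun i => z (Sum.inl i)) = (∫ x in K, f x) * vol L := by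
  have h := integral K L f (fun _ => 1)
  simp only [mul_one] at h
  rw [vol_eq]
  exact h

theorem int_inr (K : Set (ι → ℝ)) (L : Set (κ → ℝ)) (g : (κ → ℝ) → ℝ) :
    ∫ z in prd K L, g (fun i => z (Sum.inr i)) = vol K * (∫ x in L, g x) := by
  have h := integral K L (fun _ => 1) g
  simp only [one_mul] at h
  rw [vol_eq K]
  exact h

theorem mean_inl (K : Set (ι → ℝ)) (L : Set (κ → ℝ)) (hL : vol L ≠ 0) (i : ι) :
    mean (prd K L) (Sum.inl i) = mean K i := by
  unfold mean
  rw [int_inl K L (fun x => x i), vol_prd, mul_div_mul_right _ _ hL]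

theorem mean_inr (K : Set (ι → ℝ)) (L : Set (κ → ℝ)) (hK : vol K ≠ 0) (i : κ) :
    mean (prd K L) (Sum.inr i) = mean L i := by
  unfold mean
  rw [int_inr K L (fun x => x i), vol_prd, mul_div_mul_left _ _ hK]

theorem centered (K : Set (ι → ℝ)) (hc : IsCompact K) (hK : vol K ≠ 0) (i : ι) :
    ∫ x in K, (x i - mean K i) = 0 := by
  have h1 : IntegrableOn (fun x : ι → ℝ => x i) K volume :=
    (continuous_apply i).continuousOn.integrableOn_compact hc
  have h2 : IntegrableOn (fun _ : ι → ℝ => mean K i) K volume :=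
    continuous_const.continuousOn.integrableOn_compact hc
  rw [integral_sub h1 h2]
  have h3 : ∫ _x in K, mean K i = vol K * mean K i := by
    simp [vol, Measure.real]
  rw [h3]
  unfold mean
  field_simp
  ring

theorem cov_prd (K : Set (ι → ℝ)) (L : Set (κ → ℝ)) (cK : IsCompact K) (cL : IsCompact L)
    (hK : vol K ≠ 0) (hL : vol L ≠ 0) :
    cov (prd K L) = Matrix.fromBlocks (cov K) 0 0 (cov L) := by
  ext a b
  rcases a with i | i <;> rcases b with j | j
  · simp only [Matrix.fromBlocks_apply₁₁]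
    unfold cov
    rw [mean_inl K L hL, mean_inl K L hL,
      int_inl K L (fun x => (x i - mean K i) * (x j - mean K j)), vol_prd,
      mul_div_mul_right _ _ hL]
  · simp only [Matrix.fromBlocks_apply₁₂, Matrix.zero_apply]
    unfold cov
    rw [mean_inl K L hL, mean_inr K L hK,
      integral K L (fun x => x i - mean K i) (fun y => y j - mean L j), centered K cK hK]
    simp
  · simp only [Matrix.fromBlocks_apply₂₁, Matrix.zero_apply]
    unfold cov
    rw [mean_inl K L hL, mean_inr K L hK]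
    have h : ∫ z in prd K L, (z (Sum.inr i) - mean L i) * (z (Sum.inl j) - mean K j) =
        ∫ z in prd K L, (z (Sum.inl j) - mean K j) * (z (Sum.inr i) - mean L i) := by
      congr 1
      ext z
      ring
    rw [h, integral K L (fun x => x j - mean K j) (fun y => y i - mean L i), centered K cK hK]
    simp
  · simp only [Matrix.fromBlocks_apply₂₂]
    unfold cov
    rw [mean_inr K L hK, mean_inr K L hK,
      int_inr K L (fun x => (x i - mean L i) * (x j - mean L j)), vol_prd,
      mul_div_mul_left _ _ hK]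

end PrdX

open PrdX in
theorem prd' : S_POS → S_PRD := by
  intro hPOS ι κ _ _ _ _ K L bK bL
  have hK := (hPOS ι K bK).1.ne'
  have hL := (hPOS κ L bL).1.ne'
  unfold A
  rw [cov_prd K L bK.compact bL.compact hK hL, Matrix.det_fromBlocks_zero₂₁, vol_prd]
  field_simp

end Vale.Agent.P254
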