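import Vale.Agent.P254.Defs

/-! P254, module RAD: Radon decomposition of a polytope with `n + 2` vertices. -/

set_option autoImplicit false

open Set
open scoped Matrix

namespace Vale.Agent.P254.Rad

theorem convex_corner {a : ℕ} : Convex ℝ (corner (Fin a)) := by
  intro x hx y hy s t hs ht hst
  refine ⟨fun i => ?_, ?_⟩
  · have h1 := hx.1 i
    have h2 := hy.1 i
    simp only [Pi.add_apply, Pi.smul_apply, smul_eq_mul]
    positivity
  · simp only [Pi.add_apply, Pi.smul_apply, smul_eq_mul]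
    rw [Finset.sum_add_distrib, ← Finset.mul_sum, ← Finset.mul_sum]
    nlinarith [hx.2, hy.2]

section
variable {E : Type} [AddCommGroup E] [Module ℝ E]

/-- the linear part -/
noncomputable def Bl {a : ℕ} (p : Fin (a + 1) → E) : (Fin a → ℝ) →ₗ[ℝ] E :=
  ∑ i : Fin a, (LinearMap.proj (R := ℝ) (φ := fun _ : Fin a => ℝ) i).smulRight (p i.succ - p 0)

theorem Bl_apply {a : ℕ} (p : Fin (a + 1) → E) (w : Fin a → ℝ) :
    Bl p w = ∑ i : Fin a, w i • (p i.succ - p 0) := by
  simp [Bl, LinearMap.sum_apply]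

theorem Bl_apply' {a : ℕ} (p : Fin (a + 1) → E) (w : Fin a → ℝ) :
    Bl p w + p 0 = (∑ i, w i • p i.succ) + (1 - ∑ i, w i) • p 0 := by
  rw [Bl_apply]
  simp only [smul_sub]
  rw [Finset.sum_sub_distrib, ← Finset.sum_smul, sub_smul, one_smul]
  abel

theorem corner_image {a : ℕ} (p : Fin (a + 1) → E) :
    (fun w : Fin a → ℝ => Bl p w + p 0) '' corner (Fin a) = convexHull ℝ (range p) := by
  apply Subset.antisymm
  · rintro _ ⟨w, ⟨hw0, hw1⟩, rfl⟩
    have h := (convex_convexHull ℝ (range p)).sum_mem (t := Finset.univ)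
      (w := (Fin.cons (1 - ∑ i, w i) w : Fin (a + 1) → ℝ)) (z := p) (by
        intro i _
        refine Fin.cases ?_ (fun j => ?_) i
        · simpa using hw1
        · simpa using hw0 j) (by
        rw [Fin.sum_univ_succ]; simp) (fun i _ => subset_convexHull _ _ (mem_range_self i))
    rw [Fin.sum_univ_succ] at h
    simp only [Fin.cons_zero, Fin.cons_succ] at h
    simp only
    rw [Bl_apply', add_comm (∑ i, w i • p i.succ)]
    exact h
  · apply convexHull_min
    · rintro _ ⟨i, rfl⟩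
      refine Fin.cases ?_ (fun j => ?_) i
      · exact ⟨0, ⟨by simp, by simp⟩, by simp⟩
      · refine ⟨Pi.single j 1, ⟨fun k => ?_, ?_⟩, ?_⟩
        · by_cases h : k = j
          · subst h; simp
          · simp [h]
        · simp
        · simp only
          rw [Bl_apply, Finset.sum_eq_single j]
          · simp
          · intro k _ hk
            simp [hk]
          · intro h; exact absurd (Finset.mem_univ _) h
    · have := (convex_corner (a := a)).affine_image
        ((Bl p).toAffineMap + AffineMap.const ℝ (Fin a → ℝ) (p 0))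
      exact this

end

/-- the dependence -/
theorem dep {n : ℕ} (v : Fin (n + 2) → Fin n → ℝ) (h : affineSpan ℝ (range v) = ⊤) :
    ∃ c : Fin (n + 2) → ℝ, c ≠ 0 ∧ ∑ i, c i = 0 ∧ ∑ i, c i • v i = 0 ∧
      ∀ e : Fin (n + 2) → ℝ, ∑ i, e i = 0 → ∑ i, e i • v i = 0 → ∃ t : ℝ, e = t • c := by
  classical
  set L : (Fin (n + 2) → ℝ) →ₗ[ℝ] (Fin n → ℝ) × ℝ :=
    (∑ i : Fin (n + 2), (LinearMap.proj (R := ℝ) (φ := fun _ : Fin (n + 2) => ℝ) i).smulRight
      ((v i, (1 : ℝ)) : (Fin n → ℝ) × ℝ)) with hL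
  have hLa : ∀ c, L c = (∑ i, c i • v i, ∑ i, c i) := by
    intro c
    rw [hL]
    simp only [LinearMap.sum_apply, LinearMap.smulRight_apply, LinearMap.proj_apply, Prod.smul_mk,
      smul_eq_mul, mul_one]
    ext
    · simp [Prod.fst_sum]
    · simp [Prod.snd_sum]
  have key : ∀ y : Fin n → ℝ, ∃ w : Fin (n + 2) → ℝ, L w = (y, 1) := by
    intro y
    have hy : y ∈ affineSpan ℝ (range v) := by rw [h]; trivial
    obtain ⟨w, hw1, hw2⟩ := eq_affineCombination_of_mem_affineSpan_of_fintype hy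
    refine ⟨w, ?_⟩
    rw [hLa, hw1]
    congr 1
    rw [hw2, Finset.affineCombination_eq_linear_combination _ _ _ hw1]
  have hsurj : Function.Surjective L := by
    rintro ⟨y, t⟩
    obtain ⟨w, hw⟩ := key y
    obtain ⟨w0, hw0⟩ := key 0
    refine ⟨w + (t - 1) • w0, ?_⟩
    rw [map_add, map_smul, hw, hw0]
    simp
  have hrank := LinearMap.finrank_range_add_finrank_ker L
  rw [LinearMap.range_eq_top.mpr hsurj, finrank_top, Module.finrank_prod] at hrank
  simp only [Module.finrank_fintype_fun_eq_card, Fintype.card_fin, Module.finrank_self] at hrank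
  have hk : Module.finrank ℝ (LinearMap.ker L) = 1 := by omega
  obtain ⟨c, hc0, hc⟩ := finrank_eq_one_iff'.mp hk
  have hcL : L (c : Fin (n + 2) → ℝ) = 0 := c.2
  rw [hLa] at hcL
  refine ⟨c, ?_, (Prod.mk.inj hcL).2, (Prod.mk.inj hcL).1, ?_⟩
  · intro h0
    exact hc0 (Subtype.ext h0)
  · intro e he1 he2
    have heL : L e = 0 := by rw [hLa, he1, he2]; rfl
    obtain ⟨t, ht⟩ := hc ⟨e, heL⟩
    exact ⟨t, by have := congrArg Subtype.val ht; simpa using this.symm⟩

/-- one point redundant -/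
theorem caseA {n : ℕ} (v : Fin (n + 2) → Fin n → ℝ) (c : Fin (n + 2) → ℝ)
    (hc1 : ∑ i, c i = 0) (hc2 : ∑ i, c i • v i = 0)
    (hu : ∀ e : Fin (n + 2) → ℝ, ∑ i, e i = 0 → ∑ i, e i • v i = 0 → ∃ t : ℝ, e = t • c)
    (k : Fin (n + 2)) (hk : 0 < c k) (hle : ∀ i, i ≠ k → c i ≤ 0) :
    IsSimplex (convexHull ℝ (range v)) := by
  classical
  refine ⟨fun i => v (k.succAbove i), ?_, ?_⟩
  · rw [affineIndependent_iff]
    intro s w hw1 hw2 i hi
    set w' : Fin (n + 1) → ℝ := fun j => if j ∈ s then w j else 0 with hw'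
    have hw1' : ∑ j, w' j = 0 := by
      rw [hw', Finset.sum_ite_mem, Finset.univ_inter]; exact hw1
    have hw2' : ∑ j, w' j • v (k.succAbove j) = 0 := by
      have : ∀ j, w' j • v (k.succAbove j) = if j ∈ s then w j • v (k.succAbove j) else 0 := by
        intro j
        rw [hw']
        by_cases hj : j ∈ s
        · simp [hj]
        · simp [hj]
      rw [Finset.sum_congr rfl fun j _ => this j, Finset.sum_ite_mem, Finset.univ_inter]
      exact hw2
    obtain ⟨t, ht⟩ := hu (k.insertNth (0 : ℝ) w') (by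
      rw [Fin.sum_univ_succAbove _ k]; simpa using hw1') (by
      rw [Fin.sum_univ_succAbove _ k]; simpa using hw2')
    have h0 : t * c k = 0 := by
      have := congrFun ht k
      simpa using this.symm
    have ht0 : t = 0 := by
      rcases mul_eq_zero.mp h0 with h | h
      · exact h
      · exact absurd h hk.ne'
    have := congrFun ht (k.succAbove i)
    rw [ht0] at this
    simpa [hw', hi] using this
  · apply Subset.antisymm
    · apply convexHull_min _ (convex_convexHull _ _)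
      rintro _ ⟨i, rfl⟩
      by_cases hik : i = k
      · rw [hik]
        have hsum : ∑ j : Fin (n + 1), -(c (k.succAbove j) / c k) = 1 := by
          rw [Fin.sum_univ_succAbove _ k] at hc1
          rw [Finset.sum_neg_distrib, ← Finset.sum_div]
          have : ∑ j : Fin (n + 1), c (k.succAbove j) = - c k := by linarith
          rw [this]; field_simp
        have h := (convex_convexHull ℝ (range fun i => v (k.succAbove i))).sum_mem
          (t := Finset.univ) (w := fun j : Fin (n + 1) => -(c (k.succAbove j) / c k))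
          (z := fun j => v (k.succAbove j)) (by
            intro j _
            have := hle _ (Fin.succAbove_ne k j)
            have h2 : c (k.succAbove j) / c k ≤ 0 := div_nonpos_of_nonpos_of_nonneg this hk.le
            linarith) hsum (fun j _ => subset_convexHull _ _ (mem_range_self j))
        have hv : v k = ∑ j : Fin (n + 1), -(c (k.succAbove j) / c k) • v (k.succAbove j) := by
          rw [Fin.sum_univ_succAbove _ k] at hc2
          have e1 : ∑ j : Fin (n + 1), -(c (k.succAbove j) / c k) • v (k.succAbove j) =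
              -(c k)⁻¹ • ∑ j : Fin (n + 1), c (k.succAbove j) • v (k.succAbove j) := by
            rw [Finset.smul_sum]
            refine Finset.sum_congr rfl fun j _ => ?_
            rw [smul_smul]
            congr 1
            field_simp
          have e2 : ∑ j : Fin (n + 1), c (k.succAbove j) • v (k.succAbove j) = -(c k • v k) :=
            (neg_eq_of_add_eq_zero_right hc2).symm
          rw [e1, e2, smul_neg, neg_smul, neg_neg, smul_smul, inv_mul_cancel₀ hk.ne', one_smul]
        rw [hv]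
        exact h
      · obtain ⟨j, rfl⟩ := Fin.exists_succAbove_eq hik
        exact subset_convexHull _ _ (mem_range_self j)
    · apply convexHull_mono
      rintro _ ⟨j, rfl⟩
      exact mem_range_self _

/-- the main case, after choosing the splitting -/
theorem caseB {n a b : ℕ} (hab : a + b = n) (v : Fin (n + 2) → Fin n → ℝ) (c : Fin (n + 2) → ℝ)
    (hc1 : ∑ i, c i = 0) (hc2 : ∑ i, c i • v i = 0)
    (hu : ∀ e : Fin (n + 2) → ℝ, ∑ i, e i = 0 → ∑ i, e i • v i = 0 → ∃ t : ℝ, e = t • c)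
    (σ : Fin (a + 1) ⊕ Fin (b + 1) ≃ Fin (n + 2)) (h1 : ∑ i, c (σ (Sum.inl i)) = 1)
    (hp : ∀ i, 0 ≤ c (σ (Sum.inl i))) (hn : ∀ j, c (σ (Sum.inr j)) ≤ 0) :
    ∃ (x : Fin a → ℝ) (y : Fin b → ℝ) (T : (Fin a ⊕ Fin b → ℝ) ≃ᵃ[ℝ] (Fin n → ℝ)),
      x ∈ corner (Fin a) ∧ y ∈ corner (Fin b) ∧
      ∑ i, x i ^ 2 + (1 - ∑ i, x i) ^ 2 = ∑ i, c (σ (Sum.inl i)) ^ 2 ∧
      ∑ i, y i ^ 2 + (1 - ∑ i, y i) ^ 2 = ∑ j, c (σ (Sum.inr j)) ^ 2 ∧
      convexHull ℝ (range v) = T '' fsum ((fun w => w - x) '' corner (Fin a))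
        ((fun w => w - y) '' corner (Fin b)) := by
  classical
  set p : Fin (a + 1) → Fin n → ℝ := fun i => v (σ (Sum.inl i)) with hpd
  set q : Fin (b + 1) → Fin n → ℝ := fun j => v (σ (Sum.inr j)) with hqd
  have hs : ∀ {M : Type} [AddCommMonoid M] (f : Fin (n + 2) → M),
      ∑ i, f i = ∑ i, f (σ (Sum.inl i)) + ∑ j, f (σ (Sum.inr j)) := by
    intro M _ f
    rw [← σ.sum_comp, Fintype.sum_sum_type]
  have h2 : ∑ j, c (σ (Sum.inr j)) = -1 := by
    rw [hs] at hc1; linarith
  set x : Fin a → ℝ := fun i => c (σ (Sum.inl i.succ)) with hx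
  set y : Fin b → ℝ := fun j => -c (σ (Sum.inr j.succ)) with hy
  have hx0 : 1 - ∑ i, x i = c (σ (Sum.inl 0)) := by
    rw [Fin.sum_univ_succ] at h1; rw [hx]; linarith
  have hy0 : 1 - ∑ j, y j = -c (σ (Sum.inr 0)) := by
    rw [Fin.sum_univ_succ] at h2; rw [hy]; rw [Finset.sum_neg_distrib]; linarith
  -- the linear map
  set Bm : (Fin a ⊕ Fin b → ℝ) →ₗ[ℝ] (Fin n → ℝ) :=
    (Bl p).comp (LinearMap.funLeft ℝ ℝ Sum.inl) + (Bl q).comp (LinearMap.funLeft ℝ ℝ Sum.inr)
    with hBm
  have hBa : ∀ f : Fin a ⊕ Fin b → ℝ,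
      Bm f = Bl p (fun i => f (Sum.inl i)) + Bl q (fun j => f (Sum.inr j)) := fun f => rfl
  have hinj : Function.Injective Bm := by
    rw [← LinearMap.ker_eq_bot, LinearMap.ker_eq_bot']
    intro f hf
    rw [hBa] at hf
    have e1 := Bl_apply' p (fun i => f (Sum.inl i))
    have e2 := Bl_apply' q (fun j => f (Sum.inr j))
    -- coefficients
    set e : Fin (n + 2) → ℝ := fun k => Sum.elim
      (Fin.cons (-∑ i, f (Sum.inl i)) (fun i => f (Sum.inl i)) : Fin (a + 1) → ℝ)
      (Fin.cons (-∑ j, f (Sum.inr j)) (fun j => f (Sum.inr j)) : Fin (b + 1) → ℝ) (σ.symm k)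
      with he
    have hel : ∀ i, e (σ (Sum.inl i)) =
        (Fin.cons (-∑ i, f (Sum.inl i)) (fun i => f (Sum.inl i)) : Fin (a + 1) → ℝ) i := by
      intro i; rw [he]; simp
    have her : ∀ j, e (σ (Sum.inr j)) =
        (Fin.cons (-∑ j, f (Sum.inr j)) (fun j => f (Sum.inr j)) : Fin (b + 1) → ℝ) j := by
      intro j; rw [he]; simp
    have s1 : ∑ i, e (σ (Sum.inl i)) = 0 := by
      rw [Fin.sum_univ_succ]; simp only [hel, Fin.cons_zero, Fin.cons_succ]; ring
    have s2 : ∑ j, e (σ (Sum.inr j)) = 0 := by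
      rw [Fin.sum_univ_succ]; simp only [her, Fin.cons_zero, Fin.cons_succ]; ring
    have t1 : ∑ i, e (σ (Sum.inl i)) • v (σ (Sum.inl i)) = Bl p (fun i => f (Sum.inl i)) := by
      rw [Fin.sum_univ_succ]; simp only [hel, Fin.cons_zero, Fin.cons_succ]
      rw [Bl_apply]
      simp only [smul_sub]
      rw [Finset.sum_sub_distrib, ← Finset.sum_smul, neg_smul]
      simp only [hpd]
      abel
    have t2 : ∑ j, e (σ (Sum.inr j)) • v (σ (Sum.inr j)) = Bl q (fun j => f (Sum.inr j)) := by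
      rw [Fin.sum_univ_succ]; simp only [her, Fin.cons_zero, Fin.cons_succ]
      rw [Bl_apply]
      simp only [smul_sub]
      rw [Finset.sum_sub_distrib, ← Finset.sum_smul, neg_smul]
      simp only [hqd]
      abel
    obtain ⟨t, ht⟩ := hu e (by rw [hs, s1, s2, add_zero]) (by rw [hs, t1, t2]; exact hf)
    have ht0 : t = 0 := by
      have : ∑ i, e (σ (Sum.inl i)) = t * ∑ i, c (σ (Sum.inl i)) := by
        rw [Finset.mul_sum]
        refine Finset.sum_congr rfl fun i _ => ?_
        rw [ht]; rfl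
      rw [s1, h1, mul_one] at this
      exact this.symm
    rw [ht0, zero_smul] at ht
    funext k
    rcases k with i | j
    · have := hel i.succ
      rw [ht] at this
      simpa using this.symm
    · have := her j.succ
      rw [ht] at this
      simpa using this.symm
  have hdim : Module.finrank ℝ (Fin a ⊕ Fin b → ℝ) = Module.finrank ℝ (Fin n → ℝ) := by
    simp [hab]
  set Le := Bm.linearEquivOfInjective hinj hdim with hLe
  set z : Fin n → ℝ := ∑ i, c (σ (Sum.inl i)) • p i with hz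
  have hz2 : z = ∑ j, (-c (σ (Sum.inr j))) • q j := by
    rw [hs] at hc2
    simp only [neg_smul]
    rw [Finset.sum_neg_distrib]
    exact eq_neg_of_add_eq_zero_left hc2
  refine ⟨x, y, Le.toAffineEquiv.trans (AffineEquiv.constVAdd ℝ (Fin n → ℝ) z), ?_, ?_, ?_, ?_, ?_⟩
  · refine ⟨fun i => hp _, ?_⟩
    have := hp 0
    linarith
  · refine ⟨fun j => by have := hn j.succ; simp only [hy]; linarith, ?_⟩
    have := hn 0
    linarith
  · rw [hx0, Fin.sum_univ_succ (fun i => c (σ (Sum.inl i)) ^ 2)]; simp only [hx]; ring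
  · rw [hy0, Fin.sum_univ_succ (fun j => c (σ (Sum.inr j)) ^ 2)]; simp only [hy]
    have : ∀ j : Fin b, (-c (σ (Sum.inr j.succ))) ^ 2 = c (σ (Sum.inr j.succ)) ^ 2 := by
      intro j; ring
    rw [Finset.sum_congr rfl fun j _ => this j]
    ring
  · have hT : ∀ f, (Le.toAffineEquiv.trans (AffineEquiv.constVAdd ℝ (Fin n → ℝ) z)) f =
        z + (Bl p (fun i => f (Sum.inl i)) + Bl q (fun j => f (Sum.inr j))) := by
      intro f
      rw [← hBa]
      rfl
    have hzx : z - Bl p x = p 0 := by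
      have e : Bl p x + p 0 = z := by
        rw [Bl_apply', hx0, hz, Fin.sum_univ_succ]
        simp only [hx]
        rw [add_comm]
      rw [← e]; abel
    have hzy : z - Bl q y = q 0 := by
      have e : Bl q y + q 0 = z := by
        rw [Bl_apply', hy0, hz2, Fin.sum_univ_succ]
        simp only [hy]
        rw [add_comm]
      rw [← e]; abel
    unfold fsum
    have himg := AffineMap.image_convexHull
      (Le.toAffineEquiv.trans (AffineEquiv.constVAdd ℝ (Fin n → ℝ) z)).toAffineMap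
      ((fun x : Fin a → ℝ => (Sum.elim x 0 : Fin a ⊕ Fin b → ℝ)) ''
        ((fun w => w - x) '' corner (Fin a)) ∪
        (fun y : Fin b → ℝ => (Sum.elim 0 y : Fin a ⊕ Fin b → ℝ)) ''
        ((fun w => w - y) '' corner (Fin b)))
    have hcoe : ∀ S : Set (Fin a ⊕ Fin b → ℝ),
        (Le.toAffineEquiv.trans (AffineEquiv.constVAdd ℝ (Fin n → ℝ) z)).toAffineMap '' S =
        (Le.toAffineEquiv.trans (AffineEquiv.constVAdd ℝ (Fin n → ℝ) z)) '' S := fun S => rfl
    rw [hcoe, hcoe] at himg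
    rw [himg, image_union]
    have i1 : (Le.toAffineEquiv.trans (AffineEquiv.constVAdd ℝ (Fin n → ℝ) z)) ''
        ((fun x : Fin a → ℝ => (Sum.elim x 0 : Fin a ⊕ Fin b → ℝ)) ''
        ((fun w => w - x) '' corner (Fin a))) = convexHull ℝ (range p) := by
      rw [image_image, image_image, ← corner_image]
      refine image_congr fun w _ => ?_
      rw [hT]
      simp only [Sum.elim_inl, Sum.elim_inr]
      have e0 : (fun j : Fin b => (0 : Fin b → ℝ) j) = 0 := rfl
      have e1 : (fun i : Fin a => (w - x) i) = w - x := rfl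
      rw [e0, map_zero, add_zero, e1, map_sub, ← hzx]
      abel
    have i2 : (Le.toAffineEquiv.trans (AffineEquiv.constVAdd ℝ (Fin n → ℝ) z)) ''
        ((fun y : Fin b → ℝ => (Sum.elim 0 y : Fin a ⊕ Fin b → ℝ)) ''
        ((fun w => w - y) '' corner (Fin b))) = convexHull ℝ (range q) := by
      rw [image_image, image_image, ← corner_image]
      refine image_congr fun w _ => ?_
      rw [hT]
      simp only [Sum.elim_inl, Sum.elim_inr]
      have e0 : (fun j : Fin a => (0 : Fin a → ℝ) j) = 0 := rfl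
      have e1 : (fun i : Fin b => (w - y) i) = w - y := rfl
      rw [e0, map_zero, zero_add, e1, map_sub, ← hzy]
      abel
    rw [i1, i2, convexHull_convexHull_union_left, convexHull_convexHull_union_right]
    congr 1
    ext u
    constructor
    · rintro ⟨k, rfl⟩
      obtain ⟨s, rfl⟩ := σ.surjective k
      rcases s with i | j
      · exact Or.inl ⟨i, rfl⟩
      · exact Or.inr ⟨j, rfl⟩
    · rintro (⟨i, rfl⟩ | ⟨j, rfl⟩)
      · exact ⟨_, rfl⟩
      · exact ⟨_, rfl⟩

/-- a probability vector with two positive entries -/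
theorem sq_lt {m : ℕ} (d : Fin m → ℝ) (h0 : ∀ i, 0 ≤ d i) (h1 : ∑ i, d i = 1)
    (i j : Fin m) (hij : i ≠ j) (hi : 0 < d i) (hj : 0 < d j) : ∑ i, d i ^ 2 < 1 := by
  have hle : ∀ k, d k ≤ 1 := by
    intro k
    rw [← h1]
    exact Finset.single_le_sum (f := d) (fun i _ => h0 i) (Finset.mem_univ k)
  have hlt : d i < 1 := by
    have : d i + d j ≤ ∑ k, d k := by
      rw [← Finset.sum_pair hij]
      exact Finset.sum_le_sum_of_subset_of_nonneg (Finset.subset_univ _) (fun k _ _ => h0 k)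
    linarith
  rw [← h1]
  apply Finset.sum_lt_sum
  · intro k _
    nlinarith [h0 k, hle k]
  · exact ⟨i, Finset.mem_univ _, by nlinarith⟩

end Vale.Agent.P254.Rad

namespace Vale.Agent.P254

open Rad

theorem rad : S_RAD := by
  classical
  intro n hn v hint
  have hspan := affineSpan_eq_top_of_nonempty_interior hint
  obtain ⟨c, hc0, hc1, hc2, hu⟩ := dep v hspan
  -- positive and negative entries exist
  have hneg : ∃ i, c i < 0 := by
    by_contra hcon
    push Not at hcon
    apply hc0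
    funext i
    exact (Finset.sum_eq_zero_iff_of_nonneg (fun i _ => hcon i)).mp hc1 i (Finset.mem_univ _)
  have hpos : ∃ i, 0 < c i := by
    by_contra hcon
    push Not at hcon
    apply hc0
    funext i
    have h := (Finset.sum_eq_zero_iff_of_nonneg (s := Finset.univ) (f := fun i => -c i)
      (fun i _ => by have := hcon i; linarith)).mp
      (by rw [Finset.sum_neg_distrib, hc1, neg_zero]) i (Finset.mem_univ _)
    simpa using h
  by_cases hA : ∃ k, 0 < c k ∧ ∀ i, i ≠ k → c i ≤ 0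
  · obtain ⟨k, hk, hle⟩ := hA
    exact Or.inl (caseA v c hc1 hc2 hu k hk hle)
  by_cases hB : ∃ k, c k < 0 ∧ ∀ i, i ≠ k → 0 ≤ c i
  · obtain ⟨k, hk, hle⟩ := hB
    left
    refine caseA v (-c) (by simp [hc1]) (by simp [hc2]) ?_ k (by simpa using hk)
      (fun i hi => by simpa using hle i hi)
    intro e he1 he2
    obtain ⟨t, ht⟩ := hu e he1 he2
    exact ⟨-t, by rw [ht]; simp⟩
  push Not at hA hB
  right
  obtain ⟨i₁, hi₁⟩ := hpos
  obtain ⟨i₂, hi₂, hi₂'⟩ := hA i₁ hi₁
  obtain ⟨j₁, hj₁⟩ := hneg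
  obtain ⟨j₂, hj₂, hj₂'⟩ := hB j₁ hj₁
  -- normalise
  set s : ℝ := ∑ i ∈ Finset.univ.filter (fun i => 0 ≤ c i), c i with hs
  have hspos : 0 < s := by
    rw [hs]
    apply Finset.sum_pos'
    · intro i hi
      exact (Finset.mem_filter.mp hi).2
    · exact ⟨i₁, Finset.mem_filter.mpr ⟨Finset.mem_univ _, hi₁.le⟩, hi₁⟩
  set d : Fin (n + 2) → ℝ := fun i => c i / s with hd
  have hd1 : ∑ i, d i = 0 := by rw [hd, ← Finset.sum_div, hc1, zero_div]
  have hd2 : ∑ i, d i • v i = 0 := by
    have : ∀ i, d i • v i = s⁻¹ • (c i • v i) := by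
      intro i
      rw [smul_smul, hd]
      congr 1
      field_simp
    rw [Finset.sum_congr rfl fun i _ => this i, ← Finset.smul_sum, hc2, smul_zero]
  have hdu : ∀ e : Fin (n + 2) → ℝ, ∑ i, e i = 0 → ∑ i, e i • v i = 0 → ∃ t : ℝ, e = t • d := by
    intro e he1 he2
    obtain ⟨t, ht⟩ := hu e he1 he2
    refine ⟨t * s, ?_⟩
    rw [ht]
    funext i
    simp only [hd, Pi.smul_apply, smul_eq_mul]
    field_simp
  -- the splitting
  have hsplit := Fintype.card_subtype_compl (fun i : Fin (n + 2) => 0 ≤ c i)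
  have hcardI : 2 ≤ Fintype.card {i : Fin (n + 2) // 0 ≤ c i} := by
    rw [Fintype.card_subtype]
    have hsub : ({i₁, i₂} : Finset (Fin (n + 2))) ⊆ Finset.univ.filter fun i => 0 ≤ c i := by
      intro i hi
      rw [Finset.mem_insert, Finset.mem_singleton] at hi
      rw [Finset.mem_filter]
      refine ⟨Finset.mem_univ _, ?_⟩
      rcases hi with rfl | rfl
      · exact hi₁.le
      · exact hi₂'.le
    have := Finset.card_le_card hsub
    rwa [Finset.card_pair (Ne.symm hi₂)] at this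
  have hcardJ : 2 ≤ Fintype.card {i : Fin (n + 2) // ¬ 0 ≤ c i} := by
    rw [Fintype.card_subtype]
    have hsub : ({j₁, j₂} : Finset (Fin (n + 2))) ⊆ Finset.univ.filter fun i => ¬ 0 ≤ c i := by
      intro i hi
      rw [Finset.mem_insert, Finset.mem_singleton] at hi
      rw [Finset.mem_filter]
      refine ⟨Finset.mem_univ _, ?_⟩
      rcases hi with rfl | rfl
      · exact not_le.mpr hj₁
      · exact not_le.mpr hj₂'
    have := Finset.card_le_card hsub
    rwa [Finset.card_pair (Ne.symm hj₂)] at this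
  have htot : Fintype.card {i : Fin (n + 2) // 0 ≤ c i} +
      Fintype.card {i : Fin (n + 2) // ¬ 0 ≤ c i} = n + 2 := by
    rw [← Fintype.card_sum, Fintype.card_congr (Equiv.sumCompl fun i : Fin (n + 2) => 0 ≤ c i),
      Fintype.card_fin]
  obtain ⟨a, ha⟩ : ∃ a, Fintype.card {i : Fin (n + 2) // 0 ≤ c i} = a + 1 :=
    ⟨_, (Nat.succ_pred_eq_of_pos (by omega)).symm⟩
  obtain ⟨b, hb⟩ : ∃ b, Fintype.card {i : Fin (n + 2) // ¬ 0 ≤ c i} = b + 1 :=
    ⟨_, (Nat.succ_pred_eq_of_pos (by omega)).symm⟩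
  set σ : Fin (a + 1) ⊕ Fin (b + 1) ≃ Fin (n + 2) :=
    (Equiv.sumCongr (Fintype.equivFinOfCardEq ha).symm (Fintype.equivFinOfCardEq hb).symm).trans
      (Equiv.sumCompl fun i : Fin (n + 2) => 0 ≤ c i) with hσ
  have hσl : ∀ i, 0 ≤ c (σ (Sum.inl i)) := fun i =>
    ((Fintype.equivFinOfCardEq ha).symm i).2
  have hσr : ∀ j, c (σ (Sum.inr j)) < 0 := fun j =>
    not_le.mp ((Fintype.equivFinOfCardEq hb).symm j).2
  have hsl : ∑ i, c (σ (Sum.inl i)) = s := by
    have e1 : ∑ i, c (σ (Sum.inl i)) = ∑ i : {i : Fin (n + 2) // 0 ≤ c i}, c i := by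
      rw [← (Fintype.equivFinOfCardEq ha).symm.sum_comp]
      rfl
    rw [e1, hs]
    exact (Finset.sum_subtype (Finset.univ.filter fun i => 0 ≤ c i) (by simp) c).symm
  obtain ⟨x, y, T, hx, hy, hxs, hys, hT⟩ := caseB (by omega : a + b = n) v d hd1 hd2 hdu σ
    (by rw [hd, ← Finset.sum_div, hsl, div_self hspos.ne'])
    (fun i => div_nonneg (hσl i) hspos.le)
    (fun j => div_nonpos_of_nonpos_of_nonneg (hσr j).le hspos.le)
  refine ⟨a, b, x, y, T, by omega, by omega, by omega, hx, hy, ?_, ?_, hT⟩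
  · rw [hxs]
    have fi : ∀ k : Fin (n + 2), 0 < c k → ∃ i, σ (Sum.inl i) = k := by
      intro k hk
      obtain ⟨u, hu⟩ := σ.surjective k
      rcases u with i | j
      · exact ⟨i, hu⟩
      · exfalso
        have := hσr j
        rw [hu] at this
        linarith
    obtain ⟨k₁, hk₁⟩ := fi i₁ hi₁
    obtain ⟨k₂, hk₂⟩ := fi i₂ hi₂'
    refine sq_lt _ (fun i => div_nonneg (hσl i) hspos.le)
      (by rw [hd, ← Finset.sum_div, hsl, div_self hspos.ne']) k₁ k₂ ?_ ?_ ?_
    · rintro rfl
      exact hi₂ (hk₂.symm.trans hk₁)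
    · simp only [hd]; rw [hk₁]; exact div_pos hi₁ hspos
    · simp only [hd]; rw [hk₂]; exact div_pos hi₂' hspos
  · rw [hys]
    have fj : ∀ k : Fin (n + 2), c k < 0 → ∃ j, σ (Sum.inr j) = k := by
      intro k hk
      obtain ⟨u, hu⟩ := σ.surjective k
      rcases u with i | j
      · exfalso
        have := hσl i
        rw [hu] at this
        linarith
      · exact ⟨j, hu⟩
    obtain ⟨k₁, hk₁⟩ := fj j₁ hj₁
    obtain ⟨k₂, hk₂⟩ := fj j₂ hj₂'
    have hsum : ∑ j, -d (σ (Sum.inr j)) = 1 := by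
      have h := hd1
      rw [← σ.sum_comp, Fintype.sum_sum_type] at h
      have h' : ∑ i, d (σ (Sum.inl i)) = 1 := by
        rw [hd, ← Finset.sum_div, hsl, div_self hspos.ne']
      rw [Finset.sum_neg_distrib]
      linarith
    have e : ∀ j, d (σ (Sum.inr j)) ^ 2 = (-d (σ (Sum.inr j))) ^ 2 := fun j => by ring
    rw [Finset.sum_congr rfl fun j _ => e j]
    refine sq_lt (fun j => -d (σ (Sum.inr j))) (fun j => ?_) hsum k₁ k₂ ?_ ?_ ?_
    · have := div_nonpos_of_nonpos_of_nonneg (hσr j).le hspos.le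
      simp only [hd]; linarith
    · rintro rfl
      exact hj₂ (hk₂.symm.trans hk₁)
    · simp only [hd]; rw [hk₁]; have := div_neg_of_neg_of_pos hj₁ hspos; linarith
    · simp only [hd]; rw [hk₂]; have := div_neg_of_neg_of_pos hj₂' hspos; linarith

end Vale.Agent.P254
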