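import Vale.Agent.P254.Defs

set_option autoImplicit false

namespace Vale.Agent.P254

open MeasureTheory Set
open scoped Matrix Pointwise

namespace StarX

variable {ι : Type} [Fintype ι]

theorem quad (K : Set (ι → ℝ)) (cK : IsCompact K) (f : (ι → ℝ) → ℝ) (hf : Continuous f)
    (s l : ℝ) :
    ∫ x in K, (s * f x - l) ^ 2 =
      s ^ 2 * (∫ x in K, f x ^ 2) - 2 * s * l * (∫ x in K, f x) + l ^ 2 * vol K := by
  have i1 : IntegrableOn (fun x : ι → ℝ => s ^ 2 * f x ^ 2) K volume :=
    (by fun_prop : Continuous fun x : ι → ℝ => s ^ 2 * f x ^ 2).continuousOn.integrableOn_compact cK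
  have i2 : IntegrableOn (fun x : ι → ℝ => 2 * s * l * f x) K volume :=
    (by fun_prop : Continuous fun x : ι → ℝ => 2 * s * l * f x).continuousOn.integrableOn_compact cK
  have i3 : IntegrableOn (fun _ : ι → ℝ => l ^ 2) K volume :=
    continuous_const.continuousOn.integrableOn_compact cK
  have i4 : IntegrableOn (fun x : ι → ℝ => s ^ 2 * f x ^ 2 - 2 * s * l * f x) K volume :=
    i1.sub i2
  have e : ∀ x : ι → ℝ, (s * f x - l) ^ 2 = (s ^ 2 * f x ^ 2 - 2 * s * l * f x) + l ^ 2 := by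
    intro x; ring
  simp_rw [e]
  rw [integral_add i4 i3, integral_sub i1 i2, integral_const_mul, integral_const_mul]
  have h3 : ∫ _x in K, l ^ 2 = l ^ 2 * vol K := by
    simp [vol, Measure.real, mul_comm]
  rw [h3]

theorem smul_sub (K : Set (ι → ℝ)) (cv : Convex ℝ K) (h0 : (0 : ι → ℝ) ∈ K) {t : ℝ} (ht : 0 < t)
    (ht1 : t ≤ 1) : t • K ⊆ K := by
  rintro _ ⟨x, hx, rfl⟩
  have := cv h0 hx (by linarith : (0 : ℝ) ≤ 1 - t) ht.le (by ring)
  simpa using this

theorem key (K : Set (ι → ℝ)) (bK : Body K) (h0 : (0 : ι → ℝ) ∈ K) (f : (ι → ℝ) → ℝ)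
    (hf : Continuous f) (hh : ∀ (t : ℝ) (x : ι → ℝ), f (t • x) = t * f x) {t : ℝ} (ht : 0 < t)
    (ht1 : t ≤ 1) (l : ℝ) :
    0 ≤ ((1 - t ^ Fintype.card ι) * vol K) * (l * l) +
      (-2 * ((1 - t ^ (Fintype.card ι + 1)) * ∫ x in K, f x)) * l +
      (1 - t ^ (Fintype.card ι + 2)) * ∫ x in K, f x ^ 2 := by
  have h1 : ∫ x in t • K, (f x - l) ^ 2 ≤ ∫ x in K, (f x - l) ^ 2 := by
    apply setIntegral_mono_set
    · exact (by fun_prop : Continuous fun x : ι → ℝ => (f x - l) ^ 2).continuousOn.integrableOn_compact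
        bK.compact
    · exact Filter.Eventually.of_forall fun x => sq_nonneg _
    · exact (smul_sub K bK.convex h0 ht ht1).eventuallyLE
  have h2 := Measure.setIntegral_comp_smul_of_pos (volume : Measure (ι → ℝ))
    (fun x => (f x - l) ^ 2) K ht
  simp only [hh, Module.finrank_fintype_fun_eq_card, smul_eq_mul] at h2
  have h3 := quad K bK.compact f hf t l
  have h4 := quad K bK.compact f hf 1 l
  simp only [one_mul, one_pow, mul_one] at h4
  have hp : 0 < t ^ Fintype.card ι := pow_pos ht _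
  have h5 : ∫ x in t • K, (f x - l) ^ 2 = t ^ Fintype.card ι * ∫ x in K, (t * f x - l) ^ 2 := by
    rw [h2]
    field_simp
  rw [h5, h3, h4] at h1
  have e1 : t ^ (Fintype.card ι + 1) = t ^ Fintype.card ι * t := pow_succ _ _
  have e2 : t ^ (Fintype.card ι + 2) = t ^ Fintype.card ι * t ^ 2 := pow_add _ _ _
  rw [e1, e2]
  nlinarith [h1]

theorem cs (K : Set (ι → ℝ)) (bK : Body K) (h0 : (0 : ι → ℝ) ∈ K) (f : (ι → ℝ) → ℝ)
    (hf : Continuous f) (hh : ∀ (t : ℝ) (x : ι → ℝ), f (t • x) = t * f x) {t : ℝ} (ht : 0 < t)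
    (ht1 : t < 1) :
    ((∑ i ∈ Finset.range (Fintype.card ι + 1), t ^ i) * ∫ x in K, f x) ^ 2 ≤
      (∑ i ∈ Finset.range (Fintype.card ι), t ^ i) *
      (∑ i ∈ Finset.range (Fintype.card ι + 2), t ^ i) * (vol K * ∫ x in K, f x ^ 2) := by
  have h := discrim_le_zero (key K bK h0 f hf hh ht ht1.le)
  unfold discrim at h
  have g : ∀ n, 1 - t ^ n = (1 - t) * ∑ i ∈ Finset.range n, t ^ i := by
    intro n
    rw [mul_comm, geom_sum_mul_neg]
  rw [g, g, g] at h
  have hs : 0 < (1 - t) ^ 2 := by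
    have : 0 < 1 - t := by linarith
    positivity
  have h' : (1 - t) ^ 2 * ((∑ i ∈ Finset.range (Fintype.card ι + 1), t ^ i) * ∫ x in K, f x) ^ 2 ≤
      (1 - t) ^ 2 * ((∑ i ∈ Finset.range (Fintype.card ι), t ^ i) *
      (∑ i ∈ Finset.range (Fintype.card ι + 2), t ^ i) * (vol K * ∫ x in K, f x ^ 2)) := by
    linarith [h]
  exact le_of_mul_le_mul_left h' hs

theorem main (K : Set (ι → ℝ)) (bK : Body K) (h0 : (0 : ι → ℝ) ∈ K) (f : (ι → ℝ) → ℝ)
    (hf : Continuous f) (hh : ∀ (t : ℝ) (x : ι → ℝ), f (t • x) = t * f x) :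
    (((Fintype.card ι : ℝ) + 1) * ∫ x in K, f x) ^ 2 ≤
      (Fintype.card ι : ℝ) * ((Fintype.card ι : ℝ) + 2) * (vol K * ∫ x in K, f x ^ 2) := by
  set I1 := ∫ x in K, f x
  set I2 := vol K * ∫ x in K, f x ^ 2
  have hcl : IsClosed {t : ℝ | ((∑ i ∈ Finset.range (Fintype.card ι + 1), t ^ i) * I1) ^ 2 ≤
      (∑ i ∈ Finset.range (Fintype.card ι), t ^ i) *
      (∑ i ∈ Finset.range (Fintype.card ι + 2), t ^ i) * I2} := by
    apply isClosed_le
    · fun_prop
    · fun_prop
  have hsub : Ioo (0 : ℝ) 1 ⊆ {t : ℝ | ((∑ i ∈ Finset.range (Fintype.card ι + 1), t ^ i) * I1) ^ 2 ≤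
      (∑ i ∈ Finset.range (Fintype.card ι), t ^ i) *
      (∑ i ∈ Finset.range (Fintype.card ι + 2), t ^ i) * I2} := by
    intro t ht
    exact cs K bK h0 f hf hh ht.1 ht.2
  have h1 : (1 : ℝ) ∈ closure (Ioo (0 : ℝ) 1) := by
    rw [closure_Ioo (by norm_num)]
    simp
  have h := (hcl.closure_subset_iff.2 hsub) h1
  simp only [mem_setOf_eq, one_pow, Finset.sum_const, Finset.card_range, nsmul_eq_mul,
    mul_one] at h
  push_cast at h
  exact h

end StarX

open StarX in
theorem star_ : S_POS → S_STAR := by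
  intro hPOS ι _ _ K bK h0
  obtain ⟨hv, hpd, hcov⟩ := hPOS ι K bK
  set m := mean K with hm
  set S := cov K with hS
  set θ := S⁻¹ *ᵥ m with hθ
  have hu : u K = m ⬝ᵥ θ := rfl
  have hdet : IsUnit S.det := (Matrix.isUnit_iff_isUnit_det _).1 hpd.isUnit
  have hSθ : S *ᵥ θ = m := by
    rw [hθ, Matrix.mulVec_mulVec, Matrix.mul_nonsing_inv _ hdet, Matrix.one_mulVec]
  have hnn : 0 ≤ θ ⬝ᵥ (S *ᵥ θ) := by
    have := hpd.posSemidef.dotProduct_mulVec_nonneg θ
    simpa using this
  have hu0 : 0 ≤ u K := by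
    rw [hSθ] at hnn
    rw [hu, dotProduct_comm]
    exact hnn
  refine ⟨hu0, ?_⟩
  -- the linear functional
  set f : (ι → ℝ) → ℝ := fun x => θ ⬝ᵥ x with hfdef
  have hf : Continuous f := by
    have : f = fun x => ∑ i, θ i * x i := rfl
    rw [this]
    fun_prop
  have hh : ∀ (t : ℝ) (x : ι → ℝ), f (t • x) = t * f x := by
    intro t x
    simp [hfdef, dotProduct_smul]
  have hmain := main K bK h0 f hf hh
  have i1 : ∫ x in K, f x = vol K * u K := by
    have e : ∀ x, f x = ∑ i, θ i * x i := fun x => rfl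
    simp_rw [e]
    rw [integral_finset_sum]
    · rw [hu, dotProduct_comm]
      simp only [dotProduct, hm, mean, integral_const_mul]
      rw [Finset.mul_sum]
      apply Finset.sum_congr rfl
      intro i _
      field_simp
    · intro i _
      exact (by fun_prop : Continuous fun x : ι → ℝ => θ i * x i).continuousOn.integrableOn_compact
        bK.compact
  have i2 : ∫ x in K, f x ^ 2 = vol K * (u K + u K ^ 2) := by
    have e : ∀ x, f x ^ 2 = ∑ i, ∑ j, θ i * θ j * (x i * x j) := by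
      intro x
      have : f x = ∑ i, θ i * x i := rfl
      rw [this, sq, Finset.sum_mul_sum]
      apply Finset.sum_congr rfl
      intro i _
      apply Finset.sum_congr rfl
      intro j _
      ring
    simp_rw [e]
    rw [integral_finset_sum]
    · have h1 : ∀ i, ∫ x in K, ∑ j, θ i * θ j * (x i * x j) =
          ∑ j, θ i * θ j * (vol K * (S i j + m i * m j)) := by
        intro i
        rw [integral_finset_sum]
        · apply Finset.sum_congr rfl
          intro j _
          rw [integral_const_mul, hcov i j]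
          field_simp
          ring
        · intro j _
          exact (by fun_prop : Continuous fun x : ι → ℝ =>
            θ i * θ j * (x i * x j)).continuousOn.integrableOn_compact bK.compact
      simp_rw [h1]
      have h2a : ∑ i, ∑ j, θ i * θ j * (vol K * S i j) = vol K * (θ ⬝ᵥ (S *ᵥ θ)) := by
        simp only [dotProduct, Matrix.mulVec, Finset.mul_sum]
        apply Finset.sum_congr rfl
        intro i _
        apply Finset.sum_congr rfl
        intro j _
        ring
      have h2b : ∑ i, ∑ j, θ i * θ j * (vol K * (m i * m j)) = vol K * (θ ⬝ᵥ m) ^ 2 := by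
        rw [dotProduct, sq, Finset.sum_mul_sum, Finset.mul_sum]
        apply Finset.sum_congr rfl
        intro i _
        rw [Finset.mul_sum]
        apply Finset.sum_congr rfl
        intro j _
        ring
      have h2 : ∑ i, ∑ j, θ i * θ j * (vol K * (S i j + m i * m j)) =
          vol K * (θ ⬝ᵥ (S *ᵥ θ) + (θ ⬝ᵥ m) ^ 2) := by
        rw [mul_add, ← h2a, ← h2b, ← Finset.sum_add_distrib]
        apply Finset.sum_congr rfl
        intro i _
        rw [← Finset.sum_add_distrib]
        apply Finset.sum_congr rfl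
        intro j _
        ring
      rw [h2, hSθ, dotProduct_comm θ m, ← hu]
    · intro i _
      exact (by fun_prop : Continuous fun x : ι → ℝ =>
        ∑ j, θ i * θ j * (x i * x j)).continuousOn.integrableOn_compact bK.compact
  rw [i1, i2] at hmain
  set a : ℝ := (Fintype.card ι : ℝ)
  have ha : 0 ≤ a := Nat.cast_nonneg _
  have hv2 : 0 < vol K ^ 2 := by positivity
  have h3 : (a + 1) ^ 2 * u K ^ 2 ≤ a * (a + 2) * (u K + u K ^ 2) := by
    have : vol K ^ 2 * ((a + 1) ^ 2 * u K ^ 2) ≤ vol K ^ 2 * (a * (a + 2) * (u K + u K ^ 2)) := by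
      nlinarith [hmain]
    exact le_of_mul_le_mul_left this hv2
  have h4 : u K * u K ≤ a * (a + 2) * u K := by nlinarith [h3]
  rcases hu0.eq_or_lt with h5 | h5
  · rw [← h5]; positivity
  · exact le_of_mul_le_mul_right h4 h5

end Vale.Agent.P254
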