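import Vale.Agent.P254.Defs

/-!
# P254, SEG: one-dimensional bodies
-/

set_option autoImplicit false

namespace Vale.Agent.P254

open MeasureTheory Set

namespace Seg

/-- the scaling and translation of the line -/
noncomputable def aff (a c : ℝ) (hc : c ≠ 0) : (Unit → ℝ) ≃ᵃ[ℝ] (Unit → ℝ) :=
  (LinearEquiv.smulOfNeZero ℝ (Unit → ℝ) c hc).toAffineEquiv.trans
    (AffineEquiv.constVAdd ℝ (Unit → ℝ) (fun _ => a))

theorem aff_apply (a c : ℝ) (hc : c ≠ 0) (x : Unit → ℝ) (i : Unit) :
    aff a c hc x i = a + c * x i := by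
  simp [aff]

theorem exists_Icc (K : Set (Unit → ℝ)) (hK : Body K) :
    ∃ a b : ℝ, a < b ∧ K = {x | a ≤ x () ∧ x () ≤ b} := by
  let e : (Unit → ℝ) ≃ₜ ℝ := Homeomorph.funUnique Unit ℝ
  have he : ∀ x, e x = x () := fun _ => rfl
  have hE : e = fun x : Unit → ℝ => x () := funext he
  have hne : K.Nonempty := hK.interior.mono interior_subset
  have hc : IsCompact (e '' K) := hK.compact.image e.continuous
  have hconv : Convex ℝ (e '' K) := by
    rintro _ ⟨x, hx, rfl⟩ _ ⟨y, hy, rfl⟩ s t hs ht hst
    exact ⟨s • x + t • y, hK.convex hx hy hs ht hst, by simp [he]⟩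
  have hconn : IsConnected (e '' K) := ⟨hne.image _, hconv.isPreconnected⟩
  have hI : e '' K = Icc (sInf (e '' K)) (sSup (e '' K)) :=
    eq_Icc_of_connected_compact hconn hc
  refine ⟨sInf (e '' K), sSup (e '' K), ?_, ?_⟩
  · by_contra hle
    push Not at hle
    have h1 : (interior (e '' K)).Nonempty := by
      rw [← e.image_interior]
      exact hK.interior.image _
    rw [hI] at h1
    have h2 : Icc (sInf (e '' K)) (sSup (e '' K)) ⊆ {sInf (e '' K)} := by
      intro x hx
      exact le_antisymm (hx.2.trans hle) hx.1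
    have h3 := h1.mono (interior_mono h2)
    rw [interior_singleton] at h3
    exact h3.ne_empty rfl
  · ext x
    constructor
    · intro hx
      have h1 : e x ∈ e '' K := ⟨x, hx, rfl⟩
      rw [hI] at h1
      exact h1
    · intro hx
      have h1 : e x ∈ e '' K := by
        rw [hI]
        exact hx
      obtain ⟨y, hy, hxy⟩ := h1
      rwa [← e.injective hxy]

end Seg

open Seg in
theorem seg (hAFF : S_AFF) (hCORN : S_CORN) : S_SEG := by
  intro K hK
  obtain ⟨a, b, hab, rfl⟩ := exists_Icc K hK
  have hc : b - a ≠ 0 := by linarith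
  have hpos : 0 < b - a := by linarith
  obtain ⟨hB, hA, -⟩ := hCORN Unit
  have himg : {x : Unit → ℝ | a ≤ x () ∧ x () ≤ b} = aff a (b - a) hc '' corner Unit := by
    ext x
    constructor
    · rintro ⟨h1, h2⟩
      refine ⟨fun _ => (x () - a) / (b - a), ⟨fun _ => div_nonneg (by linarith) hpos.le, ?_⟩, ?_⟩
      · simp only [Finset.univ_unique, Finset.sum_singleton]
        rw [div_le_one hpos]
        linarith
      · funext i
        rw [aff_apply, mul_div_cancel₀ _ hc]
        simp
    · rintro ⟨y, ⟨h1, h2⟩, rfl⟩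
      have h3 := h1 ()
      simp only [Finset.univ_unique, Finset.sum_singleton] at h2
      have h4 : y () ≤ 1 := h2
      show a ≤ aff a (b - a) hc y () ∧ aff a (b - a) hc y () ≤ b
      rw [aff_apply]
      constructor
      · nlinarith
      · nlinarith
  rw [himg, (hAFF Unit Unit (corner Unit) (aff a (b - a) hc) hB).2, hA]
  simp

end Vale.Agent.P254
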