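import Vale.Agent.P254.Defs

set_option autoImplicit false

namespace Vale.Agent.P254.SimpX

open MeasureTheory Set Vale.Agent.P254

/-- vertices of the corner simplex -/
def w (n : ℕ) : Fin (n + 1) → Fin n → ℝ := Fin.cons 0 (fun i => Pi.single i 1)

lemma w_zero (n : ℕ) : w n 0 = 0 := rfl
lemma w_succ (n : ℕ) (i : Fin n) : w n i.succ = Pi.single i 1 := rfl

lemma corner_eq (n : ℕ) : corner (Fin n) = convexHull ℝ (range (w n)) := by
  apply Subset.antisymm
  · rintro x ⟨h1, h2⟩
    refine mem_convexHull_of_exists_fintype (Fin.cons (1 - ∑ i, x i) x : Fin (n + 1) → ℝ) (w n)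
      ?_ ?_ (fun i => mem_range_self i) ?_
    · intro i
      refine Fin.cases ?_ (fun j => ?_) i
      · rw [Fin.cons_zero]
        linarith
      · rw [Fin.cons_succ]
        exact h1 j
    · rw [Fin.sum_univ_succ]
      simp
    · rw [Fin.sum_univ_succ]
      simp only [Fin.cons_zero, Fin.cons_succ, w_zero, w_succ, smul_zero, zero_add]
      ext j
      simp [Finset.sum_apply, Pi.single_apply]
  · refine convexHull_min ?_ ?_
    · rintro _ ⟨i, rfl⟩
      refine Fin.cases ?_ (fun j => ?_) i
      · rw [w_zero]
        exact ⟨fun i => le_rfl, by simp⟩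
      · rw [w_succ]
        refine ⟨fun k => ?_, ?_⟩
        · rw [Pi.single_apply]
          split_ifs <;> norm_num
        · simp
    · intro x hx y hy a b ha hb hab
      refine ⟨fun i => ?_, ?_⟩
      · simp only [Pi.add_apply, Pi.smul_apply, smul_eq_mul]
        have := hx.1 i
        have := hy.1 i
        positivity
      · simp only [Pi.add_apply, Pi.smul_apply, smul_eq_mul]
        rw [Finset.sum_add_distrib, ← Finset.mul_sum, ← Finset.mul_sum]
        have h1 := mul_le_mul_of_nonneg_left hx.2 ha
        have h2 := mul_le_mul_of_nonneg_left hy.2 hb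
        linarith

lemma ai_iff {n : ℕ} (v : Fin (n + 1) → Fin n → ℝ) :
    AffineIndependent ℝ v ↔ LinearIndependent ℝ (fun i : Fin n => v i.succ - v 0) := by
  rw [affineIndependent_iff_linearIndependent_vsub ℝ v 0,
    ← linearIndependent_equiv (finSuccAboveEquiv (0 : Fin (n + 1)))]
  rfl

end Vale.Agent.P254.SimpX

namespace Vale.Agent.P254

open MeasureTheory Set SimpX

theorem simp_ : S_SIMP := by
  intro n S
  constructor
  · rintro ⟨v, hv, rfl⟩
    rw [ai_iff] at hv
    set f : (Fin n → ℝ) →ₗ[ℝ] (Fin n → ℝ) :=
      Fintype.linearCombination ℝ (fun i : Fin n => v i.succ - v 0) with hf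
    have hinj : Function.Injective f := by
      exact linearIndependent_iff_injective_fintypeLinearCombination.mp hv
    set e : (Fin n → ℝ) ≃ₗ[ℝ] (Fin n → ℝ) := LinearEquiv.ofInjectiveEndo f hinj with he
    set T : (Fin n → ℝ) ≃ᵃ[ℝ] (Fin n → ℝ) :=
      e.toAffineEquiv.trans (AffineEquiv.constVAdd ℝ (Fin n → ℝ) (v 0)) with hT
    have hTa : ∀ x, T x = v 0 + f x := fun x => rfl
    refine ⟨T, ?_⟩
    rw [corner_eq]
    have h1 : T '' convexHull ℝ (range (w n)) = convexHull ℝ (T '' range (w n)) :=
      T.toAffineMap.image_convexHull _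
    rw [h1, ← range_comp]
    congr 1
    congr 1
    funext i
    refine Fin.cases ?_ (fun j => ?_) i
    · show v 0 = T (w n 0)
      rw [hTa, w_zero, map_zero, add_zero]
    · show v j.succ = T (w n j.succ)
      rw [hTa, w_succ, hf, Fintype.linearCombination_apply_single]
      simp
  · rintro ⟨T, rfl⟩
    refine ⟨fun i => T (w n i), ?_, ?_⟩
    · have h0 : AffineIndependent ℝ (w n) := by
        rw [ai_iff]
        have : (fun i : Fin n => w n i.succ - w n 0) = fun i => Pi.single i (1 : ℝ) := by
          funext i
          rw [w_succ, w_zero, sub_zero]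
        rw [this]
        have h2 := (Pi.basisFun ℝ (Fin n)).linearIndependent
        convert h2 using 1
        funext i
        simp [Pi.basisFun_apply]
      exact h0.map' T.toAffineMap T.injective
    · rw [corner_eq]
      have h1 : T '' convexHull ℝ (range (w n)) = convexHull ℝ (T '' range (w n)) :=
        T.toAffineMap.image_convexHull _
      rw [h1, ← range_comp]
      rfl

end Vale.Agent.P254
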