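import Vale.Agent.P254.Pos
import Vale.Agent.P254.Body
import Vale.Agent.P254.Aff
import Vale.Agent.P254.STAR
import Vale.Agent.P254.Int
import Vale.Agent.P254.MOM
import Vale.Agent.P254.Det
import Vale.Agent.P254.FS
import Vale.Agent.P254.PRD
import Vale.Agent.P254.Num
import Vale.Agent.P254.Corn
import Vale.Agent.P254.Seg
import Vale.Agent.P254.Simp
import Vale.Agent.P254.Rad
import Vale.Agent.P254.Final

/-!
# P254: assembly
-/

set_option autoImplicit false

namespace Vale.Agent.P254

theorem all_fs : S_FS := fs pos (mom pos body int_) det

theorem all_corn : S_CORN := corn pos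

theorem all_final : S_FINAL :=
  final pos body aff (star_ pos) all_fs (prd' pos) num all_corn (seg aff all_corn) simp_ rad

end Vale.Agent.P254
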