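import Vale.Agent.P254.Defs2

/-!
# P254, EQC: free sums of simplices about a common point which is a vertex of the first one
-/

set_option autoImplicit false

namespace Vale.Agent.P254

open MeasureTheory Set
open scoped Matrix

namespace Eqc

variable {ι κ : Type} [Fintype ι] [Fintype κ]

omit [Fintype ι] in
theorem body_sub [Finite ι] (K : Set (ι → ℝ)) (hK : Body K) (z : ι → ℝ) :
    Body ((fun x => x - z) '' K) := by
  refine ⟨?_, hK.compact.image (by fun_prop), ?_⟩
  · rintro _ ⟨x, hx, rfl⟩ _ ⟨y, hy, rfl⟩ a b ha hb hab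
    refine ⟨a • x + b • y, hK.convex hx hy ha hb hab, ?_⟩
    have : z = a • z + b • z := by rw [← add_smul, hab, one_smul]
    show a • x + b • y - z = a • (x - z) + b • (y - z)
    rw [smul_sub, smul_sub]
    nth_rewrite 1 [this]
    abel
  · have h : (fun x : ι → ℝ => x - z) = Homeomorph.subRight z := rfl
    rw [h, ← (Homeomorph.subRight z).image_interior]
    exact hK.interior.image _

/-- exactly one barycentric coordinate is `1` -/
theorem vertex (z : ι → ℝ) (hz : z ∈ corner ι)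
    (hq : ∑ i, z i ^ 2 + (1 - ∑ i, z i) ^ 2 = 1) :
    z = 0 ∨ ∃ i, z i = 1 ∧ ∀ j, j ≠ i → z j = 0 := by
  classical
  obtain ⟨h0, h1⟩ := hz
  have hle : ∀ i, z i ≤ 1 := fun i =>
    (Finset.single_le_sum (fun j _ => h0 j) (Finset.mem_univ i)).trans h1
  have hs0 : 0 ≤ ∑ i, z i := Finset.sum_nonneg fun i _ => h0 i
  have hsum : ∑ i, (z i - z i ^ 2) = 0 ∧ (1 - ∑ i, z i) - (1 - ∑ i, z i) ^ 2 = 0 := by
    have a1 : 0 ≤ ∑ i, (z i - z i ^ 2) :=
      Finset.sum_nonneg fun i _ => by nlinarith [h0 i, hle i]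
    have a2 : 0 ≤ (1 - ∑ i, z i) - (1 - ∑ i, z i) ^ 2 := by nlinarith
    have a3 : ∑ i, (z i - z i ^ 2) = ∑ i, z i - ∑ i, z i ^ 2 := Finset.sum_sub_distrib _ _
    constructor <;> linarith
  obtain ⟨hs1, hs2⟩ := hsum
  have hz01 : ∀ i, z i = 0 ∨ z i = 1 := by
    intro i
    have h2 := (Finset.sum_eq_zero_iff_of_nonneg
      (fun i _ => by nlinarith [h0 i, hle i])).mp hs1 i (Finset.mem_univ i)
    have h3 : z i * (1 - z i) = 0 := by linarith
    rcases mul_eq_zero.mp h3 with h | h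
    · exact Or.inl h
    · exact Or.inr (by linarith)
  by_cases hall : ∀ i, z i = 0
  · exact Or.inl (funext hall)
  · push Not at hall
    obtain ⟨i, hi⟩ := hall
    refine Or.inr ⟨i, (hz01 i).resolve_left hi, fun j hj => ?_⟩
    have h2 : z i + z j ≤ ∑ i, z i := by
      have h3 : ∑ l ∈ ({i, j} : Finset ι), z l ≤ ∑ l, z l :=
        Finset.sum_le_sum_of_subset_of_nonneg (Finset.subset_univ _) fun l _ _ => h0 l
      rw [Finset.sum_pair hj.symm] at h3
      exact h3
    have h4 := (hz01 i).resolve_left hi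
    exact le_antisymm (by linarith) (h0 j)

open Classical in
/-- the affine symmetry of the corner simplex exchanging `0` and `e_i`, as a function -/
noncomputable def sw (i : ι) (x : ι → ℝ) : ι → ℝ := Function.update x i (1 - ∑ j, x j)

theorem eq_sw_zero (i : ι) (z : ι → ℝ) (hi : z i = 1) (hj : ∀ j, j ≠ i → z j = 0) :
    z = sw i 0 := by
  classical
  funext j
  by_cases h : j = i
  · subst h; rw [hi, sw, Function.update_self]; simp
  · rw [hj j h, sw, Function.update_of_ne h]; rfl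

theorem sum_sw (i : ι) (x : ι → ℝ) : ∑ j, sw i x j = 1 - x i := by
  classical
  rw [sw, Finset.sum_update_of_mem (Finset.mem_univ i)]
  rw [Finset.sdiff_singleton_eq_erase, ← Finset.sum_erase_add _ _ (Finset.mem_univ i)]
  ring

theorem sw_sw (i : ι) (x : ι → ℝ) : sw i (sw i x) = x := by
  classical
  have h := sum_sw i x
  conv_lhs => rw [sw]
  rw [h, sw, Function.update_idem]
  simp

theorem sw_corner (i : ι) (x : ι → ℝ) (hx : x ∈ corner ι) : sw i x ∈ corner ι := by
  classical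
  obtain ⟨h0, h1⟩ := hx
  refine ⟨fun j => ?_, ?_⟩
  · by_cases hj : j = i
    · subst hj
      rw [sw, Function.update_self]
      linarith
    · rw [sw, Function.update_of_ne hj]
      exact h0 j
  · rw [sum_sw]
    linarith [h0 i]

theorem sw_comb (i : ι) (x y : ι → ℝ) (a b : ℝ) (hab : a + b = 1) :
    sw i (a • x + b • y) = a • sw i x + b • sw i y := by
  classical
  funext j
  by_cases hj : j = i
  · subst hj
    simp only [sw, Function.update_self, Pi.add_apply, Pi.smul_apply, smul_eq_mul,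
      Finset.sum_add_distrib, ← Finset.mul_sum]
    linear_combination (-1 : ℝ) * hab
  · simp [sw, Function.update_of_ne hj]

/-- linear part of the symmetry -/
noncomputable def swLin (i : ι) : (ι → ℝ) →ₗ[ℝ] (ι → ℝ) where
  toFun x := sw i x - sw i 0
  map_add' x y := by
    classical
    funext j
    by_cases hj : j = i
    · subst hj
      simp only [sw, Pi.sub_apply, Pi.add_apply, Function.update_self, Finset.sum_add_distrib,
        Pi.zero_apply, Finset.sum_const_zero]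
      ring
    · simp [sw, Function.update_of_ne hj]
  map_smul' c x := by
    classical
    funext j
    by_cases hj : j = i
    · subst hj
      simp only [sw, Pi.sub_apply, Pi.smul_apply, smul_eq_mul, Function.update_self,
        ← Finset.mul_sum, Pi.zero_apply, Finset.sum_const_zero, RingHom.id_apply]
      ring
    · simp [sw, Function.update_of_ne hj]

/-- the block triangular linear map -/
noncomputable def lam (B : (ι → ℝ) ≃ₗ[ℝ] (ι → ℝ)) (C : (κ → ℝ) ≃ₗ[ℝ] (κ → ℝ)) (t : κ → ℝ) :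
    (ι ⊕ κ → ℝ) ≃ₗ[ℝ] (ι ⊕ κ → ℝ) where
  toFun z := Sum.elim (B fun i => z (Sum.inl i))
    (C (fun j => z (Sum.inr j)) - (∑ i, z (Sum.inl i)) • t)
  map_add' z w := by
    have h1 : (fun i => (z + w) (Sum.inl i)) = (fun i => z (Sum.inl i)) +
      fun i => w (Sum.inl i) := rfl
    have h2 : (fun i => (z + w) (Sum.inr i)) = (fun i => z (Sum.inr i)) +
      fun i => w (Sum.inr i) := rfl
    rw [h1, h2, map_add, map_add]
    simp only [Pi.add_apply, Finset.sum_add_distrib, add_smul]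
    funext j
    rcases j with j | j
    · simp
    · simp only [Sum.elim_inr, Pi.sub_apply, Pi.add_apply]
      ring
  map_smul' c z := by
    have h1 : (fun i => (c • z) (Sum.inl i)) = c • fun i => z (Sum.inl i) := rfl
    have h2 : (fun i => (c • z) (Sum.inr i)) = c • fun i => z (Sum.inr i) := rfl
    rw [h1, h2, map_smul, map_smul]
    simp only [Pi.smul_apply, smul_eq_mul, ← Finset.mul_sum, RingHom.id_apply]
    funext j
    rcases j with j | j
    · simp
    · simp only [Sum.elim_inr, Pi.sub_apply, Pi.smul_apply, smul_eq_mul]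
      ring
  invFun z := Sum.elim (B.symm fun i => z (Sum.inl i))
    (C.symm ((fun j => z (Sum.inr j)) + (∑ i, (B.symm fun i => z (Sum.inl i)) i) • t))
  left_inv z := by
    funext j
    rcases j with j | j
    · simp
    · simp only [Sum.elim_inl, Sum.elim_inr]
      have h1 : (fun i => (B fun i => z (Sum.inl i)) i) = B fun i => z (Sum.inl i) := rfl
      have h2 : ((fun j => (C (fun j => z (Sum.inr j)) - (∑ i, z (Sum.inl i)) • t) j) +
          (∑ i, (B.symm fun i => (B fun i => z (Sum.inl i)) i) i) • t) =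
          C (fun j => z (Sum.inr j)) := by
        rw [h1, LinearEquiv.symm_apply_apply]
        funext j
        simp
      rw [h2, LinearEquiv.symm_apply_apply]
  right_inv z := by
    funext j
    rcases j with j | j
    · simp only [Sum.elim_inl]
      have h1 : (fun i => (B.symm fun i => z (Sum.inl i)) i) = B.symm fun i => z (Sum.inl i) :=
        rfl
      rw [h1, LinearEquiv.apply_symm_apply]
    · simp only [Sum.elim_inl, Sum.elim_inr]
      have h1 : ∀ v : κ → ℝ, (fun j => v j) = v := fun _ => rfl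
      rw [h1 (C.symm _), LinearEquiv.apply_symm_apply]
      simp

/-- the affine equivalence -/
noncomputable def Phi (B : (ι → ℝ) ≃ₗ[ℝ] (ι → ℝ)) (C : (κ → ℝ) ≃ₗ[ℝ] (κ → ℝ)) (t : κ → ℝ) :
    (ι ⊕ κ → ℝ) ≃ᵃ[ℝ] (ι ⊕ κ → ℝ) :=
  (lam B C t).toAffineEquiv.trans
    (AffineEquiv.constVAdd ℝ (ι ⊕ κ → ℝ) (Sum.elim 0 t : ι ⊕ κ → ℝ))

omit [Fintype κ] in
theorem Phi_apply (B : (ι → ℝ) ≃ₗ[ℝ] (ι → ℝ)) (C : (κ → ℝ) ≃ₗ[ℝ] (κ → ℝ)) (t : κ → ℝ)
    (z : ι ⊕ κ → ℝ) : Phi B C t z = Sum.elim (B fun i => z (Sum.inl i))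
      (C (fun j => z (Sum.inr j)) + (1 - ∑ i, z (Sum.inl i)) • t) := by
  have h : Phi B C t z = (Sum.elim 0 t : ι ⊕ κ → ℝ) + lam B C t z := rfl
  rw [h]
  funext j
  rcases j with j | j
  · simp [lam]
  · simp only [lam, LinearEquiv.coe_mk, LinearMap.coe_mk, AddHom.coe_mk, Pi.add_apply,
      Sum.elim_inr, Pi.sub_apply, Pi.smul_apply, smul_eq_mul]
    ring

theorem inv_smul_corner (x : ι → ℝ) (h0 : ∀ i, 0 ≤ x i) (s : ℝ) (hs : 0 ≤ s)
    (hx : ∑ i, x i ≤ s) : s⁻¹ • x ∈ corner ι := by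
  refine ⟨fun i => mul_nonneg (inv_nonneg.mpr hs) (h0 i), ?_⟩
  simp only [Pi.smul_apply, smul_eq_mul, ← Finset.mul_sum]
  rcases hs.eq_or_lt with h | h
  · rw [← h, inv_zero, zero_mul]; exact zero_le_one
  · rw [inv_mul_le_iff₀ h, mul_one]; exact hx

theorem smul_inv_corner (x : ι → ℝ) (h0 : ∀ i, 0 ≤ x i) (s : ℝ) (hx : ∑ i, x i ≤ s) :
    s • (s⁻¹ • x) = x := by
  by_cases h : s = 0
  · have h1 : ∑ i, x i = 0 :=
      le_antisymm (h ▸ hx) (Finset.sum_nonneg fun i _ => h0 i)
    have h2 : x = 0 := by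
      funext i
      exact (Finset.sum_eq_zero_iff_of_nonneg (fun i _ => h0 i)).mp h1 i (Finset.mem_univ i)
    rw [h2]; simp
  · rw [smul_smul, mul_inv_cancel₀ h, one_smul]

theorem fsum_eq (B : (ι → ℝ) ≃ₗ[ℝ] (ι → ℝ)) (C : (κ → ℝ) ≃ₗ[ℝ] (κ → ℝ)) (t : κ → ℝ)
    (y0 : κ → ℝ) (hy0 : y0 ∈ corner κ) (h0 : C y0 + t = 0)
    (hconv : Convex ℝ (corner (ι ⊕ κ))) :
    fsum (B '' corner ι) ((fun y => C y + t) '' corner κ) = Phi B C t '' corner (ι ⊕ κ) := by
  apply Subset.antisymm
  · refine convexHull_min ?_ ?_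
    · rintro w (⟨_, ⟨x, hx, rfl⟩, rfl⟩ | ⟨_, ⟨y, hy, rfl⟩, rfl⟩)
      · refine ⟨Sum.elim x ((1 - ∑ i, x i) • y0), ⟨?_, ?_⟩, ?_⟩
        · intro j
          rcases j with j | j
          · exact hx.1 j
          · exact mul_nonneg (by linarith [hx.2]) (hy0.1 j)
        · rw [Fintype.sum_sum_type]
          simp only [Sum.elim_inl, Sum.elim_inr, Pi.smul_apply, smul_eq_mul, ← Finset.mul_sum]
          nlinarith [hx.2, hy0.2]
        · rw [Phi_apply]
          simp only [Sum.elim_inl, Sum.elim_inr]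
          have h1 : (fun j => ((1 - ∑ i, x i) • y0) j) = (1 - ∑ i, x i) • y0 := rfl
          rw [h1, map_smul, ← smul_add, h0, smul_zero]
      · refine ⟨Sum.elim 0 y, ⟨?_, ?_⟩, ?_⟩
        · intro j
          rcases j with j | j
          · exact le_rfl
          · exact hy.1 j
        · rw [Fintype.sum_sum_type]
          simp only [Sum.elim_inl, Sum.elim_inr, Pi.zero_apply, Finset.sum_const_zero, zero_add]
          exact hy.2
        · rw [Phi_apply]
          simp only [Sum.elim_inl, Sum.elim_inr, Pi.zero_apply, Finset.sum_const_zero, sub_zero,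
            one_smul]
          have h1 : (fun _ : ι => (0 : ℝ)) = 0 := rfl
          rw [h1, map_zero]
    · rintro _ ⟨x, hx, rfl⟩ _ ⟨y, hy, rfl⟩ a b ha hb hab
      refine ⟨a • x + b • y, hconv hx hy ha hb hab, ?_⟩
      have h1 := (Phi B C t : (ι ⊕ κ → ℝ) →ᵃ[ℝ] (ι ⊕ κ → ℝ))
      exact Convex.combo_affine_apply (f := (Phi B C t).toAffineMap) hab
  · rintro _ ⟨z, hz, rfl⟩
    rw [Phi_apply]
    have hs : ∑ i, z (Sum.inl i) + ∑ j, z (Sum.inr j) ≤ 1 := by
      have := hz.2
      rwa [Fintype.sum_sum_type] at this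
    set s := ∑ i, z (Sum.inl i) with hs'
    have hx0 : ∀ i, 0 ≤ (fun i => z (Sum.inl i)) i := fun i => hz.1 (Sum.inl i)
    have hy0' : ∀ j, 0 ≤ (fun j => z (Sum.inr j)) j := fun j => hz.1 (Sum.inr j)
    have hs0 : 0 ≤ s := Finset.sum_nonneg fun i _ => hx0 i
    have hr0 : 0 ≤ ∑ j, z (Sum.inr j) := Finset.sum_nonneg fun j _ => hy0' j
    have hs1 : 0 ≤ 1 - s := by linarith
    have m1 : s⁻¹ • (fun i => z (Sum.inl i)) ∈ corner ι :=
      inv_smul_corner _ hx0 s hs0 le_rfl
    have m2 : (1 - s)⁻¹ • (fun j => z (Sum.inr j)) ∈ corner κ :=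
      inv_smul_corner _ hy0' (1 - s) hs1 (by show ∑ j, z (Sum.inr j) ≤ 1 - s; linarith)
    have e1 : s • (s⁻¹ • fun i => z (Sum.inl i)) = fun i => z (Sum.inl i) :=
      smul_inv_corner _ hx0 s le_rfl
    have e2 : (1 - s) • ((1 - s)⁻¹ • fun j => z (Sum.inr j)) = fun j => z (Sum.inr j) :=
      smul_inv_corner _ hy0' (1 - s) (by show ∑ j, z (Sum.inr j) ≤ 1 - s; linarith)
    have p1 : (Sum.elim (B (s⁻¹ • fun i => z (Sum.inl i))) 0 : ι ⊕ κ → ℝ) ∈
        fsum (B '' corner ι) ((fun y => C y + t) '' corner κ) :=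
      subset_convexHull ℝ _ (Or.inl ⟨_, ⟨_, m1, rfl⟩, rfl⟩)
    have p2 : (Sum.elim 0 (C ((1 - s)⁻¹ • fun j => z (Sum.inr j)) + t) : ι ⊕ κ → ℝ) ∈
        fsum (B '' corner ι) ((fun y => C y + t) '' corner κ) :=
      subset_convexHull ℝ _ (Or.inr ⟨_, ⟨_, m2, rfl⟩, rfl⟩)
    have h3 := (convex_convexHull ℝ _) p1 p2 hs0 hs1 (by ring)
    have h4 : s • (Sum.elim (B (s⁻¹ • fun i => z (Sum.inl i))) 0 : ι ⊕ κ → ℝ) +
        (1 - s) • (Sum.elim 0 (C ((1 - s)⁻¹ • fun j => z (Sum.inr j)) + t) : ι ⊕ κ → ℝ) =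
        Sum.elim (B fun i => z (Sum.inl i))
          (C (fun j => z (Sum.inr j)) + (1 - s) • t) := by
      have f1 : s • B (s⁻¹ • fun i => z (Sum.inl i)) = B fun i => z (Sum.inl i) := by
        rw [← map_smul, e1]
      have f2 : (1 - s) • (C ((1 - s)⁻¹ • fun j => z (Sum.inr j)) + t) =
          C (fun j => z (Sum.inr j)) + (1 - s) • t := by
        rw [smul_add, ← map_smul, e2]
      rw [← f1, ← f2]
      funext j
      rcases j with j | j
      · simp
      · simp only [Pi.add_apply, Pi.smul_apply, Sum.elim_inr, smul_eq_mul, Pi.zero_apply]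
        ring
    rw [← h4]
    exact h3

end Eqc

open Eqc in
theorem eqc (hUINV : S_UINV) (hCORN : S_CORN) : S_EQC := by
  intro ι κ _ _ _ _ _ _ K L hK hL h0K h0L hu
  obtain ⟨T, rfl⟩ := hK
  obtain ⟨T', rfl⟩ := hL
  obtain ⟨z, hz, hTz⟩ := h0K
  obtain ⟨y0, hy0, hTy⟩ := h0L
  obtain ⟨hBc, -, hUc⟩ := hCORN ι
  -- barycentric coordinates of the common point
  have hTw : ∀ w, T w = T.linear (w - z) := by
    intro w
    have h1 := T.toAffineMap.linearMap_vsub w z
    have h2 : T.linear (w - z) = T w - T z := h1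
    rw [h2, hTz, sub_zero]
  have himg : T '' corner ι = T.linear '' ((fun x => x - z) '' corner ι) := by
    rw [image_image]
    exact image_congr fun w _ => hTw w
  have hu2 : u (T '' corner ι) = u ((fun x => x - z) '' corner ι) := by
    rw [himg]
    exact hUINV ι ι _ T.linear (body_sub _ hBc z)
  rw [hu2, hUc z hz] at hu
  have hq : ∑ i, z i ^ 2 + (1 - ∑ i, z i) ^ 2 = 1 := by
    have ha : (0 : ℝ) < (Fintype.card ι : ℝ) + 2 := by positivity
    have ha1 : (0 : ℝ) < (Fintype.card ι : ℝ) + 1 := by positivity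
    have h1 : ((Fintype.card ι : ℝ) + 2) * (((Fintype.card ι : ℝ) + 1) *
        (∑ i, z i ^ 2 + (1 - ∑ i, z i) ^ 2) - 1) =
        ((Fintype.card ι : ℝ) + 2) * (Fintype.card ι : ℝ) := by rw [hu]; ring
    have h2 := mul_left_cancel₀ ha.ne' h1
    have h3 : ((Fintype.card ι : ℝ) + 1) * (∑ i, z i ^ 2 + (1 - ∑ i, z i) ^ 2) =
        ((Fintype.card ι : ℝ) + 1) * 1 := by linarith
    exact mul_left_cancel₀ ha1.ne' h3
  -- `K` is a linear image of the corner simplex
  obtain ⟨B, hB⟩ : ∃ B : (ι → ℝ) ≃ₗ[ℝ] (ι → ℝ), T '' corner ι = B '' corner ι := by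
    rcases vertex z hz hq with rfl | ⟨i, hi, hj⟩
    · refine ⟨T.linear, image_congr fun w _ => ?_⟩
      rw [hTw w, sub_zero]
    · have hz' : z = sw i 0 := eq_sw_zero i z hi hj
      have hli : ∀ x, swLin i x = sw i x - sw i 0 := fun _ => rfl
      have hinv : ∀ x, swLin i (swLin i x) = x := by
        intro x
        have h1 : swLin i x = (1 : ℝ) • sw i x + (-1 : ℝ) • sw i 0 := by rw [hli]; module
        rw [h1, map_add, map_smul, map_smul, hli, hli, sw_sw, sw_sw]
        module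
      let S : (ι → ℝ) ≃ₗ[ℝ] (ι → ℝ) := LinearEquiv.ofLinearMap (swLin i) (swLin i)
        (LinearMap.ext hinv) (LinearMap.ext hinv)
      refine ⟨S.trans T.linear, ?_⟩
      ext w
      constructor
      · rintro ⟨x, hx, rfl⟩
        refine ⟨sw i x, sw_corner i x hx, ?_⟩
        rw [hTw x, hz']
        show T.linear (swLin i (sw i x)) = _
        rw [hli, sw_sw]
      · rintro ⟨x, hx, rfl⟩
        refine ⟨sw i x, sw_corner i x hx, ?_⟩
        rw [hTw, hz']
        rfl
  have hL' : T' '' corner κ = (fun y => T'.linear y + T' 0) '' corner κ := by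
    refine image_congr fun y _ => ?_
    have h1 := T'.toAffineMap.linearMap_vsub y 0
    have h2 : T'.linear (y - 0) = T' y - T' 0 := h1
    rw [sub_zero] at h2
    rw [h2, sub_add_cancel]
  have h0 : T'.linear y0 + T' 0 = 0 := by
    have h1 := T'.toAffineMap.linearMap_vsub y0 0
    have h2 : T'.linear (y0 - 0) = T' y0 - T' 0 := h1
    rw [sub_zero] at h2
    rw [h2, sub_add_cancel, hTy]
  obtain ⟨hBs, -, -⟩ := hCORN (ι ⊕ κ)
  refine ⟨Phi B T'.linear (T' 0), ?_⟩
  rw [hB, hL']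
  exact fsum_eq B T'.linear (T' 0) y0 hy0 h0 hBs.convex

end Vale.Agent.P254
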