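import Vale.Agent.P254.Defs2
import Vale.Agent.P254.Final

/-!
# P254: the dimension-free reduction
-/

set_option autoImplicit false

namespace Vale.Agent.P254

open MeasureTheory Set
open scoped Matrix

namespace RedX

/-- there is a body in `ℝᴺ` containing the origin with `A / D N = q` -/
def Ex (N : ℕ) (q : ℝ) : Prop :=
  ∃ K : Set (Fin N → ℝ), Body K ∧ 0 ∈ K ∧ A K / D N = q

theorem transport (AFF : S_AFF) {ι : Type} [Fintype ι] [DecidableEq ι] {N : ℕ}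
    (hc : Fintype.card ι = N) {K : Set (ι → ℝ)} (hK : Body K) (h0 : 0 ∈ K) :
    ∃ K' : Set (Fin N → ℝ), Body K' ∧ 0 ∈ K' ∧ A K' = A K := by
  let e : Fin N ≃ ι := (Fintype.equivFinOfCardEq hc).symm
  let T : (ι → ℝ) ≃ₗ[ℝ] (Fin N → ℝ) := LinearEquiv.funCongrLeft ℝ ℝ e
  have h := AFF ι (Fin N) K T.toAffineEquiv hK
  refine ⟨T.toAffineEquiv '' K, h.1, ⟨0, h0, ?_⟩, h.2⟩
  simp

theorem step (PYR : S_PYR) (AFF : S_AFF) {n : ℕ} (hn : 1 ≤ n) {q : ℝ} (h : Ex n q) :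
    Ex (n + 1) q := by
  obtain ⟨K, hK, h0, hq⟩ := h
  have : Nonempty (Fin n) := ⟨⟨0, hn⟩⟩
  obtain ⟨P, hP, hP0, hA, -⟩ := PYR (Fin n) K hK h0
  obtain ⟨K', hK', h0', hA'⟩ := transport AFF (N := n + 1) (by simp) hP hP0
  refine ⟨K', hK', h0', ?_⟩
  rw [Fintype.card_fin] at hA
  rw [hA', hA, hq]

theorem join (PYR : S_PYR) (AFF : S_AFF) (BODY : S_BODY) (FS : S_FS) {n a : ℕ} (hn : 1 ≤ n)
    (ha : 1 ≤ a) {q c : ℝ} (h : Ex n q) (h' : Ex a c) : Ex (n + 1 + a) (q * c) := by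
  obtain ⟨K, hK, h0, hq⟩ := h
  obtain ⟨L, hL, l0, hc⟩ := h'
  have : Nonempty (Fin n) := ⟨⟨0, hn⟩⟩
  have : Nonempty (Fin a) := ⟨⟨0, ha⟩⟩
  obtain ⟨P, hP, hP0, hA, hu⟩ := PYR (Fin n) K hK h0
  have hF := (BODY _ _ P L hP hL).2 hP0 l0
  have hfs := FS _ _ P L hP hL hP0 l0
  simp only at hfs
  obtain ⟨K', hK', h0', hA'⟩ := transport AFF (N := n + 1 + a) (by simp) hF
    (subset_convexHull ℝ _ (Or.inl ⟨0, hP0, by ext i; cases i <;> simp⟩))
  refine ⟨K', hK', h0', ?_⟩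
  rw [Fintype.card_fin] at hA hu
  rw [hu, Fintype.card_sum, Fintype.card_unit, Fintype.card_fin, Fintype.card_fin, hA, hq, hc]
    at hfs
  rw [hA', hfs]
  push_cast
  have e : (n : ℝ) + 1 - ((n : ℝ) + 1) * ((n : ℝ) + 3) / ((n : ℝ) + 1 + 2) = 0 := by
    have : (n : ℝ) + 1 + 2 ≠ 0 := by positivity
    field_simp
    ring
  rw [e]
  simp

theorem pow_ (PYR : S_PYR) (AFF : S_AFF) (BODY : S_BODY) (FS : S_FS) {a : ℕ} (ha : 1 ≤ a)
    {c : ℝ} (h : Ex a c) (k r : ℕ) : Ex (a + k * (a + 1) + r) (c ^ (k + 1)) := by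
  have hk : ∀ k : ℕ, Ex (a + k * (a + 1)) (c ^ (k + 1)) := by
    intro k
    induction k with
    | zero => simpa using h
    | succ k ih =>
        have h1 := join PYR AFF BODY FS (le_trans ha (Nat.le_add_right _ _)) ha ih h
        have e1 : a + k * (a + 1) + 1 + a = a + (k + 1) * (a + 1) := by ring
        rw [e1, ← pow_succ] at h1
        exact h1
  induction r with
  | zero => exact hk k
  | succ r ih =>
      exact step PYR AFF (le_trans ha ((Nat.le_add_right _ _).trans (Nat.le_add_right _ _))) ih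

theorem iso_pow (POS : S_POS) {n : ℕ} (hn : 1 ≤ n) {K : Set (Fin n → ℝ)} (hK : Body K) :
    iso K ^ (2 * n) = A K := by
  unfold iso
  have h0 := (FinX.A_pos POS hK).le
  rw [← Real.rpow_natCast, ← Real.rpow_mul h0]
  have : (n : ℝ) ≠ 0 := by positivity
  have e : (1 : ℝ) / (2 * n) * ((2 * n : ℕ) : ℝ) = 1 := by
    push_cast
    field_simp
  rw [e, Real.rpow_one]

theorem large {σ : ℝ} (hσ : 1 < σ) (C : ℝ) : ∃ k0 : ℕ, ∀ k : ℕ, k0 ≤ k → C * (k + 1) < σ ^ k := by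
  have h := tendsto_pow_const_div_const_pow_of_one_lt 1 hσ
  have h2 : Filter.Tendsto (fun k : ℕ => 2 * |C| * ((k : ℝ) ^ 1 / σ ^ k)) Filter.atTop
      (nhds (2 * |C| * 0)) := h.const_mul _
  rw [mul_zero] at h2
  have h3 := h2.eventually (gt_mem_nhds (show (0 : ℝ) < 1 by norm_num))
  obtain ⟨k0, hk0⟩ := Filter.eventually_atTop.1 h3
  refine ⟨max k0 1, fun k hk => ?_⟩
  have hk1 : 1 ≤ k := le_trans (le_max_right _ _) hk
  have h4 := hk0 k (le_trans (le_max_left _ _) hk)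
  have hpos : 0 < σ ^ k := by positivity
  have h5 : 2 * |C| * (k : ℝ) < σ ^ k := by
    have : 2 * |C| * ((k : ℝ) ^ 1 / σ ^ k) = 2 * |C| * (k : ℝ) / σ ^ k := by ring
    rw [this, div_lt_one hpos] at h4
    exact h4
  have h6 : (1 : ℝ) ≤ k := by exact_mod_cast hk1
  calc C * (k + 1) ≤ |C| * (k + 1) := by gcongr; exact le_abs_self C
    _ ≤ |C| * (2 * k) := by gcongr; linarith
    _ = 2 * |C| * k := by ring
    _ < _ := h5

theorem main (POS : S_POS) (PYR : S_PYR) (AFF : S_AFF) (BODY : S_BODY) (FS : S_FS)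
    (NUM : S_NUM) (NUM2 : S_NUM2)
    (H : ∀ ε : ℝ, 0 < ε → ∀ N : ℕ, ∃ n : ℕ, N ≤ n ∧ ∀ K : Set (Fin n → ℝ), Body K →
      iso K ≤ Real.exp (-1) + ε) {a : ℕ} (ha : 1 ≤ a) {c : ℝ} (hc : Ex a c) : c ≤ 1 := by
  by_contra hcon
  push Not at hcon
  have hc0 : 0 < c := by linarith
  set ρ : ℝ := c ^ ((1 : ℝ) / (4 * ((a : ℝ) + 1))) with hρ
  have hρ1 : 1 < ρ := Real.one_lt_rpow hcon (by positivity)
  have hρc : ρ ^ (4 * (a + 1)) = c := by
    rw [hρ, ← Real.rpow_natCast, ← Real.rpow_mul hc0.le]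
    have : (1 : ℝ) / (4 * ((a : ℝ) + 1)) * ((4 * (a + 1) : ℕ) : ℝ) = 1 := by
      push_cast
      field_simp
    rw [this, Real.rpow_one]
  set σ : ℝ := ρ ^ (2 * (a + 1)) with hσ
  have hσ1 : 1 < σ := one_lt_pow₀ hρ1 (by omega)
  have hσc : σ ^ 2 = c := by
    rw [hσ, ← pow_mul, ← hρc]; congr 1; ring
  obtain ⟨k0, hk0⟩ := large hσ1 (σ * σ * 21 * ((a : ℝ) + 1) * 2)
  obtain ⟨n, hn, hn2⟩ := H (Real.exp (-1) * (ρ - 1))
    (mul_pos (Real.exp_pos _) (by linarith)) ((k0 + 2) * (a + 1))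
  -- write `n + 1 = (k + 1) (a + 1) + r`
  obtain ⟨k, r, hr, hkr⟩ : ∃ k r : ℕ, r < a + 1 ∧ n = a + k * (a + 1) + r := by
    have h1 : a ≤ n := by nlinarith
    refine ⟨(n - a) / (a + 1), (n - a) % (a + 1), Nat.mod_lt _ (by omega), ?_⟩
    have := Nat.div_add_mod (n - a) (a + 1)
    have h2 : (a + 1) * ((n - a) / (a + 1)) = (n - a) / (a + 1) * (a + 1) := mul_comm _ _
    omega
  have hk : k0 ≤ k := by
    by_contra h
    push Not at h
    have : k * (a + 1) ≤ k0 * (a + 1) := Nat.mul_le_mul_right _ h.le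
    have e1 : (k0 + 2) * (a + 1) = k0 * (a + 1) + 2 * (a + 1) := by ring
    omega
  have hn1 : 1 ≤ n := by omega
  have hex : Ex n (c ^ (k + 1)) := by
    have h := pow_ PYR AFF BODY FS ha hc k r
    rwa [← hkr] at h
  obtain ⟨K, hK, -, hA⟩ := hex
  have hDn := NUM.1 n
  have h1 : A K = c ^ (k + 1) * D n := by
    rw [← hA]; field_simp
  have h2 := hn2 K hK
  have h3 : iso K ≤ Real.exp (-1) * ρ := by linarith
  have h4 : A K ≤ (Real.exp (-1) * ρ) ^ (2 * n) := by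
    rw [← iso_pow POS hn1 hK]
    exact pow_le_pow_left₀ (Real.rpow_nonneg (FinX.A_pos POS hK).le _) h3 _
  have h5 : Real.exp (-1) ^ (2 * n) = Real.exp (-2 * (n : ℝ)) := by
    rw [← Real.exp_nat_mul]; congr 1; push_cast; ring
  rw [mul_pow, h5] at h4
  have h6 := (NUM2 n hn1).2
  have hE : 0 < Real.exp (-2 * (n : ℝ)) := Real.exp_pos _
  have hρpos : 0 < ρ := by linarith
  have hσpos : 0 < σ := by linarith
  -- `c ^ (k+1) ≤ 21 (n+1) ρ ^ (2n)`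
  have h7 : c ^ (k + 1) ≤ 21 * ((n : ℝ) + 1) * ρ ^ (2 * n) := by
    have h8 : c ^ (k + 1) * D n ≤ (21 * ((n : ℝ) + 1) * ρ ^ (2 * n)) * D n := by
      calc c ^ (k + 1) * D n = A K := h1.symm
        _ ≤ Real.exp (-2 * (n : ℝ)) * ρ ^ (2 * n) := h4
        _ ≤ (21 * ((n : ℝ) + 1) * D n) * ρ ^ (2 * n) := by gcongr
        _ = _ := by ring
    exact le_of_mul_le_mul_right h8 hDn
  have h9 : ρ ^ (2 * n) ≤ σ ^ (k + 2) := by
    rw [hσ, ← pow_mul]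
    apply pow_le_pow_right₀ hρ1.le
    have : 2 * (a + 1) * (k + 2) = 2 * (k * (a + 1)) + 4 * (a + 1) := by ring
    omega
  have h10 : (n : ℝ) + 1 ≤ 2 * ((a : ℝ) + 1) * (k + 1) := by
    have h : n + 1 ≤ 2 * (a + 1) * (k + 1) := by
      have : 2 * (a + 1) * (k + 1) = 2 * (k * (a + 1)) + 2 * (a + 1) := by ring
      omega
    exact_mod_cast h
  have h11 : σ ^ (2 * (k + 1)) ≤ 21 * (2 * ((a : ℝ) + 1) * (k + 1)) * σ ^ (k + 2) := by
    rw [pow_mul, hσc]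
    calc c ^ (k + 1) ≤ 21 * ((n : ℝ) + 1) * ρ ^ (2 * n) := h7
      _ ≤ _ := by gcongr
  have h12 := hk0 k hk
  have h13 : σ ^ (2 * (k + 1)) = σ ^ k * σ ^ (k + 2) := by ring
  rw [h13] at h11
  have h14 : σ ^ k ≤ 21 * (2 * ((a : ℝ) + 1) * (k + 1)) :=
    le_of_mul_le_mul_right h11 (by positivity)
  have h15 : 21 * (2 * ((a : ℝ) + 1) * ((k : ℝ) + 1)) ≤
      σ * σ * 21 * ((a : ℝ) + 1) * 2 * ((k : ℝ) + 1) := by
    have h16 : 1 ≤ σ * σ := by nlinarith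
    have h17 : 0 ≤ 21 * ((a : ℝ) + 1) * 2 * ((k : ℝ) + 1) := by positivity
    nlinarith [mul_le_mul_of_nonneg_right h16 h17]
  linarith

end RedX

end Vale.Agent.P254
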