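import Vale.Agent.P254.Defs2
import Vale.Agent.P254.Final
import Vale.Agent.P254.Red

/-!
# P254, module FINAL2
-/

set_option autoImplicit false

namespace Vale.Agent.P254

open MeasureTheory Set
open scoped Matrix

namespace Fin2X

theorem clos_eq (POS : S_POS) (STAR : S_STAR) (FS : S_FS) (NUM : S_NUM) (EQC : S_EQC)
    (SWAP : S_SWAP) {ι κ : Type} [Fintype ι] [DecidableEq ι] [Fintype κ] [DecidableEq κ]
    [Nonempty ι] [Nonempty κ] {K : Set (ι → ℝ)} {L : Set (κ → ℝ)} (hK : Body K) (hL : Body L)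
    (h0 : 0 ∈ K) (h0' : 0 ∈ L) (hA : A K ≤ D (Fintype.card ι)) (hB : A L ≤ D (Fintype.card κ))
    (hA' : A K = D (Fintype.card ι) → Simp K) (hB' : A L = D (Fintype.card κ) → Simp L)
    (h : A (fsum K L) = D (Fintype.card ι + Fintype.card κ)) : Simp (fsum K L) := by
  have h1 := FS ι κ K L hK hL h0 h0'
  simp only at h1
  have hu := STAR ι K hK h0
  have hw := STAR κ L hL h0'
  obtain ⟨f0, f1⟩ := FinX.fac (Nat.cast_nonneg _) hu.1 hu.2
  obtain ⟨g0, g1⟩ := FinX.fac (Nat.cast_nonneg _) hw.1 hw.2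
  have hD := NUM.1
  have q1 : A K / D (Fintype.card ι) ≤ 1 := by rw [div_le_one (hD _)]; exact hA
  have q2 : A L / D (Fintype.card κ) ≤ 1 := by rw [div_le_one (hD _)]; exact hB
  have q1' : 0 < A K / D (Fintype.card ι) := div_pos (FinX.A_pos POS hK) (hD _)
  have q2' : 0 < A L / D (Fintype.card κ) := div_pos (FinX.A_pos POS hL) (hD _)
  rw [h, div_self (hD _).ne'] at h1
  set f := ((Fintype.card ι : ℝ) - u K / (Fintype.card ι + 2)) / (Fintype.card ι + 1) with hf
  set g := ((Fintype.card κ : ℝ) - u L / (Fintype.card κ + 2)) / (Fintype.card κ + 1) with hg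
  set p := A K / D (Fintype.card ι) with hp
  set q := A L / D (Fintype.card κ) with hq
  have hfg : 0 ≤ f * g := mul_nonneg f0 g0
  have hfg1 : 0 ≤ 1 - f * g := by nlinarith
  have e1 : p = 1 := by
    by_contra hne
    have hlt : p < 1 := lt_of_le_of_ne q1 hne
    have : p * q * (1 - f * g) ≤ p * 1 * 1 := by
      gcongr
      linarith
    linarith
  have e2 : q = 1 := by
    by_contra hne
    have hlt : q < 1 := lt_of_le_of_ne q2 hne
    have : p * q * (1 - f * g) ≤ 1 * q * 1 := by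
      gcongr
      linarith
    linarith
  rw [e1, e2] at h1
  have e3 : f * g = 0 := by linarith
  have sK : Simp K := hA' (by
    have := e1
    rw [hp, div_eq_one_iff_eq (hD _).ne'] at this
    exact this)
  have sL : Simp L := hB' (by
    have := e2
    rw [hq, div_eq_one_iff_eq (hD _).ne'] at this
    exact this)
  rcases mul_eq_zero.1 e3 with hz | hz
  · apply EQC ι κ K L sK sL h0 h0'
    rw [hf, div_eq_zero_iff] at hz
    rcases hz with hz | hz
    · have : (Fintype.card ι : ℝ) + 2 ≠ 0 := by positivity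
      field_simp at hz
      linarith
    · have : (Fintype.card ι : ℝ) + 1 ≠ 0 := by positivity
      exact absurd hz this
  · apply SWAP κ ι L K
    apply EQC κ ι L K sL sK h0' h0
    rw [hg, div_eq_zero_iff] at hz
    rcases hz with hz | hz
    · have : (Fintype.card κ : ℝ) + 2 ≠ 0 := by positivity
      field_simp at hz
      linarith
    · have : (Fintype.card κ : ℝ) + 1 ≠ 0 := by positivity
      exact absurd hz this

theorem gen_eq (POS : S_POS) (BODY : S_BODY) (AFF : S_AFF) (STAR : S_STAR) (FS : S_FS)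
    (PRD : S_PRD) (NUM : S_NUM) (SEG : S_SEG) (EQC : S_EQC) (SWAP : S_SWAP) (SIMPS : S_SIMPS)
    {ι : Type} [Fintype ι] {K : Set (ι → ℝ)} (h : Gen ι K) :
    ∀ [DecidableEq ι], A K = D (Fintype.card ι) → Simp K := by
  induction h with
  | seg K hK =>
      intro _ _
      exact SIMPS.2 K hK
  | aff ι κ K T hK ih =>
      classical
      obtain ⟨h1, h2, h3⟩ := FinX.gen POS BODY AFF STAR FS PRD NUM SEG hK
      intro inst hA
      have h4 := (AFF ι κ K T h2).2
      rw [h4, ← FinX.card_eq T] at hA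
      exact SIMPS.1 _ _ _ T (ih hA)
  | prd ι κ K L hK hL ih1 ih2 =>
      classical
      obtain ⟨h1, h2, h3⟩ := FinX.gen POS BODY AFF STAR FS PRD NUM SEG hK
      obtain ⟨k1, k2, k3⟩ := FinX.gen POS BODY AFF STAR FS PRD NUM SEG hL
      intro inst hA
      have h4 := FinX.closp POS PRD NUM h2 k2 h3 k3
      have e : inst = instDecidableEqSum := Subsingleton.elim _ _
      subst e
      rw [Fintype.card_sum] at hA
      exact absurd hA h4.ne
  | fsum ι κ K L hK hL h0 h0' ih1 ih2 =>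
      classical
      obtain ⟨h1, h2, h3⟩ := FinX.gen POS BODY AFF STAR FS PRD NUM SEG hK
      obtain ⟨k1, k2, k3⟩ := FinX.gen POS BODY AFF STAR FS PRD NUM SEG hL
      intro inst hA
      have e : inst = instDecidableEqSum := Subsingleton.elim _ _
      subst e
      rw [Fintype.card_sum] at hA
      exact clos_eq POS STAR FS NUM EQC SWAP h2 k2 h0 h0' h3 k3 ih1 ih2 hA

/-- affine isomorphisms fixing the class -/
theorem iso_lt_iff (POS : S_POS) {n : ℕ} (hn : 1 ≤ n) {K : Set (Fin n → ℝ)} (hK : Body K) {d : ℝ}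
    (hd : 0 < d) (h : iso K = d ^ ((1 : ℝ) / (2 * n))) : A K = d := by
  rw [← RedX.iso_pow POS hn hK, h, ← Real.rpow_natCast, ← Real.rpow_mul hd.le]
  have : (n : ℝ) ≠ 0 := by positivity
  have e : (1 : ℝ) / (2 * n) * ((2 * n : ℕ) : ℝ) = 1 := by
    push_cast
    field_simp
  rw [e, Real.rpow_one]

theorem exSimplex (SIMP : S_SIMP) (n : ℕ) : IsSimplex (corner (Fin n)) :=
  (SIMP n _).2 ⟨AffineEquiv.refl ℝ _, by simp⟩

/-- translate so that the origin lies in the body -/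
theorem trans0 (AFF : S_AFF) {n : ℕ} {K : Set (Fin n → ℝ)} (hK : Body K) :
    RedX.Ex n (A K / D n) := by
  obtain ⟨x, hx⟩ := hK.interior.mono interior_subset
  have h4 := AFF _ _ K (AffineEquiv.constVAdd ℝ (Fin n → ℝ) (-x)) hK
  exact ⟨_, h4.1, ⟨x, hx, by simp⟩, by rw [h4.2]⟩

/-- `L_K ≤ L_Δ` in every dimension, `L_K ≤ 1/e`, and the asymptotic form are equivalent -/
theorem reduction (POS : S_POS) (BODY : S_BODY) (AFF : S_AFF) (FS : S_FS)
    (NUM : S_NUM) (NUM2 : S_NUM2) (PYR : S_PYR) (CORN : S_CORN) (SIMP : S_SIMP) :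
    ((∀ ε : ℝ, 0 < ε → ∀ N : ℕ, ∃ n : ℕ, N ≤ n ∧ ∀ K : Set (Fin n → ℝ), Body K →
      iso K ≤ Real.exp (-1) + ε) ↔
      (∀ n : ℕ, 1 ≤ n → ∀ K S : Set (Fin n → ℝ), Body K → IsSimplex S → iso K ≤ iso S)) ∧
    ((∀ n : ℕ, 1 ≤ n → ∀ K : Set (Fin n → ℝ), Body K → iso K ≤ Real.exp (-1)) ↔
      (∀ n : ℕ, 1 ≤ n → ∀ K S : Set (Fin n → ℝ), Body K → IsSimplex S → iso K ≤ iso S)) := by
  have hS : ∀ (n : ℕ) (S : Set (Fin n → ℝ)), IsSimplex S → A S = D n := by
    intro n S h
    obtain ⟨T, rfl⟩ := (SIMP n S).1 h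
    obtain ⟨h1, h2, h3⟩ := CORN (Fin n)
    rw [(AFF _ _ _ T h1).2, h2, Fintype.card_fin]
  have hto : (∀ ε : ℝ, 0 < ε → ∀ N : ℕ, ∃ n : ℕ, N ≤ n ∧ ∀ K : Set (Fin n → ℝ), Body K →
      iso K ≤ Real.exp (-1) + ε) →
      (∀ n : ℕ, 1 ≤ n → ∀ K S : Set (Fin n → ℝ), Body K → IsSimplex S → iso K ≤ iso S) := by
    intro H n hn K S hK hS'
    have h1 := RedX.main POS PYR AFF BODY FS NUM NUM2 H hn (trans0 AFF hK)
    rw [div_le_one (NUM.1 n)] at h1
    unfold iso
    rw [hS n S hS']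
    exact Real.rpow_le_rpow (FinX.A_pos POS hK).le h1 (by positivity)
  have hback : (∀ n : ℕ, 1 ≤ n → ∀ K S : Set (Fin n → ℝ), Body K → IsSimplex S →
      iso K ≤ iso S) → (∀ n : ℕ, 1 ≤ n → ∀ K : Set (Fin n → ℝ), Body K →
        iso K ≤ Real.exp (-1)) := by
    intro H n hn K hK
    refine (H n hn K _ hK (exSimplex SIMP n)).trans ?_
    unfold iso
    rw [hS n _ (exSimplex SIMP n)]
    have hn0 : (0 : ℝ) < n := by exact_mod_cast hn
    calc D n ^ ((1 : ℝ) / (2 * n)) ≤ (Real.exp (-2 * (n : ℝ))) ^ ((1 : ℝ) / (2 * n)) :=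
          Real.rpow_le_rpow (NUM.1 n).le (NUM2 n hn).1 (by positivity)
      _ = Real.exp (-1) := by
          rw [← Real.exp_mul]
          congr 1
          field_simp
  refine ⟨⟨hto, ?_⟩, ⟨?_, hback⟩⟩
  · intro H ε hε N
    refine ⟨N + 1, by omega, fun K hK => ?_⟩
    have := hback H (N + 1) (by omega) K hK
    linarith
  · intro H
    apply hto
    intro ε hε N
    refine ⟨N + 1, by omega, fun K hK => ?_⟩
    have := H (N + 1) (by omega) K hK
    linarith

end Fin2X

end Vale.Agent.P254
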