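import Vale.Agent.P254.Defs2

/-!
# P254, module NUM2
-/

set_option autoImplicit false

namespace Vale.Agent.P254

open Real

namespace Num2X

theorem fact_le {n : ℕ} (hn : 1 ≤ n) :
    (n.factorial : ℝ) ≤ exp 1 * √n * ((n : ℝ) / exp 1) ^ n := by
  obtain ⟨m, rfl⟩ : ∃ m, n = m + 1 := ⟨n - 1, by omega⟩
  have h := Stirling.stirlingSeq'_antitone (Nat.zero_le m)
  simp only [Function.comp_apply, Nat.succ_eq_add_one, zero_add] at h
  rw [Stirling.stirlingSeq_one] at h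
  unfold Stirling.stirlingSeq at h
  have hpos : 0 < √(2 * ((m + 1 : ℕ) : ℝ)) * (((m + 1 : ℕ) : ℝ) / exp 1) ^ (m + 1) := by
    positivity
  rw [div_le_iff₀ hpos] at h
  have h2 : √(2 * ((m + 1 : ℕ) : ℝ)) = √2 * √((m + 1 : ℕ) : ℝ) :=
    Real.sqrt_mul (by norm_num) _
  rw [h2] at h
  have h3 : (0 : ℝ) < √2 := by positivity
  calc ((m + 1).factorial : ℝ) ≤ _ := h
    _ = _ := by field_simp

end Num2X

theorem num2 : S_NUM2 := by
  intro n hn
  have hn0 : (0 : ℝ) < n := by exact_mod_cast hn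
  have hE : (0 : ℝ) < exp (n : ℝ) := exp_pos _
  have e2 : exp (-2 * (n : ℝ)) = 1 / (exp (n : ℝ)) ^ 2 := by
    rw [← Real.exp_nat_mul, one_div, ← Real.exp_neg]
    congr 1; push_cast; ring
  have e1 : exp 1 ^ n = exp (n : ℝ) := by
    rw [← Real.exp_nat_mul]; simp
  constructor
  · have h1 := Num2X.fact_le hn
    rw [div_pow, e1] at h1
    have h2 : ((n.factorial : ℝ)) ^ 2 ≤ exp 1 ^ 2 * n * ((n : ℝ) ^ n / exp (n : ℝ)) ^ 2 := by
      calc ((n.factorial : ℝ)) ^ 2 ≤ (exp 1 * √n * ((n : ℝ) ^ n / exp (n : ℝ))) ^ 2 := by gcongr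
        _ = _ := by rw [mul_pow, mul_pow, Real.sq_sqrt hn0.le]
    -- `n ^ (n+1) * e ≤ (n+1) ^ (n+1)`
    have h3 : exp 1 * (n : ℝ) ^ (n + 1) ≤ ((n : ℝ) + 1) ^ (n + 1) := by
      have h4 := Real.add_one_le_exp (-(1 / ((n : ℝ) + 1)))
      have h5 : -(1 / ((n : ℝ) + 1)) + 1 = (n : ℝ) / (n + 1) := by field_simp; ring
      rw [h5] at h4
      have h6 : ((n : ℝ) / (n + 1)) ^ (n + 1) ≤ exp (-1) := by
        calc ((n : ℝ) / (n + 1)) ^ (n + 1) ≤ (exp (-(1 / ((n : ℝ) + 1)))) ^ (n + 1) := by gcongr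
          _ = exp (-1) := by
            rw [← Real.exp_nat_mul]; congr 1; push_cast; field_simp
      rw [div_pow, div_le_iff₀ (by positivity), Real.exp_neg] at h6
      calc exp 1 * (n : ℝ) ^ (n + 1) ≤ exp 1 * ((exp 1)⁻¹ * ((n : ℝ) + 1) ^ (n + 1)) := by gcongr
        _ = _ := by field_simp
    have h7 : 3 * (n : ℝ) ^ n ≤ ((n : ℝ) + 2) ^ n := by
      have h8 := one_add_mul_le_pow (show (-2 : ℝ) ≤ 2 / n by
        have : (0 : ℝ) ≤ 2 / n := by positivity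
        linarith) n
      have h9 : 1 + (n : ℝ) * (2 / n) = 3 := by field_simp; norm_num
      rw [h9] at h8
      have h10 : (1 + 2 / (n : ℝ)) = ((n : ℝ) + 2) / n := by field_simp
      rw [h10, div_pow, le_div_iff₀ (by positivity)] at h8
      exact h8
    have h11 : exp 1 ≤ 3 := by
      have := Real.exp_one_lt_d9; linarith
    unfold D
    rw [e2, div_le_div_iff₀ (by positivity) (by positivity), one_mul]
    calc ((n.factorial : ℝ)) ^ 2 * exp (n : ℝ) ^ 2 ≤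
        (exp 1 ^ 2 * n * ((n : ℝ) ^ n / exp (n : ℝ)) ^ 2) * exp (n : ℝ) ^ 2 := by gcongr
      _ = (exp 1 * (n : ℝ) ^ (n + 1)) * (exp 1 * (n : ℝ) ^ n) := by
        rw [pow_succ (n : ℝ) n]; field_simp
      _ ≤ ((n : ℝ) + 1) ^ (n + 1) * (3 * (n : ℝ) ^ n) := by gcongr
      _ ≤ ((n : ℝ) + 1) ^ (n + 1) * ((n : ℝ) + 2) ^ n := by gcongr
  · have h1 := Real.pow_div_factorial_le_exp (n : ℝ) hn0.le n
    rw [div_le_iff₀ (by positivity)] at h1
    have h2 : ((n : ℝ) + 1) ^ n ≤ exp 1 * (n : ℝ) ^ n := by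
      have h4 := Real.add_one_le_exp (1 / (n : ℝ))
      have h5 : 1 / (n : ℝ) + 1 = ((n : ℝ) + 1) / n := by field_simp; ring
      rw [h5] at h4
      have h6 : (((n : ℝ) + 1) / n) ^ n ≤ exp 1 := by
        calc (((n : ℝ) + 1) / n) ^ n ≤ (exp (1 / (n : ℝ))) ^ n := by gcongr
          _ = exp 1 := by rw [← Real.exp_nat_mul]; congr 1; field_simp
      rwa [div_pow, div_le_iff₀ (by positivity)] at h6
    have h3 : ((n : ℝ) + 2) ^ n ≤ exp 1 ^ 2 * (n : ℝ) ^ n := by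
      have h4 := Real.add_one_le_exp (2 / (n : ℝ))
      have h5 : 2 / (n : ℝ) + 1 = ((n : ℝ) + 2) / n := by field_simp; ring
      rw [h5] at h4
      have h6 : (((n : ℝ) + 2) / n) ^ n ≤ exp 1 ^ 2 := by
        calc (((n : ℝ) + 2) / n) ^ n ≤ (exp (2 / (n : ℝ))) ^ n := by gcongr
          _ = exp 1 ^ 2 := by
            rw [← Real.exp_nat_mul, ← Real.exp_nat_mul]; congr 1; push_cast; field_simp
      rwa [div_pow, div_le_iff₀ (by positivity)] at h6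
    have h11 : exp 1 ^ 3 ≤ 21 := by
      have h := Real.exp_one_lt_d9
      have h' : exp 1 ≤ 2.72 := by linarith
      calc exp 1 ^ 3 ≤ 2.72 ^ 3 := by gcongr
        _ ≤ 21 := by norm_num
    unfold D
    rw [e2, mul_div_assoc', div_le_div_iff₀ (by positivity) (by positivity), one_mul]
    calc ((n : ℝ) + 1) ^ (n + 1) * ((n : ℝ) + 2) ^ n
        = ((n : ℝ) + 1) * (((n : ℝ) + 1) ^ n * ((n : ℝ) + 2) ^ n) := by ring
      _ ≤ ((n : ℝ) + 1) * ((exp 1 * (n : ℝ) ^ n) * (exp 1 ^ 2 * (n : ℝ) ^ n)) := by gcongr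
      _ = ((n : ℝ) + 1) * (exp 1 ^ 3 * ((n : ℝ) ^ n) ^ 2) := by ring
      _ ≤ ((n : ℝ) + 1) * (21 * (exp (n : ℝ) * n.factorial) ^ 2) := by gcongr
      _ = _ := by ring

end Vale.Agent.P254
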