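import Vale.Agent.P254.Defs2
import Vale.Agent.P254.MOM

/-!
# P254, module PYR
-/

set_option autoImplicit false

namespace Vale.Agent.P254

open MeasureTheory Set
open scoped Matrix

namespace PyrX

theorem cs {ι : Type} [Fintype ι] [DecidableEq ι] {S : Matrix ι ι ℝ} (hS : S.PosDef) (m : ι → ℝ)
    (e : ι) : m e ^ 2 ≤ S e e * (m ⬝ᵥ (S⁻¹ *ᵥ m)) := by
  set θ := S⁻¹ *ᵥ m with hθ
  have hdet : IsUnit S.det := (Matrix.isUnit_iff_isUnit_det _).1 hS.isUnit
  have hSθ : S *ᵥ θ = m := by
    rw [hθ, Matrix.mulVec_mulVec, Matrix.mul_nonsing_inv _ hdet, Matrix.one_mulVec]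
  have hsym : ∀ i j, S i j = S j i := fun i j => by
    have := hS.isHermitian.apply i j
    simpa using this.symm
  have hpos : 0 < S e e := hS.diag_pos
  set t : ℝ := m e / S e e with ht
  have h := hS.posSemidef.dotProduct_mulVec_nonneg (θ - t • Pi.single e 1)
  have h1 : (Pi.single e (1 : ℝ) : ι → ℝ) ⬝ᵥ (S *ᵥ θ) = m e := by
    rw [hSθ]; simp
  have h2 : θ ⬝ᵥ (S *ᵥ (Pi.single e (1 : ℝ) : ι → ℝ)) = m e := by
    rw [Matrix.mulVec_single_one, ← congrFun hSθ e]
    simp only [Matrix.mulVec, dotProduct, Matrix.col_apply]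
    exact Finset.sum_congr rfl fun i _ => by rw [hsym i e, mul_comm]
  have h3 : (Pi.single e (1 : ℝ) : ι → ℝ) ⬝ᵥ (S *ᵥ (Pi.single e (1 : ℝ) : ι → ℝ)) = S e e := by
    rw [Matrix.mulVec_single_one]
    simp
  have h4 : star (θ - t • (Pi.single e (1 : ℝ) : ι → ℝ)) ⬝ᵥ
      (S *ᵥ (θ - t • (Pi.single e (1 : ℝ) : ι → ℝ))) = m ⬝ᵥ θ - 2 * t * m e + t ^ 2 * S e e := by
    rw [star_trivial, Matrix.mulVec_sub, Matrix.mulVec_smul, sub_dotProduct, dotProduct_sub,
      dotProduct_sub, smul_dotProduct, smul_dotProduct, dotProduct_smul, dotProduct_smul, h1, h2,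
      h3, hSθ, dotProduct_comm θ m]
    simp only [smul_eq_mul]
    ring
  rw [h4] at h
  have h5 : t * S e e = m e := by rw [ht]; field_simp
  have h6 : t ^ 2 * S e e = t * m e := by rw [sq, mul_assoc, h5]
  rw [h6] at h
  have h7 : m e ^ 2 = S e e * (t * m e) := by rw [← mul_assoc, mul_comm (S e e), h5]; ring
  rw [h7]
  apply mul_le_mul_of_nonneg_left _ hpos.le
  linarith

theorem cornerU : corner Unit = (MeasurableEquiv.funUnique Unit ℝ) ⁻¹' Icc 0 1 := by
  ext x
  simp only [corner, mem_setOf_eq, mem_preimage, mem_Icc, Finset.univ_unique, Finset.sum_singleton]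
  exact ⟨fun h => ⟨h.1 _, h.2⟩, fun h => ⟨fun _ => h.1, h.2⟩⟩

theorem volU : vol (corner Unit) = 1 := by
  unfold vol
  rw [cornerU, (volume_preserving_funUnique Unit ℝ).measure_preimage
    measurableSet_Icc.nullMeasurableSet]
  simp

theorem meanU : mean (corner Unit) () = 1 / 2 := by
  unfold mean
  rw [volU, div_one, cornerU]
  have h := (volume_preserving_funUnique Unit ℝ).setIntegral_preimage_emb
    (MeasurableEquiv.measurableEmbedding _) (fun x => x) (Icc 0 1)
  have e : ∫ x in (MeasurableEquiv.funUnique Unit ℝ) ⁻¹' Icc 0 1, x () =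
      ∫ x in Icc (0 : ℝ) 1, x := h
  rw [e, integral_Icc_eq_integral_Ioc, ← intervalIntegral.integral_of_le (by norm_num)]
  simp

theorem mean_inr (POS : S_POS) (INT : S_INT) {ι κ : Type} [Fintype ι]
    [DecidableEq ι] [Fintype κ] [DecidableEq κ] [Nonempty ι] [Nonempty κ] {K : Set (ι → ℝ)}
    {L : Set (κ → ℝ)} (hK : Body K) (hL : Body L) (h0K : 0 ∈ K) (h0L : 0 ∈ L) (j : κ) :
    mean (fsum K L) (Sum.inr j) =
      ((Fintype.card κ : ℝ) + 1) / ((Fintype.card ι : ℝ) + (Fintype.card κ : ℝ) + 1) *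
        mean L j := by
  obtain ⟨hvK, -, hcK⟩ := POS ι K hK
  obtain ⟨hvL, -, hcL⟩ := POS κ L hL
  have hK1 : ∫ _x in K, (1 : ℝ) = vol K := by
    simp [vol, Measure.real]
  have hL1 : ∫ _x in L, (1 : ℝ) = vol L := by
    simp [vol, Measure.real]
  have hF1 : ∫ _x in fsum K L, (1 : ℝ) = vol (fsum K L) := by
    simp [vol, Measure.real]
  have hV : vol (fsum K L) = ((Fintype.card ι).factorial * (Fintype.card κ).factorial : ℝ) /
      ((Fintype.card ι + Fintype.card κ).factorial : ℝ) * (vol K * vol L) := by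
    have h := INT ι κ K L 0 0 (fun _ => 1) (fun _ => 1) hK hL h0K h0L continuous_const
      continuous_const (by intro t _ x; simp) (by intro t _ y; simp)
    rw [hK1, hL1] at h
    simp only [mul_one, hF1, add_zero, Nat.cast_mul] at h
    exact h
  have h := INT ι κ K L 0 1 (fun _ => 1) (fun y => y j) hK hL h0K h0L continuous_const
    (continuous_apply j) (by intro t _ x; simp) (by intro t _ y; simp)
  rw [hK1] at h
  simp only [one_mul] at h
  unfold mean
  rw [h, hV, MomH.r01 _ _ _ _ _ hvK.ne' hvL.ne']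

end PyrX

open PyrX

theorem pyr (POS : S_POS) (BODY : S_BODY) (AFF : S_AFF) (STAR : S_STAR) (INT : S_INT) (FS : S_FS)
    (CORN : S_CORN) (NUM : S_NUM) (UTR : S_UTR) : S_PYR := by
  intro ι _ _ _ K hK h0
  obtain ⟨bI, aI, uI⟩ := CORN Unit
  have h0I : (0 : Unit → ℝ) ∈ corner Unit := by simp [corner]
  have hD := NUM.1
  have uI' : u (corner Unit) = 3 := by
    have := uI 0 h0I
    simp only [sub_zero, image_id'] at this
    rw [this]
    simp
    norm_num
  have hQ : Body (fsum K (corner Unit)) := (BODY ι Unit K _ hK bI).2 h0 h0I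
  have hfs := FS ι Unit K (corner Unit) hK bI h0 h0I
  simp only at hfs
  rw [uI', aI, div_self (hD _).ne'] at hfs
  have hA : A (fsum K (corner Unit)) / D (Fintype.card ι + 1) = A K / D (Fintype.card ι) := by
    have e1 : Fintype.card Unit = 1 := Fintype.card_unit
    rw [e1] at hfs
    rw [hfs]
    norm_num
  set z : ι ⊕ Unit → ℝ := Sum.elim 0 (fun _ => 1) with hz
  have hzQ : z ∈ fsum K (corner Unit) := by
    apply subset_convexHull
    right
    exact ⟨fun _ => 1, by simp [corner], rfl⟩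
  have e : (fun w => w - z) '' fsum K (corner Unit) =
      (AffineEquiv.constVAdd ℝ (ι ⊕ Unit → ℝ) (-z)) '' fsum K (corner Unit) := by
    refine image_congr fun w _ => ?_
    simp [sub_eq_neg_add]
  have h4 := AFF _ _ (fsum K (corner Unit)) (AffineEquiv.constVAdd ℝ (ι ⊕ Unit → ℝ) (-z)) hQ
  rw [← e] at h4
  refine ⟨(fun w => w - z) '' fsum K (corner Unit), h4.1, ⟨z, hzQ, by simp⟩, ?_, ?_⟩
  · rw [h4.2, hA]
  · have hP0 : (0 : ι ⊕ Unit → ℝ) ∈ (fun w => w - z) '' fsum K (corner Unit) :=
      ⟨z, hzQ, by simp⟩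
    have hst := STAR _ _ h4.1 hP0
    obtain ⟨hm, hc⟩ := UTR _ (fsum K (corner Unit)) z hQ
    have hpd := (POS _ _ h4.1).2.1
    have hcs := cs hpd (mean ((fun w => w - z) '' fsum K (corner Unit))) (Sum.inr ())
    have hmom := (mom POS BODY INT ι Unit K (corner Unit) hK bI h0 h0I).2
    have vI := volU
    have mI := meanU
    have cI : cov (corner Unit) () () = 1 / 12 := by
      have h1 : A (corner Unit) = cov (corner Unit) () () := by
        unfold A
        rw [vI, Matrix.det_unique]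
        simp
      rw [← h1, aI]
      simp [D]
      norm_num
    have hce : cov (fsum K (corner Unit)) (Sum.inr ()) (Sum.inr ()) =
        ((Fintype.card ι : ℝ) + 1) / (((Fintype.card ι : ℝ) + 2) ^ 2 *
          ((Fintype.card ι : ℝ) + 3)) := by
      rw [hmom]
      simp only [Matrix.fromBlocks_apply₂₂, Matrix.add_apply, Matrix.smul_apply,
        Matrix.vecMulVec_apply, smul_eq_mul, cI, mI, Fintype.card_unit]
      push_cast
      have : (Fintype.card ι : ℝ) + 2 ≠ 0 := by positivity
      have : (Fintype.card ι : ℝ) + 3 ≠ 0 := by positivity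
      have : (Fintype.card ι : ℝ) + 1 + 1 ≠ 0 := by positivity
      have : (Fintype.card ι : ℝ) + 1 + 2 ≠ 0 := by positivity
      field_simp
      ring
    have hme : mean (fsum K (corner Unit)) (Sum.inr ()) = 1 / ((Fintype.card ι : ℝ) + 2) := by
      rw [mean_inr POS INT hK bI h0 h0I, mI, Fintype.card_unit]
      push_cast
      have : (Fintype.card ι : ℝ) + 2 ≠ 0 := by positivity
      have : (Fintype.card ι : ℝ) + 1 + 1 ≠ 0 := by positivity
      field_simp
      ring
    have hu : u ((fun w => w - z) '' fsum K (corner Unit)) =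
        mean ((fun w => w - z) '' fsum K (corner Unit)) ⬝ᵥ
          ((cov ((fun w => w - z) '' fsum K (corner Unit)))⁻¹ *ᵥ
            mean ((fun w => w - z) '' fsum K (corner Unit))) := rfl
    rw [← hu] at hcs
    set U := u ((fun w => w - z) '' fsum K (corner Unit)) with hU
    rw [hc, hce] at hcs
    have hme' : mean ((fun w => w - z) '' fsum K (corner Unit)) (Sum.inr ()) =
        -(((Fintype.card ι : ℝ) + 1) / ((Fintype.card ι : ℝ) + 2)) := by
      rw [hm]
      simp only [Pi.sub_apply, hme, hz, Sum.elim_inr]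
      have : (Fintype.card ι : ℝ) + 2 ≠ 0 := by positivity
      field_simp
      ring
    rw [hme'] at hcs
    have hst2 := hst.2
    rw [Fintype.card_sum, Fintype.card_unit] at hst2
    push_cast at hst2
    apply le_antisymm
    · linarith
    · set a : ℝ := (Fintype.card ι : ℝ) with ha
      have ha0 : 0 ≤ a := Nat.cast_nonneg _
      have h5 : (a + 1) / ((a + 2) ^ 2 * (a + 3)) * ((a + 1) * (a + 3)) ≤
          (a + 1) / ((a + 2) ^ 2 * (a + 3)) * U := by
        calc (a + 1) / ((a + 2) ^ 2 * (a + 3)) * ((a + 1) * (a + 3)) =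
            (-((a + 1) / (a + 2))) ^ 2 := by
              field_simp
          _ ≤ _ := hcs
      exact le_of_mul_le_mul_left h5 (by positivity)

end Vale.Agent.P254
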