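import Vale.Agent.P254.Defs2

set_option autoImplicit false

namespace Vale.Agent.P254

open MeasureTheory Set

namespace SimpsX

lemma seg_simp (K : Set (Unit → ℝ)) (hK : Body K) : Simp K := by
  set K' : Set ℝ := (fun x : Unit → ℝ => x ()) '' K with hK'
  have hcomp : IsCompact K' := hK.compact.image (continuous_apply ())
  have hne : K'.Nonempty := (hK.interior.mono interior_subset).image _
  have hconv : Convex ℝ K' := by
    rintro _ ⟨x, hx, rfl⟩ _ ⟨y, hy, rfl⟩ a b ha hb hab
    exact ⟨a • x + b • y, hK.convex hx hy ha hb hab, rfl⟩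
  have hconn : IsConnected K' := ⟨hne, hconv.isPreconnected⟩
  have hIcc : K' = Icc (sInf K') (sSup K') := eq_Icc_of_connected_compact hconn hcomp
  set a := sInf K' with ha
  set b := sSup K' with hb
  have hmem : ∀ x : Unit → ℝ, x ∈ K ↔ a ≤ x () ∧ x () ≤ b := by
    intro x
    have h1 : x ∈ K ↔ x () ∈ K' := by
      constructor
      · intro hx
        exact ⟨x, hx, rfl⟩
      · rintro ⟨y, hy, hxy⟩
        have : y = x := by
          funext i
          exact hxy
        rwa [← this]
    rw [h1, hIcc, mem_Icc]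
  have hab : a < b := by
    by_contra hle
    push Not at hle
    obtain ⟨x, hx⟩ := hK.interior
    have hsub : K ⊆ {x} := by
      intro y hy
      rw [mem_singleton_iff]
      funext i
      have h1 := (hmem y).mp hy
      have h2 := (hmem x).mp (interior_subset hx)
      have : y () = x () := by linarith [h1.1, h1.2, h2.1, h2.2]
      exact this
    have h3 : interior ({x} : Set (Unit → ℝ)) = ∅ := interior_singleton x
    have h4 := interior_mono hsub hx
    rw [h3] at h4
    exact h4
  have hba : (b - a) ≠ 0 := (sub_pos.mpr hab).ne'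
  set T : (Unit → ℝ) ≃ᵃ[ℝ] (Unit → ℝ) :=
    (LinearEquiv.smulOfNeZero ℝ (Unit → ℝ) (b - a) hba).toAffineEquiv.trans
      (AffineEquiv.constVAdd ℝ (Unit → ℝ) (fun _ => a)) with hT
  have hTa : ∀ x : Unit → ℝ, T x = fun _ => a + (b - a) * x () := by
    intro x
    funext i
    rfl
  refine ⟨T, ?_⟩
  ext x
  rw [hmem]
  constructor
  · rintro ⟨h1, h2⟩
    refine ⟨fun _ => (x () - a) / (b - a), ⟨fun i => ?_, ?_⟩, ?_⟩
    · have : 0 < b - a := by linarith
      have h3 : 0 ≤ x () - a := by linarith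
      positivity
    · simp only [Finset.univ_unique, Finset.sum_const, Finset.card_singleton, one_smul]
      rw [div_le_one (by linarith)]
      linarith
    · rw [hTa]
      funext i
      show a + (b - a) * ((x () - a) / (b - a)) = x i
      field_simp
      ring
  · rintro ⟨y, ⟨h1, h2⟩, rfl⟩
    have h3 := h1 ()
    have h4 : y () ≤ 1 := by simpa using h2
    rw [hTa]
    constructor
    · nlinarith
    · nlinarith

end SimpsX

theorem simps_ : S_SIMPS := by
  refine ⟨?_, SimpsX.seg_simp⟩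
  rintro ι κ _ _ S T ⟨T₀, rfl⟩
  have hcard : Fintype.card ι = Fintype.card κ := by
    have := T.linear.finrank_eq
    simpa using this
  set e : ι ≃ κ := Fintype.equivOfCardEq hcard with he
  set R : (κ → ℝ) ≃ₗ[ℝ] (ι → ℝ) := LinearEquiv.funCongrLeft ℝ ℝ e with hR
  have hRa : ∀ x i, R x i = x (e i) := fun x i => rfl
  have hcorner : R '' corner κ = corner ι := by
    ext x
    constructor
    · rintro ⟨y, ⟨h1, h2⟩, rfl⟩
      refine ⟨fun i => h1 (e i), ?_⟩
      rw [show ∑ i, R y i = ∑ k, y k from Equiv.sum_comp e y]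
      exact h2
    · rintro ⟨h1, h2⟩
      refine ⟨R.symm x, ⟨fun k => ?_, ?_⟩, R.apply_symm_apply x⟩
      · have : R.symm x k = x (e.symm k) := by
          conv_rhs => rw [← R.apply_symm_apply x]
          rw [hRa, e.apply_symm_apply]
        rw [this]
        exact h1 _
      · have : ∑ k, R.symm x k = ∑ i, x i := by
          conv_rhs => rw [← R.apply_symm_apply x]
          exact (Equiv.sum_comp e (R.symm x)).symm
        rw [this]
        exact h2
  refine ⟨(R.toAffineEquiv.trans T₀).trans T, ?_⟩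
  rw [← hcorner]
  ext x
  simp only [mem_image]
  constructor
  · rintro ⟨_, ⟨_, ⟨y, hy, rfl⟩, rfl⟩, rfl⟩
    exact ⟨y, hy, rfl⟩
  · rintro ⟨y, hy, rfl⟩
    exact ⟨_, ⟨_, ⟨y, hy, rfl⟩, rfl⟩, rfl⟩

theorem swap : S_SIMPS → S_SWAP := by
  rintro ⟨hS, -⟩ ι κ _ _ K L h
  set R : (ι ⊕ κ → ℝ) ≃ₗ[ℝ] (κ ⊕ ι → ℝ) := LinearEquiv.funCongrLeft ℝ ℝ (Equiv.sumComm κ ι)
    with hR
  have hRa : ∀ z, R z = z ∘ Sum.swap := fun z => rfl
  have h1 : fsum L K = R.toAffineEquiv '' fsum K L := by
    unfold fsum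
    have h2 : R.toAffineEquiv '' convexHull ℝ
        ((fun x : ι → ℝ => (Sum.elim x 0 : ι ⊕ κ → ℝ)) '' K ∪
          (fun y : κ → ℝ => (Sum.elim 0 y : ι ⊕ κ → ℝ)) '' L) =
        convexHull ℝ (R.toAffineEquiv '' ((fun x : ι → ℝ => (Sum.elim x 0 : ι ⊕ κ → ℝ)) '' K ∪
          (fun y : κ → ℝ => (Sum.elim 0 y : ι ⊕ κ → ℝ)) '' L)) :=
      R.toAffineEquiv.toAffineMap.image_convexHull _
    rw [h2, image_union, image_image, image_image, union_comm]
    congr 1
    congr 1
    · refine image_congr fun x _ => ?_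
      show _ = R (Sum.elim x 0 : ι ⊕ κ → ℝ)
      rw [hRa]
      funext i
      rcases i with i | i <;> rfl
    · refine image_congr fun x _ => ?_
      show _ = R (Sum.elim 0 x : ι ⊕ κ → ℝ)
      rw [hRa]
      funext i
      rcases i with i | i <;> rfl
  rw [h1]
  exact hS _ _ _ _ h

end Vale.Agent.P254
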