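import Vale.Agent.P254.Defs2
import Vale.Agent.P254.Aff

set_option autoImplicit false

namespace Vale.Agent.P254

open MeasureTheory Set
open scoped Matrix

namespace UINV

variable {ι κ : Type} [Fintype ι] [DecidableEq ι] [Fintype κ] [DecidableEq κ]

theorem chg (T : (ι → ℝ) ≃ᵃ[ℝ] (κ → ℝ)) (K : Set (ι → ℝ)) (hK : MeasurableSet K) :
    ∃ c : ℝ, 0 < c ∧ ∀ f : (κ → ℝ) → ℝ, ∫ y in T '' K, f y = c * ∫ x in K, f (T x) := by
  have hcard : Fintype.card ι = Fintype.card κ := by
    have := T.linear.finrank_eq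
    simpa using this
  let e : ι ≃ κ := Fintype.equivOfCardEq hcard
  let R : (ι → ℝ) ≃ᵃ[ℝ] (κ → ℝ) := (LinearEquiv.funCongrLeft ℝ ℝ e.symm).toAffineEquiv
  have hR : (R : (ι → ℝ) → (κ → ℝ)) = fun x k => x (e.symm k) := rfl
  let S : (κ → ℝ) ≃ᵃ[ℝ] (κ → ℝ) := R.symm.trans T
  have h1 : T '' K = S '' (R '' K) := by
    rw [image_image]
    refine image_congr fun x _ => ?_
    simp [S]
  have hRm : MeasurableSet (R '' K) := by
    rw [hR]
    exact (AFF.emb e).measurableSet_image.2 hK
  refine ⟨|LinearMap.det (S.linear : (κ → ℝ) →ₗ[ℝ] (κ → ℝ))|, ?_, ?_⟩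
  · exact abs_pos.2 (LinearEquiv.isUnit_det' S.linear).ne_zero
  · intro f
    rw [h1, AFF.integral_image S hRm f]
    congr 1
    have h2 : ∫ y in R '' K, f (S y) = ∫ x in K, f (S (R x)) :=
      (AFF.mp e).setIntegral_image_emb (AFF.emb e) (fun y => f (S y)) K
    rw [h2]
    congr 1
    funext x
    simp [S]

end UINV

open UINV in
theorem uinv : S_POS → S_UINV := by
  intro hPOS ι κ _ _ _ _ K T hK
  obtain ⟨hv, hpd, -⟩ := hPOS ι K hK
  obtain ⟨c, hc, hch⟩ := chg T.toAffineEquiv K hK.compact.measurableSet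
  have hcoe : ((T.toAffineEquiv : (ι → ℝ) ≃ᵃ[ℝ] (κ → ℝ)) : (ι → ℝ) → (κ → ℝ)) = T := rfl
  rw [hcoe] at hch
  have hvol : vol (T '' K) = c * vol K := by
    have h1 := hch (fun _ => (1 : ℝ))
    simp only [integral_const, smul_eq_mul, mul_one, MeasurableSet.univ,
      measureReal_restrict_apply, univ_inter] at h1
    exact h1
  set M : Matrix κ ι ℝ := LinearMap.toMatrix' (T : (ι → ℝ) →ₗ[ℝ] (κ → ℝ)) with hM
  set N : Matrix ι κ ℝ := LinearMap.toMatrix' (T.symm : (κ → ℝ) →ₗ[ℝ] (ι → ℝ)) with hN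
  have hMN : M * N = 1 := by
    rw [hM, hN, ← LinearMap.toMatrix'_comp]
    simp
  have hNM : N * M = 1 := by
    rw [hM, hN, ← LinearMap.toMatrix'_comp]
    simp
  have hMx : ∀ x : ι → ℝ, ∀ i, T x i = ∑ k, M i k * x k := by
    intro x i
    have : M *ᵥ x = T x := by
      rw [hM]
      exact LinearMap.toMatrix'_mulVec _ _
    rw [← this]
    rfl
  have hint : ∀ k, IntegrableOn (fun x : ι → ℝ => x k) K :=
    fun k => AFF.integ hK (continuous_apply k)
  have hmean : ∀ i, mean (T '' K) i = ∑ k, M i k * mean K k := by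
    intro i
    have h0 : mean (T '' K) i = (c * ∫ x in K, T x i) / (c * vol K) := by
      unfold mean
      rw [hch, hvol]
    have h3 : (∫ x in K, T x i) = ∑ k, M i k * (∫ x in K, x k) := by
      simp_rw [hMx]
      rw [integral_finsetSum]
      · simp only [integral_const_mul]
      · intro k _
        exact (hint k).const_mul _
    rw [h0, h3, mul_div_mul_left _ _ hc.ne', Finset.sum_div]
    refine Finset.sum_congr rfl fun k _ => ?_
    unfold mean
    rw [mul_div_assoc]
  have hmean' : mean (T '' K) = M *ᵥ mean K := by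
    funext i
    rw [hmean]
    rfl
  have hcov : cov (T '' K) = M * cov K * Mᵀ := by
    ext i j
    have h0 : cov (T '' K) i j = (c * ∫ x in K, (T x i - mean (T '' K) i) *
        (T x j - mean (T '' K) j)) / (c * vol K) := by
      unfold cov
      rw [hch, hvol]
    have h1 : ∀ x : ι → ℝ, ∀ i, T x i - mean (T '' K) i = ∑ k, M i k * (x k - mean K k) := by
      intro x i
      rw [hmean, hMx, ← Finset.sum_sub_distrib]
      refine Finset.sum_congr rfl fun k _ => by ring
    have h2 : (∫ x in K, (T x i - mean (T '' K) i) * (T x j - mean (T '' K) j))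
        = ∫ x in K, ∑ k, ∑ l, M i k * M j l * ((x k - mean K k) * (x l - mean K l)) := by
      congr 1
      funext x
      rw [h1 x i, h1 x j, Finset.sum_mul_sum]
      refine Finset.sum_congr rfl fun k _ => Finset.sum_congr rfl fun l _ => by ring
    have hc' : ∀ k l, Continuous fun x : ι → ℝ => (x k - mean K k) * (x l - mean K l) :=
      fun k l => ((continuous_apply k).sub continuous_const).mul
        ((continuous_apply l).sub continuous_const)
    have h3 : (∫ x in K, ∑ k, ∑ l, M i k * M j l * ((x k - mean K k) * (x l - mean K l)))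
        = ∑ k, ∑ l, M i k * M j l * ∫ x in K, (x k - mean K k) * (x l - mean K l) := by
      rw [integral_finsetSum]
      · refine Finset.sum_congr rfl fun k _ => ?_
        rw [integral_finsetSum]
        · refine Finset.sum_congr rfl fun l _ => ?_
          rw [integral_const_mul]
        · intro l _
          exact (AFF.integ hK (hc' k l)).const_mul _
      · intro k _
        exact integrable_finsetSum _ fun l _ => (AFF.integ hK (hc' k l)).const_mul _
    rw [h0, h2, h3, mul_div_mul_left _ _ hc.ne', Finset.sum_div]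
    simp only [Matrix.mul_apply, Matrix.transpose_apply]
    simp only [Finset.sum_div, Finset.sum_mul]
    rw [Finset.sum_comm]
    refine Finset.sum_congr rfl fun k _ => Finset.sum_congr rfl fun l _ => ?_
    unfold cov
    ring
  have hdet : IsUnit (cov K).det := (Matrix.isUnit_iff_isUnit_det _).1 hpd.isUnit
  have hinv : (M * cov K * Mᵀ)⁻¹ = Nᵀ * (cov K)⁻¹ * N := by
    apply Matrix.inv_eq_right_inv
    calc M * cov K * Mᵀ * (Nᵀ * (cov K)⁻¹ * N)
        = M * cov K * (Mᵀ * Nᵀ) * (cov K)⁻¹ * N := by simp only [Matrix.mul_assoc]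
      _ = M * cov K * (cov K)⁻¹ * N := by
          rw [← Matrix.transpose_mul, hNM, Matrix.transpose_one, Matrix.mul_one]
      _ = M * (cov K * (cov K)⁻¹) * N := by simp only [Matrix.mul_assoc]
      _ = 1 := by rw [Matrix.mul_nonsing_inv _ hdet, Matrix.mul_one, hMN]
  unfold u
  rw [hcov, hmean', hinv]
  have e1 : (Nᵀ * (cov K)⁻¹ * N) *ᵥ (M *ᵥ mean K) = Nᵀ *ᵥ ((cov K)⁻¹ *ᵥ mean K) := by
    rw [Matrix.mulVec_mulVec, Matrix.mul_assoc, hNM, Matrix.mul_one, ← Matrix.mulVec_mulVec]
  rw [e1, Matrix.dotProduct_mulVec, Matrix.vecMul_transpose, Matrix.mulVec_mulVec, hNM,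
    Matrix.one_mulVec]

end Vale.Agent.P254
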