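import Vale.Agent.P254.Defs2
import Vale.Agent.P254.Aff

set_option autoImplicit false

namespace Vale.Agent.P254

open MeasureTheory Set
open scoped Matrix

namespace UTR

variable {ι : Type} [Fintype ι]

theorem chg (z : ι → ℝ) (K : Set (ι → ℝ)) (f : (ι → ℝ) → ℝ) :
    ∫ y in (fun x => x - z) '' K, f y = ∫ x in K, f (x - z) :=
  (measurePreserving_sub_right (volume : Measure (ι → ℝ)) z).setIntegral_image_emb
    (measurableEmbedding_subRight z) f K

theorem vol_eq (z : ι → ℝ) (K : Set (ι → ℝ)) : vol ((fun x => x - z) '' K) = vol K := by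
  have h1 := chg z K (fun _ => (1 : ℝ))
  simp only [integral_const, smul_eq_mul, mul_one, MeasurableSet.univ,
    measureReal_restrict_apply, univ_inter] at h1
  exact h1

end UTR

open UTR in
theorem utr : S_UTR := by
  intro ι _ _ K z hK
  have hv := AFF.vol_pos hK
  have hmean : mean ((fun x => x - z) '' K) = mean K - z := by
    funext i
    rw [Pi.sub_apply]
    unfold mean
    rw [chg z K (fun y => y i), vol_eq]
    have h1 : ∫ x in K, (x - z) i = (∫ x in K, x i) - vol K * z i := by
      simp only [Pi.sub_apply]
      rw [integral_sub (AFF.integ hK (continuous_apply i)) (AFF.integ hK continuous_const)]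
      congr 1
      rw [integral_const]
      simp [vol, Measure.real]
    rw [h1]
    field_simp
  refine ⟨hmean, ?_⟩
  ext i j
  unfold cov
  rw [chg z K (fun y => (y i - mean ((fun x => x - z) '' K) i) *
    (y j - mean ((fun x => x - z) '' K) j)), vol_eq, hmean]
  congr 2
  funext x
  simp only [Pi.sub_apply]
  ring

end Vale.Agent.P254
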