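import Vale.Agent.P254.All
import Vale.Agent.P254.Final2
import Vale.Agent.P254.Pyr
import Vale.Agent.P254.Num2
import Vale.Agent.P254.Simps
import Vale.Agent.P254.Uinv
import Vale.Agent.P254.Utr
import Vale.Agent.P254.Eqc

/-!
# P254: assembly of the second part
-/

set_option autoImplicit false

namespace Vale.Agent.P254

open MeasureTheory Set

theorem all_star : S_STAR := star_ pos

theorem all_prd : S_PRD := prd' pos

theorem all_seg : S_SEG := seg aff all_corn

theorem all_eqc : S_EQC := eqc (uinv pos) all_corn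

theorem all_swap : S_SWAP := swap simps_

theorem all_pyr : S_PYR := pyr pos body aff all_star int_ all_fs all_corn num utr

theorem isSimplex_of_Simp {n : ℕ} {K : Set (Fin n → ℝ)} (h : Simp K) : IsSimplex K :=
  (simp_ n K).2 h

theorem simp_of_isSimplex {n : ℕ} {K : Set (Fin n → ℝ)} (h : IsSimplex K) : Simp K :=
  (simp_ n K).1 h

/-- the equality case for generated bodies -/
theorem all_gen {n : ℕ} {K : Set (Fin n → ℝ)} (h : Gen (Fin n) K) (S : Set (Fin n → ℝ))
    (hS : IsSimplex S) : iso K ≤ iso S ∧ (iso K = iso S → IsSimplex K) := by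
  obtain ⟨h1, h2, h3⟩ := FinX.gen pos body aff all_star all_fs all_prd num all_seg h
  have hn : 1 ≤ n := by
    obtain ⟨i⟩ := h1
    have := i.2
    omega
  refine ⟨(all_final.2.2.1 n K h).2 S hS, fun e => ?_⟩
  apply isSimplex_of_Simp
  apply Fin2X.gen_eq pos body aff all_star all_fs all_prd num all_seg all_eqc all_swap simps_ h
  rw [Fintype.card_fin]
  apply Fin2X.iso_lt_iff pos hn h2 (num.1 n)
  rw [e]
  unfold iso
  rw [all_final.2.1 n S hS]

/-- closure of the strong form under free sums -/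
theorem all_closure {a b : ℕ} (ha : 1 ≤ a) (hb : 1 ≤ b) {K : Set (Fin a → ℝ)}
    {L : Set (Fin b → ℝ)} (hK : Body K) (hL : Body L) (h0 : 0 ∈ K) (h0' : 0 ∈ L)
    (hA : A K ≤ D a) (hB : A L ≤ D b) (hA' : A K = D a → IsSimplex K)
    (hB' : A L = D b → IsSimplex L) (h : A (fsum K L) = D (a + b))
    (T : (Fin a ⊕ Fin b → ℝ) ≃ᵃ[ℝ] (Fin (a + b) → ℝ)) : IsSimplex (T '' fsum K L) := by
  have : Nonempty (Fin a) := ⟨⟨0, ha⟩⟩
  have : Nonempty (Fin b) := ⟨⟨0, hb⟩⟩
  apply isSimplex_of_Simp
  apply simps_.1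
  apply Fin2X.clos_eq pos all_star all_fs num all_eqc all_swap hK hL h0 h0'
  · simpa using hA
  · simpa using hB
  · intro e
    exact simp_of_isSimplex (hA' (by simpa using e))
  · intro e
    exact simp_of_isSimplex (hB' (by simpa using e))
  · simpa using h

/-- the conjecture passes to lower dimensions -/
theorem all_down {n : ℕ} (hn : 1 ≤ n)
    (H : ∀ K S : Set (Fin (n + 1) → ℝ), Body K → IsSimplex S → iso K ≤ iso S)
    (K S : Set (Fin n → ℝ)) (hK : Body K) (hS : IsSimplex S) : iso K ≤ iso S := by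
  obtain ⟨K', hK', -, hA'⟩ := RedX.step all_pyr aff hn (Fin2X.trans0 aff hK)
  have h1 := H K' _ hK' (Fin2X.exSimplex simp_ (n + 1))
  have h2 : A K' ≤ D (n + 1) := by
    have h0 : 0 ≤ iso K' := Real.rpow_nonneg (FinX.A_pos pos hK').le _
    have h3 := pow_le_pow_left₀ h0 h1 (2 * (n + 1))
    have hB : Body (corner (Fin (n + 1))) := (all_corn (Fin (n + 1))).1
    rw [show iso K' ^ (2 * (n + 1)) = A K' from RedX.iso_pow pos (by omega) hK',
      RedX.iso_pow pos (by omega) hB, all_final.2.1 _ _ (Fin2X.exSimplex simp_ (n + 1))] at h3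
    exact h3
  have h4 : A K ≤ D n := by
    rw [← div_le_one (num.1 _), hA', div_le_one (num.1 _)] at h2
    exact h2
  unfold iso
  rw [all_final.2.1 n S hS]
  exact Real.rpow_le_rpow (FinX.A_pos pos hK).le h4 (by positivity)

end Vale.Agent.P254
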