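import Vale.Agent.P254.Defs

/-!
# P254, CORN: Dirichlet's integral over the corner simplex
-/

set_option autoImplicit false

namespace Vale.Agent.P254

open MeasureTheory Set
open scoped ENNReal

namespace Corn

variable {ι : Type} [Fintype ι]

/-- one variable -/
noncomputable def phi (k : ℕ) : ℝ → ℝ := indicator (Ici 0) (fun t => t ^ k * Real.exp (-t))

theorem gamma_int (k : ℕ) : IntegrableOn (fun t : ℝ => t ^ k * Real.exp (-t)) (Ioi 0) ∧
    ∫ t in Ioi (0 : ℝ), t ^ k * Real.exp (-t) = k.factorial := by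
  have h0 : (0 : ℝ) < (k : ℝ) + 1 := by positivity
  have h1 := Real.GammaIntegral_convergent h0
  have h2 := Real.Gamma_eq_integral h0
  have h3 : ∀ t : ℝ, Real.exp (-t) * t ^ ((k : ℝ) + 1 - 1) = t ^ k * Real.exp (-t) := by
    intro t
    rw [add_sub_cancel_right, Real.rpow_natCast, mul_comm]
  simp only [h3] at h1 h2
  rw [Real.Gamma_nat_eq_factorial] at h2
  exact ⟨h1, h2.symm⟩

theorem phi_integrable (k : ℕ) : Integrable (phi k) := by
  rw [phi, integrable_indicator_iff measurableSet_Ici, integrableOn_Ici_iff_integrableOn_Ioi]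
  exact (gamma_int k).1

theorem phi_integral (k : ℕ) : ∫ t, phi k t = k.factorial := by
  rw [phi, integral_indicator measurableSet_Ici, integral_Ici_eq_integral_Ioi]
  exact (gamma_int k).2

/-- the monomial on the positive orthant -/
noncomputable def g (k : ι → ℕ) : (ι → ℝ) → ℝ :=
  indicator {x | ∀ i, 0 ≤ x i} (fun x => ∏ i, x i ^ k i)

theorem meas_orth : MeasurableSet {x : ι → ℝ | ∀ i, 0 ≤ x i} := by
  rw [Set.ofPred_forall]
  exact MeasurableSet.iInter fun i => measurableSet_le measurable_const (measurable_pi_apply i)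

theorem g_meas (k : ι → ℕ) : Measurable (g k) := by
  refine Measurable.indicator ?_ meas_orth
  exact Finset.measurable_fun_prod _ fun i _ => (measurable_pi_apply i).pow_const _

theorem g_nonneg (k : ι → ℕ) (x : ι → ℝ) : 0 ≤ g k x := by
  refine indicator_nonneg (fun y hy => ?_) x
  exact Finset.prod_nonneg fun i _ => pow_nonneg (hy i) _

theorem prod_phi (k : ι → ℕ) (x : ι → ℝ) :
    ∏ i, phi (k i) (x i) = g k x * Real.exp (-∑ i, x i) := by
  by_cases hx : ∀ i, 0 ≤ x i
  · have h1 : g k x = ∏ i, x i ^ k i := indicator_of_mem (s := {x : ι → ℝ | ∀ i, 0 ≤ x i}) hx _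
    rw [h1, ← Finset.sum_neg_distrib, Real.exp_sum, ← Finset.prod_mul_distrib]
    refine Finset.prod_congr rfl fun i _ => ?_
    exact indicator_of_mem (s := Ici (0 : ℝ)) (hx i) _
  · have h1 : g k x = 0 := indicator_of_notMem (s := {x : ι → ℝ | ∀ i, 0 ≤ x i}) hx _
    rw [h1, zero_mul]
    push Not at hx
    obtain ⟨i, hi⟩ := hx
    refine Finset.prod_eq_zero (Finset.mem_univ i) ?_
    exact indicator_of_notMem (s := Ici (0 : ℝ)) (not_le.mpr hi) _

theorem lint_total (k : ι → ℕ) :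
    ∫⁻ x : ι → ℝ, ENNReal.ofReal (g k x * Real.exp (-∑ i, x i)) =
      ENNReal.ofReal (∏ i, ((k i).factorial : ℝ)) := by
  have h1 : Integrable (fun x : ι → ℝ => ∏ i, phi (k i) (x i)) :=
    Integrable.fintype_prod (μ := fun _ => volume) fun i => phi_integrable (k i)
  have h2 : ∫ x : ι → ℝ, ∏ i, phi (k i) (x i) = ∏ i, ((k i).factorial : ℝ) := by
    rw [integral_fintype_prod_volume_eq_prod]
    exact Finset.prod_congr rfl fun i _ => phi_integral (k i)
  rw [← h2, ofReal_integral_eq_lintegral_ofReal h1]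
  · refine lintegral_congr fun x => ?_
    rw [prod_phi]
  · refine Filter.Eventually.of_forall fun x => ?_
    show (0 : ℝ) ≤ ∏ i, phi (k i) (x i)
    rw [prod_phi]
    exact mul_nonneg (g_nonneg k x) (Real.exp_pos _).le

theorem exp_lint (s : ℝ) : ENNReal.ofReal (Real.exp (-s)) =
    ∫⁻ t in Ici s, ENNReal.ofReal (Real.exp (-t)) := by
  rw [setLIntegral_congr Ioi_ae_eq_Ici.symm,
    ← ofReal_integral_eq_lintegral_ofReal (integrableOn_exp_neg_Ioi s), integral_exp_neg_Ioi]
  exact Filter.Eventually.of_forall fun t => (Real.exp_pos _).le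

/-- the truncated monomial -/
noncomputable def Hs (k : ι → ℕ) (t : ℝ) : (ι → ℝ) → ℝ≥0∞ :=
  indicator {x | ∑ i, x i ≤ t} (fun x => ENNReal.ofReal (g k x))

theorem meas_sum (t : ℝ) : MeasurableSet {x : ι → ℝ | ∑ i, x i ≤ t} :=
  measurableSet_le (Finset.measurable_fun_sum _ fun i _ => measurable_pi_apply i)
    measurable_const

theorem Hs_meas (k : ι → ℕ) (t : ℝ) : Measurable (Hs k t) :=
  ((g_meas k).ennreal_ofReal).indicator (meas_sum t)

theorem g_smul (k : ι → ℕ) (t : ℝ) (ht : 0 < t) (x : ι → ℝ) :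
    g k (t • x) = t ^ (∑ i, k i) * g k x := by
  by_cases hx : ∀ i, 0 ≤ x i
  · have h1 : g k x = ∏ i, x i ^ k i := indicator_of_mem (s := {x : ι → ℝ | ∀ i, 0 ≤ x i}) hx _
    have h2 : g k (t • x) = ∏ i, (t • x) i ^ k i :=
      indicator_of_mem (s := {x : ι → ℝ | ∀ i, 0 ≤ x i})
        (fun i => mul_nonneg ht.le (hx i)) _
    rw [h1, h2]
    simp only [Pi.smul_apply, smul_eq_mul, mul_pow]
    rw [Finset.prod_mul_distrib, Finset.prod_pow_eq_pow_sum]
  · have h1 : g k x = 0 := indicator_of_notMem (s := {x : ι → ℝ | ∀ i, 0 ≤ x i}) hx _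
    have h2 : g k (t • x) = 0 := by
      refine indicator_of_notMem (s := {x : ι → ℝ | ∀ i, 0 ≤ x i}) (fun h => hx fun i => ?_) _
      exact nonneg_of_mul_nonneg_right (h i) ht
    rw [h1, h2, mul_zero]

theorem Hs_smul (k : ι → ℕ) (t : ℝ) (ht : 0 < t) (x : ι → ℝ) :
    Hs k t (t • x) = ENNReal.ofReal (t ^ (∑ i, k i)) * Hs k 1 x := by
  have h0 : (∑ i, (t • x) i ≤ t) ↔ (∑ i, x i ≤ 1) := by
    simp only [Pi.smul_apply, smul_eq_mul, ← Finset.mul_sum]
    constructor
    · intro h
      have : t * ∑ i, x i ≤ t * 1 := by linarith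
      exact le_of_mul_le_mul_left this ht
    · intro h
      nlinarith
  by_cases h : ∑ i, x i ≤ 1
  · have h1 : Hs k 1 x = ENNReal.ofReal (g k x) :=
      indicator_of_mem (s := {x : ι → ℝ | ∑ i, x i ≤ 1}) h _
    have h2 : Hs k t (t • x) = ENNReal.ofReal (g k (t • x)) :=
      indicator_of_mem (s := {x : ι → ℝ | ∑ i, x i ≤ t}) (h0.mpr h) _
    rw [h1, h2, g_smul k t ht, ENNReal.ofReal_mul (by positivity)]
  · have h1 : Hs k 1 x = 0 :=
      indicator_of_notMem (s := {x : ι → ℝ | ∑ i, x i ≤ 1}) h _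
    have h2 : Hs k t (t • x) = 0 :=
      indicator_of_notMem (s := {x : ι → ℝ | ∑ i, x i ≤ t}) (fun h' => h (h0.mp h')) _
    rw [h1, h2, mul_zero]

theorem Hs_scale (k : ι → ℕ) (t : ℝ) (ht : 0 < t) :
    ∫⁻ x, Hs k t x = ENNReal.ofReal (t ^ (Fintype.card ι + ∑ i, k i)) * ∫⁻ x, Hs k 1 x := by
  have h1 : ∫⁻ x, Hs k t (t • x) = ENNReal.ofReal (t ^ Fintype.card ι)⁻¹ * ∫⁻ x, Hs k t x := by
    have h2 := Measure.map_addHaar_smul (volume : Measure (ι → ℝ)) ht.ne'
    rw [← lintegral_map (Hs_meas k t) (measurable_const_smul t), h2, lintegral_smul_measure,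
      Module.finrank_fintype_fun_eq_card, abs_of_pos (by positivity), smul_eq_mul]
  have h3 : ∫⁻ x, Hs k t (t • x) = ENNReal.ofReal (t ^ (∑ i, k i)) * ∫⁻ x, Hs k 1 x := by
    rw [← lintegral_const_mul _ (Hs_meas k 1)]
    exact lintegral_congr fun x => Hs_smul k t ht x
  have h4 : ENNReal.ofReal (t ^ Fintype.card ι) *
      (ENNReal.ofReal (t ^ Fintype.card ι)⁻¹ * ∫⁻ x, Hs k t x) = ∫⁻ x, Hs k t x := by
    rw [← mul_assoc, ← ENNReal.ofReal_mul (by positivity),
      mul_inv_cancel₀ (by positivity), ENNReal.ofReal_one, one_mul]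
  rw [← h4, ← h1, h3, ← mul_assoc, ← ENNReal.ofReal_mul (by positivity), ← pow_add]

theorem Hs_nonpos (k : ι → ℕ) (t : ℝ) (ht : t < 0) (x : ι → ℝ) : Hs k t x = 0 := by
  by_cases h : ∑ i, x i ≤ t
  · have h2 : Hs k t x = ENNReal.ofReal (g k x) :=
      indicator_of_mem (s := {x : ι → ℝ | ∑ i, x i ≤ t}) h _
    rw [h2]
    have h1 : g k x = 0 := by
      refine indicator_of_notMem (s := {x : ι → ℝ | ∀ i, 0 ≤ x i}) (fun h' => ?_) _
      have := Finset.sum_nonneg fun i (_ : i ∈ Finset.univ) => h' i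
      linarith
    rw [h1, ENNReal.ofReal_zero]
  · exact indicator_of_notMem (s := {x : ι → ℝ | ∑ i, x i ≤ t}) h _

theorem key (k : ι → ℕ) :
    ENNReal.ofReal ((Fintype.card ι + ∑ i, k i).factorial : ℝ) * ∫⁻ x, Hs k 1 x =
      ENNReal.ofReal (∏ i, ((k i).factorial : ℝ)) := by
  rw [← lint_total k]
  have h1 : ∀ x : ι → ℝ, ENNReal.ofReal (g k x * Real.exp (-∑ i, x i)) =
      ∫⁻ t : ℝ, ENNReal.ofReal (Real.exp (-t)) * Hs k t x := by
    intro x
    rw [ENNReal.ofReal_mul (g_nonneg k x), exp_lint, ← lintegral_indicator measurableSet_Ici,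
      ← lintegral_const_mul]
    · refine lintegral_congr fun t => ?_
      by_cases h : ∑ i, x i ≤ t
      · have h2 : Hs k t x = ENNReal.ofReal (g k x) :=
          indicator_of_mem (s := {x : ι → ℝ | ∑ i, x i ≤ t}) h _
        rw [h2, indicator_of_mem (show t ∈ Ici (∑ i, x i) from h), mul_comm]
      · have h2 : Hs k t x = 0 :=
          indicator_of_notMem (s := {x : ι → ℝ | ∑ i, x i ≤ t}) h _
        rw [h2, indicator_of_notMem (show t ∉ Ici (∑ i, x i) from h), mul_zero, mul_zero]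
    · exact (Measurable.ennreal_ofReal (by fun_prop)).indicator measurableSet_Ici
  simp only [h1]
  have hm : Measurable (Function.uncurry fun (x : ι → ℝ) (t : ℝ) =>
      ENNReal.ofReal (Real.exp (-t)) * Hs k t x) := by
    have h2 : (Function.uncurry fun (x : ι → ℝ) (t : ℝ) =>
        ENNReal.ofReal (Real.exp (-t)) * Hs k t x) = fun q : (ι → ℝ) × ℝ =>
        ENNReal.ofReal (Real.exp (-q.2)) *
          indicator {q : (ι → ℝ) × ℝ | ∑ i, q.1 i ≤ q.2}
            (fun q => ENNReal.ofReal (g k q.1)) q := by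
      funext q
      obtain ⟨x, t⟩ := q
      simp only [Function.uncurry_apply_pair, Hs, indicator_apply, mem_ofPred_eq]
    rw [h2]
    refine Measurable.mul (Measurable.ennreal_ofReal (by fun_prop)) ?_
    refine Measurable.indicator ((g_meas k).comp measurable_fst).ennreal_ofReal ?_
    refine measurableSet_le ?_ measurable_snd
    exact Finset.measurable_fun_sum _ fun i _ => (measurable_pi_apply i).comp measurable_fst
  rw [lintegral_lintegral_swap hm.aemeasurable]
  have h3 : ∀ t : ℝ, ∫⁻ x : ι → ℝ, ENNReal.ofReal (Real.exp (-t)) * Hs k t x =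
      ENNReal.ofReal (Real.exp (-t)) * ∫⁻ x, Hs k t x := fun t =>
    lintegral_const_mul _ (Hs_meas k t)
  simp only [h3]
  have h4 : (fun t : ℝ => ENNReal.ofReal (Real.exp (-t)) * ∫⁻ x, Hs k t x) =ᵐ[volume]
      indicator (Ioi 0) (fun t : ℝ => ENNReal.ofReal
        (t ^ (Fintype.card ι + ∑ i, k i) * Real.exp (-t)) * ∫⁻ x, Hs k 1 x) := by
    have h5 : ∀ᵐ t : ℝ, t ≠ 0 := by
      rw [ae_iff]
      simp
    filter_upwards [h5] with t ht
    rcases lt_or_gt_of_ne ht with h | h
    · rw [indicator_of_notMem (show t ∉ Ioi (0 : ℝ) from not_lt.mpr h.le)]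
      have h6 : ∫⁻ x, Hs k t x = 0 := by
        rw [lintegral_congr fun x => Hs_nonpos k t h x]
        simp
      rw [h6, mul_zero]
    · rw [indicator_of_mem (show t ∈ Ioi (0 : ℝ) from h), Hs_scale k t h, ← mul_assoc,
        ← ENNReal.ofReal_mul (Real.exp_pos _).le, mul_comm (Real.exp (-t))]
  rw [lintegral_congr_ae h4, lintegral_indicator measurableSet_Ioi, lintegral_mul_const]
  · congr 1
    obtain ⟨h6, h7⟩ := gamma_int (Fintype.card ι + ∑ i, k i)
    rw [← h7, ofReal_integral_eq_lintegral_ofReal h6]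
    filter_upwards [self_mem_ae_restrict measurableSet_Ioi] with t ht
    have ht' : 0 < t := ht
    positivity
  · exact Measurable.ennreal_ofReal (by fun_prop)

/-- Dirichlet's integral -/
theorem dirichlet (k : ι → ℕ) :
    ∫ x in corner ι, ∏ i, x i ^ k i =
      (∏ i, ((k i).factorial : ℝ)) / ((Fintype.card ι + ∑ i, k i).factorial : ℝ) := by
  have hc : corner ι = {x | ∀ i, 0 ≤ x i} ∩ {x | ∑ i, x i ≤ 1} := by
    ext x; simp [corner]
  have hmc : MeasurableSet (corner ι) := by
    rw [hc]; exact meas_orth.inter (meas_sum 1)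
  have hm : Measurable (fun x : ι → ℝ => ∏ i, x i ^ k i) :=
    Finset.measurable_fun_prod _ fun i _ => (measurable_pi_apply i).pow_const _
  rw [integral_eq_lintegral_of_nonneg_ae ?_ hm.aestronglyMeasurable]
  · have h1 : ∫⁻ x in corner ι, ENNReal.ofReal (∏ i, x i ^ k i) = ∫⁻ x, Hs k 1 x := by
      rw [← lintegral_indicator hmc]
      refine lintegral_congr fun x => ?_
      rw [hc]
      simp only [Hs, g, indicator_apply, mem_inter_iff, mem_ofPred_eq]
      by_cases h : ∑ i, x i ≤ 1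
      · by_cases h' : ∀ i, 0 ≤ x i
        · simp [h, h']
        · simp [h']
      · simp [h]
    rw [h1]
    have h2 := key k
    have hf : (0 : ℝ) < ((Fintype.card ι + ∑ i, k i).factorial : ℝ) := by
      exact_mod_cast Nat.factorial_pos _
    have h3 := congrArg ENNReal.toReal h2
    rw [ENNReal.toReal_mul, ENNReal.toReal_ofReal hf.le, ENNReal.toReal_ofReal] at h3
    · rw [eq_div_iff hf.ne', mul_comm]
      exact h3
    · exact Finset.prod_nonneg fun i _ => by positivity
  · filter_upwards [self_mem_ae_restrict hmc] with x hx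
    exact Finset.prod_nonneg fun i _ => pow_nonneg (hx.1 i) _

end Corn

end Vale.Agent.P254
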