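import Vale.Agent.P254.Defs

/-!
# P254, second part: module statements for the equality case and the dimension-free reduction
-/

set_option autoImplicit false

namespace Vale.Agent.P254

open MeasureTheory Set
open scoped Matrix

/-- simplices over an arbitrary index type: affine images of the corner simplex -/
def Simp {ι : Type} [Fintype ι] (S : Set (ι → ℝ)) : Prop :=
  ∃ T : (ι → ℝ) ≃ᵃ[ℝ] (ι → ℝ), S = T '' corner ι

/-- UINV: linear invariance of `u` -/
def S_UINV : Prop := ∀ (ι κ : Type) [Fintype ι] [DecidableEq ι] [Fintype κ] [DecidableEq κ]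
  (K : Set (ι → ℝ)) (T : (ι → ℝ) ≃ₗ[ℝ] (κ → ℝ)), Body K → u (T '' K) = u K

/-- UTR: mean and covariance of translates -/
def S_UTR : Prop := ∀ (ι : Type) [Fintype ι] [DecidableEq ι] (K : Set (ι → ℝ)) (z : ι → ℝ),
  Body K → mean ((fun x => x - z) '' K) = mean K - z ∧ cov ((fun x => x - z) '' K) = cov K

/-- SIMPS: affine images of simplices are simplices; one-dimensional bodies are simplices. -/
def S_SIMPS : Prop :=
  (∀ (ι κ : Type) [Fintype ι] [Fintype κ] (S : Set (ι → ℝ)) (T : (ι → ℝ) ≃ᵃ[ℝ] (κ → ℝ)),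
    Simp S → Simp (T '' S)) ∧
  (∀ K : Set (Unit → ℝ), Body K → Simp K)

/-- SWAP -/
def S_SWAP : Prop := ∀ (ι κ : Type) [Fintype ι] [Fintype κ] (K : Set (ι → ℝ)) (L : Set (κ → ℝ)),
  Simp (fsum K L) → Simp (fsum L K)

/-- EQC: a free sum of simplices about a common point that is a vertex of the first one is a
simplex (`u K = a (a + 2)` says that `0` is a vertex of the simplex `K`). -/
def S_EQC : Prop := ∀ (ι κ : Type) [Fintype ι] [DecidableEq ι] [Fintype κ] [DecidableEq κ]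
  [Nonempty ι] [Nonempty κ] (K : Set (ι → ℝ)) (L : Set (κ → ℝ)), Simp K → Simp L → 0 ∈ K →
  0 ∈ L → u K = (Fintype.card ι : ℝ) * (Fintype.card ι + 2) → Simp (fsum K L)

/-- PYR: the pyramid over `K` with apex at the origin. -/
def S_PYR : Prop := ∀ (ι : Type) [Fintype ι] [DecidableEq ι] [Nonempty ι] (K : Set (ι → ℝ)),
  Body K → 0 ∈ K → ∃ P : Set (ι ⊕ Unit → ℝ), Body P ∧ 0 ∈ P ∧
    A P / D (Fintype.card ι + 1) = A K / D (Fintype.card ι) ∧
    u P = ((Fintype.card ι : ℝ) + 1) * ((Fintype.card ι : ℝ) + 3)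

/-- NUM2 -/
def S_NUM2 : Prop := ∀ n : ℕ, 1 ≤ n → D n ≤ Real.exp (-2 * (n : ℝ)) ∧
  Real.exp (-2 * (n : ℝ)) ≤ 21 * ((n : ℝ) + 1) * D n

end Vale.Agent.P254
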