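import Vale.Agent.P254.Defs

/-! # P254, POS -/

set_option autoImplicit false

namespace Vale.Agent.P254

open MeasureTheory Set
open scoped Matrix

namespace Pos

variable {ι : Type} [Fintype ι]

theorem vol_pos {K : Set (ι → ℝ)} (hK : Body K) : 0 < vol K := by
  refine ENNReal.toReal_pos ?_ hK.compact.measure_lt_top.ne
  have h1 : 0 < volume (interior K) := isOpen_interior.measure_pos volume hK.interior
  exact (h1.trans_le (measure_mono interior_subset)).ne'

theorem intOn {K : Set (ι → ℝ)} (hK : Body K) {f : (ι → ℝ) → ℝ} (hf : Continuous f) :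
    IntegrableOn f K := hf.continuousOn.integrableOn_compact hK.compact

theorem int_coord {K : Set (ι → ℝ)} (hK : Body K) (i : ι) :
    ∫ x in K, x i = mean K i * vol K := by
  unfold mean
  rw [div_mul_cancel₀ _ (vol_pos hK).ne']

theorem int_const {K : Set (ι → ℝ)} (c : ℝ) : ∫ _ in K, c = c * vol K := by
  rw [setIntegral_const, smul_eq_mul, mul_comm]
  rfl

theorem cov_eq {K : Set (ι → ℝ)} (hK : Body K) (i j : ι) :
    cov K i j = (∫ x in K, x i * x j) / vol K - mean K i * mean K j := by
  have hv := (vol_pos hK).ne'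
  have h1 : ∫ x in K, (x i - mean K i) * (x j - mean K j) =
      (∫ x in K, x i * x j) - mean K i * mean K j * vol K := by
    have e : ∀ x : ι → ℝ, (x i - mean K i) * (x j - mean K j) =
        x i * x j - (mean K j * x i + mean K i * x j - mean K i * mean K j) := by
      intro x; ring
    simp only [e]
    have i1 : IntegrableOn (fun x : ι → ℝ => x i * x j) K := intOn hK (by fun_prop)
    have i2 : IntegrableOn (fun x : ι → ℝ => mean K j * x i) K := intOn hK (by fun_prop)
    have i3 : IntegrableOn (fun x : ι → ℝ => mean K i * x j) K := intOn hK (by fun_prop)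
    have i4 : IntegrableOn (fun _ : ι → ℝ => mean K i * mean K j) K := intOn hK (by fun_prop)
    have i5 : IntegrableOn (fun x : ι → ℝ => mean K j * x i + mean K i * x j) K :=
      intOn hK (by fun_prop)
    have i6 : IntegrableOn (fun x : ι → ℝ => mean K j * x i + mean K i * x j
        - mean K i * mean K j) K := intOn hK (by fun_prop)
    rw [integral_sub i1 i6, integral_sub i5 i4, integral_add i2 i3,
      integral_const_mul, integral_const_mul, int_coord hK, int_coord hK, int_const]
    ring
  unfold cov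
  rw [h1]
  field_simp

theorem quad {K : Set (ι → ℝ)} (hK : Body K) (θ : ι → ℝ) :
    θ ⬝ᵥ (cov K *ᵥ θ) = (∫ x in K, (θ ⬝ᵥ (x - mean K)) ^ 2) / vol K := by
  have e : ∀ x : ι → ℝ, (θ ⬝ᵥ (x - mean K)) ^ 2 =
      ∑ i, ∑ j, θ i * θ j * ((x i - mean K i) * (x j - mean K j)) := by
    intro x
    rw [sq, dotProduct, Finset.sum_mul_sum]
    refine Finset.sum_congr rfl fun i _ => Finset.sum_congr rfl fun j _ => ?_
    simp only [Pi.sub_apply]
    ring
  simp only [e]
  rw [integral_finsetSum _ fun i _ => intOn hK (by fun_prop)]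
  rw [dotProduct, Finset.sum_div]
  refine Finset.sum_congr rfl fun i _ => ?_
  rw [integral_finsetSum _ fun j _ => intOn hK (by fun_prop), Matrix.mulVec, dotProduct,
    Finset.mul_sum, Finset.sum_div]
  refine Finset.sum_congr rfl fun j _ => ?_
  rw [integral_const_mul, cov]
  ring

theorem quad_pos {K : Set (ι → ℝ)} (hK : Body K) (θ : ι → ℝ) (hθ : θ ≠ 0) :
    0 < θ ⬝ᵥ (cov K *ᵥ θ) := by
  rw [quad hK]
  refine div_pos ?_ (vol_pos hK)
  set f : (ι → ℝ) → ℝ := fun x => (θ ⬝ᵥ (x - mean K)) ^ 2 with hf
  have hfc : Continuous f := by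
    simp only [hf, dotProduct]
    fun_prop
  rw [setIntegral_pos_iff_support_of_nonneg_ae (Filter.Eventually.of_forall fun x => sq_nonneg _)
    (intOn hK hfc)]
  have hopen : IsOpen (Function.support f ∩ interior K) :=
    (hfc.isOpen_support).inter isOpen_interior
  have hsub : Function.support f ∩ interior K ⊆ Function.support f ∩ K :=
    inter_subset_inter_right _ interior_subset
  refine (hopen.measure_pos volume ?_).trans_le (measure_mono hsub)
  obtain ⟨x, hx⟩ := hK.interior
  by_cases h0 : θ ⬝ᵥ (x - mean K) = 0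
  · have hc : Continuous fun t : ℝ => x + t • θ := by fun_prop
    have h1 : ∀ᶠ t in nhds (0 : ℝ), x + t • θ ∈ interior K := by
      have := hc.tendsto 0
      simp only [zero_smul, add_zero] at this
      exact this.eventually (isOpen_interior.mem_nhds hx)
    obtain ⟨δ, hδ, hball⟩ := Metric.eventually_nhds_iff.mp h1
    have h2 := hball (y := δ / 2) (by
      rw [Real.dist_eq, sub_zero, abs_of_pos (by linarith)]; linarith)
    refine ⟨x + (δ / 2) • θ, ?_, h2⟩
    rw [Function.mem_support]
    simp only [hf]
    have h3 : θ ⬝ᵥ (x + (δ / 2) • θ - mean K) = δ / 2 * (θ ⬝ᵥ θ) := by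
      have : x + (δ / 2) • θ - mean K = (x - mean K) + (δ / 2) • θ := by abel
      rw [this, dotProduct_add, h0, zero_add, dotProduct_smul, smul_eq_mul]
    rw [h3]
    have h4 : θ ⬝ᵥ θ ≠ 0 := fun h => hθ (dotProduct_self_eq_zero.mp h)
    exact pow_ne_zero 2 (mul_ne_zero (by linarith) h4)
  · exact ⟨x, by rw [Function.mem_support]; exact pow_ne_zero 2 h0, hx⟩

end Pos

theorem pos : S_POS := by
  intro ι _ _ K hK
  refine ⟨Pos.vol_pos hK, ?_, Pos.cov_eq hK⟩
  refine Matrix.PosDef.of_dotProduct_mulVec_pos ?_ fun x hx => ?_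
  · ext i j
    simp only [Matrix.conjTranspose_apply, star_trivial, cov]
    congr 1
    refine integral_congr_ae (Filter.Eventually.of_forall fun x => ?_)
    simp only
    ring
  · simpa using Pos.quad_pos hK x hx

end Vale.Agent.P254
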